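import Vale.Agent.P043.Defs

namespace P043

theorem basic_tl_image {G G' : Type} [AddCommGroup G] [AddCommGroup G'] (e : G ≃+ G')
    {A F : Set G} (h : Tl A F) : Tl (e '' A) (e '' F) := by
  intro g
  obtain ⟨f, ⟨hf, hA⟩, hu⟩ := h (e.symm g)
  refine ⟨e f, ⟨⟨f, hf, rfl⟩, ⟨e.symm g - f, hA, by simp⟩⟩, ?_⟩
  rintro _ ⟨⟨f', hf', rfl⟩, ⟨a, ha, hae⟩⟩
  have : a = e.symm g - f' := by
    apply e.injective
    simp [hae]
  rw [this] at ha
  rw [hu f' ⟨hf', ha⟩]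

theorem BadFam.congr {G G' : Type} [AddCommGroup G] [AddCommGroup G'] (e : G ≃+ G') {n : ℕ}
    (h : BadFam G n) : BadFam G' n := by
  obtain ⟨F, hfin, ⟨A, hA⟩, hno⟩ := h
  refine ⟨fun i => e '' F i, fun i => (hfin i).image _, ⟨e '' A, fun i => basic_tl_image e (hA i)⟩,
    ?_⟩
  intro B hB hper
  have hBt : ∀ i, Tl (e.symm '' B) (F i) := by
    intro i
    have := basic_tl_image e.symm (hB i)
    rwa [← Set.image_comp, show (⇑e.symm ∘ ⇑e) = id by ext x; simp, Set.image_id] at this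
  apply hno _ hBt
  obtain ⟨m, hm, hp⟩ := hper
  refine ⟨m, hm, ?_⟩
  rintro g _ ⟨x, hx, rfl⟩
  exact ⟨x + m • e g, hp _ _ hx, by simp⟩

theorem BadFam.prod_right {G : Type} [AddCommGroup G] (K : Type) [AddCommGroup K]
    (h : BadFam G 0) : BadFam (G × K) 0 := by
  obtain ⟨F, hfin, ⟨A, hA⟩, hno⟩ := h
  refine ⟨fun i => F i ×ˢ {0}, fun i => (hfin i).prod (Set.finite_singleton _),
    ⟨A ×ˢ Set.univ, ?_⟩, ?_⟩
  · rintro i ⟨g, k⟩
    obtain ⟨f, ⟨hf, hfA⟩, hu⟩ := hA i g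
    refine ⟨(f, 0), ⟨⟨hf, rfl⟩, ⟨hfA, trivial⟩⟩, ?_⟩
    rintro ⟨f', z⟩ ⟨⟨hf', hz⟩, ⟨hA', -⟩⟩
    have hz' : z = 0 := hz
    subst hz'
    rw [hu f' ⟨hf', hA'⟩]
  · intro B hB hper
    apply hno {x | (x, (0 : K)) ∈ B}
    · intro i g
      obtain ⟨⟨f, z⟩, ⟨⟨hf, hz⟩, hfA⟩, hu⟩ := hB i (g, 0)
      have hz' : z = 0 := hz
      subst hz'
      refine ⟨f, ⟨hf, ?_⟩, ?_⟩
      · simpa using hfA
      · rintro f' ⟨hf', hA'⟩
        have := hu (f', 0) ⟨⟨hf', rfl⟩, by simpa using hA'⟩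
        exact congrArg Prod.fst this
    · obtain ⟨m, hm, hp⟩ := hper
      refine ⟨m, hm, fun g x hx => ?_⟩
      have := hp (g, 0) (x, 0) hx
      simpa using this

/-- `ℤ^d × ℤ ≃ ℤ^(d+1)` -/
def basicSnoc (d : ℕ) : ((Fin d → ℤ) × ℤ) ≃+ (Fin (d + 1) → ℤ) where
  toFun p := Fin.snoc (α := fun _ => ℤ) p.1 p.2
  invFun f := (fun i => f i.castSucc, f (Fin.last d))
  left_inv p := by
    ext i <;> simp
  right_inv f := by
    ext i
    refine Fin.lastCases ?_ (fun j => ?_) i <;> simp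
  map_add' p q := by
    ext i
    refine Fin.lastCases ?_ (fun j => ?_) i <;> simp

/-- `ℤ × ℤ × ℤ × ℤ ≃ ℤ^4` -/
def basicFour : (((ℤ × ℤ) × ℤ) × ℤ) ≃+ (Fin 4 → ℤ) where
  toFun p := ![p.1.1.1, p.1.1.2, p.1.2, p.2]
  invFun f := (((f 0, f 1), f 2), f 3)
  left_inv p := by simp
  right_inv f := by
    ext i
    fin_cases i <;> simp
  map_add' p q := by
    ext i
    fin_cases i <;> simp

/-- from `ℤ⁴` (as a product) to `ℤ^d`, `d ≥ 4` -/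
theorem badFam_ge_four (h : BadFam (((ℤ × ℤ) × ℤ) × ℤ) 0) (d : ℕ) (hd : 4 ≤ d) :
    BadFam (Fin d → ℤ) 0 := by
  induction d, hd using Nat.le_induction with
  | base => exact h.congr basicFour
  | succ d hd ih => exact (ih.prod_right ℤ).congr (basicSnoc d)

/-- translation of `BadFam (Fin d → ℤ) 0` into the final form -/
theorem final_form {G : Type} [AddCommGroup G] (h : BadFam G 0) :
    ∃ F : Finset G, F.Nonempty ∧
      (∃ A : Set G, ∀ g : G, ∃! p : G × G, p.1 ∈ A ∧ p.2 ∈ F ∧ p.1 + p.2 = g) ∧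
      ∀ A : Set G, (∀ g : G, ∃! p : G × G, p.1 ∈ A ∧ p.2 ∈ F ∧ p.1 + p.2 = g) →
        ¬ ∃ K : AddSubgroup G, K.FiniteIndex ∧ ∀ k ∈ K, ∀ x : G, x ∈ A ↔ x + k ∈ A := by
  obtain ⟨F, hfin, ⟨A, hA⟩, hno⟩ := h
  have hF0 : ∀ i : Fin (0 + 1), F i = F 0 := fun i => by
    have : i = 0 := Fin.ext (by omega)
    rw [this]
  refine ⟨(hfin 0).toFinset, ?_, ⟨A, ?_⟩, ?_⟩
  · obtain ⟨f, ⟨hf, -⟩, -⟩ := hA 0 0
    exact ⟨f, by simpa using hf⟩
  · intro g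
    obtain ⟨f, ⟨hf, hfA⟩, hu⟩ := hA 0 g
    refine ⟨(g - f, f), ⟨hfA, by simpa using hf, by simp⟩, ?_⟩
    rintro ⟨a, f'⟩ ⟨ha, hf', hs⟩
    simp only at ha hf' hs
    have ha' : a = g - f' := by rw [← hs]; abel
    subst ha'
    rw [hu f' ⟨by simpa using hf', ha⟩]
  · rintro B hB ⟨K, hK, hinv⟩
    apply hno B
    · intro i
      rw [hF0 i]
      intro g
      obtain ⟨⟨a, f⟩, ⟨ha, hf, hs⟩, hu⟩ := hB g
      simp only at ha hf hs
      have ha' : a = g - f := by rw [← hs]; abel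
      subst ha'
      refine ⟨f, ⟨by simpa using hf, ha⟩, ?_⟩
      rintro f' ⟨hf', hA'⟩
      have := hu (g - f', f') ⟨hA', by simpa using hf', by simp⟩
      exact congrArg Prod.snd this
    · refine ⟨K.index, Nat.pos_of_ne_zero hK.index_ne_zero, fun g x hx => ?_⟩
      exact (hinv _ (K.nsmul_index_mem g) x).1 hx

end P043
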