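import Vale.Agent.P043.Rigid2

namespace P043

theorem cocycle_VZ_congr {c r d e c' r' d' e' : ℤ} (hc : 64 ∣ c' - c) (hr : 64 ∣ r' - r)
    (hd : 64 ∣ d' - d) (he : 64 ∣ e' - e) (h : VZ c r d e) : VZ c' r' d' e' := by
  obtain ⟨k, hk, h⟩ := h
  refine ⟨k, hk, ?_⟩
  rcases hk with rfl | rfl | rfl | rfl | rfl | rfl <;> omega

/-- the canonical lift -/
def cocycleLift (w : ZMod 64) : ℤ := (w.val : ℤ)

theorem cocycleLift_cast (w : ZMod 64) : ((cocycleLift w : ℤ) : ZMod 64) = w := by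
  unfold cocycleLift
  rw [Int.cast_natCast, ZMod.natCast_zmod_val]

theorem cocycle_dvd {w : ZMod 64} {c : ℤ} (h : w = (c : ZMod 64)) : 64 ∣ cocycleLift w - c := by
  have h1 : ((c : ℤ) : ZMod 64) = ((cocycleLift w : ℤ) : ZMod 64) := by
    rw [cocycleLift_cast, h]
  exact (ZMod.intCast_eq_intCast_iff_dvd_sub _ _ 64).1 h1

theorem cocycle_inv : ∀ δ : ZMod 64, 32 * δ = 32 → ∃ ε : ZMod 64, δ * ε = 1 := by
  intro δ h
  obtain ⟨k, hk⟩ : ∃ k : ℕ, (k : ZMod 64) = δ := ⟨δ.val, ZMod.natCast_zmod_val δ⟩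
  have h1 : ((32 * k - 32 : ℤ) : ZMod 64) = 0 := by
    push_cast
    rw [hk, h]
    ring
  have h2 := (ZMod.intCast_zmod_eq_zero_iff_dvd _ 64).1 h1
  push_cast at h2
  have h3 : Odd k := by
    rw [Nat.odd_iff]
    omega
  have h4 : Nat.Coprime k 64 := by
    have : (64 : ℕ) = 2 ^ 6 := by norm_num
    rw [this]
    exact Nat.Coprime.pow_right 6 h3.coprime_two_right
  refine ⟨(k : ZMod 64)⁻¹, ?_⟩
  rw [← hk]
  exact ZMod.coe_mul_inv_eq_one k h4

/-- no solution of the concrete core system is periodic -/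
theorem core_aperiodic (a : ℤ × ℤ → ZMod 64) (W : ℤ × ℤ → Vr → ZMod 64)
    (h : CoreSol 64 hdir KK Valid a W) :
    ¬ ∃ m : ℕ, 0 < m ∧ ∀ p x : ℤ × ℤ, W (x + m • p) = W x := by
  rintro ⟨m, hm, hper⟩
  have invZ : ∀ v x (k : ℤ), W (x + k • hdir v) v = W x v := by
    intro v x k
    induction k using Int.induction_on with
    | zero => simp
    | succ i ih =>
      rw [add_smul, one_smul, ← add_assoc, h.inv, ih]
    | pred i ih =>
      rw [← h.inv v (x + (-(i : ℤ) - 1) • hdir v), ← ih]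
      congr 1
      rw [sub_smul, one_smul]
      abel
  have hX : ∀ x y : ℤ, W (x, y) .X = W (x, 0) .X := by
    intro x y
    have := invZ .X (x, 0) y
    simpa [hdir] using this
  have hY : ∀ x y : ℤ, W (x, y) .Y = W (0, y) .Y := by
    intro x y
    have := invZ .Y (0, y) x
    simpa [hdir] using this
  have hC : ∀ x y : ℤ, W (x, y) .C = W (x, 0) .C := by
    intro x y
    have := invZ .C (x, 0) y
    simpa [hdir] using this
  have hR : ∀ x y : ℤ, W (x, y) .R = W (0, y) .R := by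
    intro x y
    have := invZ .R (0, y) x
    simpa [hdir] using this
  have hD : ∀ x y : ℤ, W (x, y) .D = W (x + y, 0) .D := by
    intro x y
    have := invZ .D (x + y, 0) (-y)
    simpa [hdir] using this
  have hE : ∀ x y : ℤ, W (x, y) .E = W (x - y, 0) .E := by
    intro x y
    have := invZ .E (x - y, 0) y
    simpa [hdir] using this
  have sX : ∀ x y : ℤ, a (x, y + 1) = a (x, y) + W (x, 0) .X := by
    intro x y
    have := h.step .X (Or.inl rfl) (x, y)
    rw [hX] at this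
    simpa [hdir] using this
  have sY : ∀ x y : ℤ, a (x + 1, y) = a (x, y) + W (0, y) .Y := by
    intro x y
    have := h.step .Y (Or.inr (Or.inl rfl)) (x, y)
    rw [hY] at this
    simpa [hdir] using this
  have sU : ∀ x y : ℤ, a (x + 32, y + 1) = a (x, y) + W (x, y) .U := by
    intro x y
    have := h.step .U (Or.inr (Or.inr rfl)) (x, y)
    simpa [hdir] using this
  -- the common increment
  have hδ : ∀ x y : ℤ, W (x + 1, 0) .X - W (x, 0) .X = W (0, y + 1) .Y - W (0, y) .Y := by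
    intro x y
    have h1 : a (x + 1, y + 1) = a (x, y) + W (x, 0) .X + W (0, y + 1) .Y := by
      rw [sY, sX]
    have h2 : a (x + 1, y + 1) = a (x, y) + W (0, y) .Y + W (x + 1, 0) .X := by
      rw [sX, sY]
    have h3 := h1.symm.trans h2
    have h4 : W (x, 0) .X + W (0, y + 1) .Y = W (0, y) .Y + W (x + 1, 0) .X := by
      apply add_left_cancel (a := a (x, y))
      rw [← add_assoc, ← add_assoc, h3]
    linear_combination -h4
  obtain ⟨δ, hδdef⟩ : ∃ δ : ZMod 64, δ = W (1, 0) .X - W (0, 0) .X := ⟨_, rfl⟩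
  have hYδ : ∀ y : ℤ, W (0, y + 1) .Y = W (0, y) .Y + δ := by
    intro y
    have := hδ 0 y
    rw [zero_add, ← hδdef] at this
    rw [this]
    ring
  have hXδ : ∀ x : ℤ, W (x + 1, 0) .X = W (x, 0) .X + δ := by
    intro x
    have h1 := hδ x 0
    have h2 := hYδ 0
    rw [h2] at h1
    linear_combination h1
  have hXf : ∀ x : ℤ, W (x, 0) .X = W (0, 0) .X + x * δ := by
    intro x
    induction x using Int.induction_on with
    | zero => simp
    | succ i ih =>
      rw [hXδ, ih]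
      push_cast
      ring
    | pred i ih =>
      have h1 := hXδ (-(i : ℤ) - 1)
      rw [sub_add_cancel, ih] at h1
      push_cast at h1 ⊢
      linear_combination -h1
  have hYf : ∀ y : ℤ, W (0, y) .Y = W (0, 0) .Y + y * δ := by
    intro x
    induction x using Int.induction_on with
    | zero => simp
    | succ i ih =>
      rw [hYδ, ih]
      push_cast
      ring
    | pred i ih =>
      have h1 := hYδ (-(i : ℤ) - 1)
      rw [sub_add_cancel, ih] at h1
      push_cast at h1 ⊢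
      linear_combination -h1
  have sYk : ∀ (k : ℕ) (x y : ℤ), a (x + k, y) = a (x, y) + k * W (0, y) .Y := by
    intro k
    induction k with
    | zero => intro x y; simp
    | succ k ih =>
      intro x y
      have h1 := sY (x + k) y
      rw [ih] at h1
      push_cast
      rw [← add_assoc, h1]
      ring
  have hU : W (0, 0) .U = W (0, 0) .X + 32 * (W (0, 0) .Y + δ) := by
    have h1 := sU 0 0
    have h2 := sYk 32 0 1
    have h3 := sX 0 0
    have h4 := hYδ 0
    norm_num at h1 h2 h3 h4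
    rw [h2, h3, h4] at h1
    linear_combination -h1
  have h32 : 32 * δ = 32 := by
    obtain ⟨x, y, u, c, r, d, e, hx, hy, hu, -, -, -, -, hdv, -⟩ := h.valid (0, 0)
    have h1 : ((u - x - 32 * y - 32 : ℤ) : ZMod 64) = 0 :=
      (ZMod.intCast_zmod_eq_zero_iff_dvd _ 64).2 hdv
    push_cast at h1
    rw [← hx, ← hy, ← hu, hU] at h1
    linear_combination h1
  obtain ⟨ε, hε⟩ := cocycle_inv δ h32
  obtain ⟨l, hldef⟩ : ∃ l : ℤ, l = cocycleLift δ := ⟨_, rfl⟩
  obtain ⟨α, hαdef⟩ : ∃ α : ℤ, α = cocycleLift (ε * W (0, 0) .X) := ⟨_, rfl⟩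
  obtain ⟨β, hβdef⟩ : ∃ β : ℤ, β = cocycleLift (ε * W (0, 0) .Y) := ⟨_, rfl⟩
  have hlc : (l : ZMod 64) = δ := by rw [hldef, cocycleLift_cast]
  have hαc : (α : ZMod 64) = ε * W (0, 0) .X := by rw [hαdef, cocycleLift_cast]
  have hβc : (β : ZMod 64) = ε * W (0, 0) .Y := by rw [hβdef, cocycleLift_cast]
  have hl : l % 2 = 1 := by
    have h1 : ((32 * l - 32 : ℤ) : ZMod 64) = 0 := by
      push_cast
      rw [hlc, h32]
      ring
    have h2 := (ZMod.intCast_zmod_eq_zero_iff_dvd _ 64).1 h1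
    push_cast at h2
    omega
  have hXl : ∀ x y : ℤ, W (x, y) .X = ((l * (x + α) : ℤ) : ZMod 64) := by
    intro x y
    rw [hX, hXf]
    push_cast
    rw [hlc, hαc]
    linear_combination -(W (0, 0) .X) * hε
  have hYl : ∀ x y : ℤ, W (x, y) .Y = ((l * (y + β) : ℤ) : ZMod 64) := by
    intro x y
    rw [hY, hYf]
    push_cast
    rw [hlc, hβc]
    linear_combination -(W (0, 0) .Y) * hε
  have cong : ∀ {p q : ℤ}, ((p : ℤ) : ZMod 64) = ((q : ℤ) : ZMod 64) → 64 ∣ q - p := by
    intro p q hpq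
    exact (ZMod.intCast_eq_intCast_iff_dvd_sub _ _ 64).1 hpq
  have hodd : ∀ s : ℤ, s % 2 = 1 → (l * s) % 2 = 1 := by
    intro s hs
    rw [Int.mul_emod, hl, hs]
    rfl
  refine rigid (fun t => cocycleLift (W (t, 0) .C)) (fun t => cocycleLift (W (0, t) .R))
    (fun t => cocycleLift (W (t, 0) .D)) (fun t => cocycleLift (W (t, 0) .E)) ?_ ?_ ?_ ?_ ?_
    l α β hl ?_ ?_ ?_ ?_ ⟨m, by exact_mod_cast hm, ?_⟩
  · intro t
    obtain ⟨x, y, u, c, r, d, e, hx, hy, hu, hc, hr, hd, he, hdv, pc, pr, pd, pe, hv, q1, q2, q3, q4⟩ := h.valid (t, 0)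
    have := cocycle_dvd hc
    change cocycleLift (W (t, 0) .C) % 2 = 1
    omega
  · intro t
    obtain ⟨x, y, u, c, r, d, e, hx, hy, hu, hc, hr, hd, he, hdv, pc, pr, pd, pe, hv, q1, q2, q3, q4⟩ := h.valid (0, t)
    have := cocycle_dvd hr
    change cocycleLift (W (0, t) .R) % 2 = 1
    omega
  · intro t
    obtain ⟨x, y, u, c, r, d, e, hx, hy, hu, hc, hr, hd, he, hdv, pc, pr, pd, pe, hv, q1, q2, q3, q4⟩ := h.valid (t, 0)
    have := cocycle_dvd hd
    change cocycleLift (W (t, 0) .D) % 2 = 1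
    omega
  · intro t
    obtain ⟨x, y, u, c, r, d, e, hx, hy, hu, hc, hr, hd, he, hdv, pc, pr, pd, pe, hv, q1, q2, q3, q4⟩ := h.valid (t, 0)
    have := cocycle_dvd he
    change cocycleLift (W (t, 0) .E) % 2 = 1
    omega
  · intro x y
    obtain ⟨x', y', u, c, r, d, e, hx, hy, hu, hc, hr, hd, he, hdv, pc, pr, pd, pe, hv, q1, q2, q3, q4⟩ := h.valid (x, y)
    rw [hC] at hc
    rw [hR] at hr
    rw [hD] at hd
    rw [hE] at he
    exact cocycle_VZ_congr (cocycle_dvd hc) (cocycle_dvd hr) (cocycle_dvd hd) (cocycle_dvd he) hv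
  · intro t ht
    obtain ⟨x', y', u, c, r, d, e, hx, hy, hu, hc, hr, hd, he, hdv, pc, pr, pd, pe, hv, q1, q2, q3, q4⟩ := h.valid (t, 0)
    have h1 := cocycle_dvd hc
    have h2 := hodd _ ht
    have h3 := cong ((hXl t 0).symm.trans hx)
    change 64 ∣ cocycleLift (W (t, 0) .C) - l * (t + α)
    omega
  · intro t ht
    obtain ⟨x', y', u, c, r, d, e, hx, hy, hu, hc, hr, hd, he, hdv, pc, pr, pd, pe, hv, q1, q2, q3, q4⟩ := h.valid (0, t)
    have h1 := cocycle_dvd hr
    have h2 := hodd _ ht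
    have h3 := cong ((hYl 0 t).symm.trans hy)
    change 64 ∣ cocycleLift (W (0, t) .R) - l * (t + β)
    omega
  · intro t ht
    obtain ⟨x', y', u, c, r, d, e, hx, hy, hu, hc, hr, hd, he, hdv, pc, pr, pd, pe, hv, q1, q2, q3, q4⟩ := h.valid (t, 0)
    have h1 := cocycle_dvd hd
    have h2 := hodd _ ht
    have h3 := cong ((hXl t 0).symm.trans hx)
    have h4 := cong ((hYl t 0).symm.trans hy)
    have h5 : l * (t + α + β) = l * (t + α) + l * (0 + β) := by ring
    change 64 ∣ cocycleLift (W (t, 0) .D) - l * (t + α + β)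
    omega
  · intro t ht
    obtain ⟨x', y', u, c, r, d, e, hx, hy, hu, hc, hr, hd, he, hdv, pc, pr, pd, pe, hv, q1, q2, q3, q4⟩ := h.valid (t, 0)
    have h1 := cocycle_dvd he
    have h2 := hodd _ ht
    have h3 := cong ((hXl t 0).symm.trans hx)
    have h4 := cong ((hYl t 0).symm.trans hy)
    have h5 : l * (t + α - β) = l * (t + α) - l * (0 + β) := by ring
    change 64 ∣ cocycleLift (W (t, 0) .E) - l * (t + α - β)
    omega
  · intro t
    have h1 := hper (1, 0) (t, 0)
    have h2 : ((t, 0) : ℤ × ℤ) + m • (1, 0) = (t + m, 0) := by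
      ext <;> simp
    rw [h2] at h1
    change 64 ∣ cocycleLift (W (t + m, 0) .C) - cocycleLift (W (t, 0) .C)
    rw [h1, sub_self]
    exact dvd_zero _

end P043
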