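import Vale.Agent.P043.Basic

namespace P043

/-- the merged tile -/
def combTile {G : Type} (L : ℕ) (F0 F1 : Set G) : Set (G × ZMod L) :=
  {p | ((p.2 = 0 ∨ p.2 = 1) ∧ p.1 ∈ F1) ∨ (¬ (p.2 = 0 ∨ p.2 = 1) ∧ p.1 ∈ F0)}

theorem combTile_finite {G : Type} (L : ℕ) [NeZero L] {F0 F1 : Set G} (h0 : F0.Finite)
    (h1 : F1.Finite) : (combTile L F0 F1).Finite := by
  apply Set.Finite.subset (((h0.union h1).prod (Set.finite_univ : (Set.univ : Set (ZMod L)).Finite)))
  rintro ⟨a, z⟩ h
  refine ⟨?_, Set.mem_univ _⟩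
  rcases h with ⟨_, h⟩ | ⟨_, h⟩
  · exact Or.inr h
  · exact Or.inl h

theorem combTile_tl {G : Type} [AddCommGroup G] (L : ℕ) {A F0 F1 : Set G}
    (h0 : Tl A F0) (h1 : Tl A F1) :
    Tl ({p : G × ZMod L | p.1 ∈ A ∧ p.2 = 0}) (combTile L F0 F1) := by
  rintro ⟨y, z⟩
  by_cases hz : z = 0 ∨ z = 1
  · obtain ⟨f, ⟨hf, hfA⟩, huniq⟩ := h1 y
    refine ⟨(f, z), ⟨Or.inl ⟨hz, hf⟩, hfA, by simp⟩, ?_⟩
    rintro ⟨f', w⟩ ⟨hf', hA', hw⟩
    have hw' : z - w = 0 := hw
    have hzw : z = w := sub_eq_zero.mp hw'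
    subst hzw
    have hf1 : f' ∈ F1 := by
      rcases hf' with ⟨_, h⟩ | ⟨h, _⟩
      · exact h
      · exact absurd hz h
    have := huniq f' ⟨hf1, hA'⟩
    rw [this]
  · obtain ⟨f, ⟨hf, hfA⟩, huniq⟩ := h0 y
    refine ⟨(f, z), ⟨Or.inr ⟨hz, hf⟩, hfA, by simp⟩, ?_⟩
    rintro ⟨f', w⟩ ⟨hf', hA', hw⟩
    have hw' : z - w = 0 := hw
    have hzw : z = w := sub_eq_zero.mp hw'
    subst hzw
    have hf1 : f' ∈ F0 := by
      rcases hf' with ⟨h, _⟩ | ⟨_, h⟩
      · exact absurd h hz
      · exact h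
    have := huniq f' ⟨hf1, hA'⟩
    rw [this]

/-- number of `z` with `z - s ∈ {0,1}` -/
theorem comb_card_two {L : ℕ} [NeZero L] (h5 : 5 ≤ L) (s : ZMod L) :
    (Finset.univ.filter (fun z : ZMod L => z - s = 0 ∨ z - s = 1)).card = 2 := by
  have : Fact (1 < L) := ⟨by omega⟩
  have h01 : s ≠ s + 1 := by
    intro h
    have : (1 : ZMod L) = 0 := by
      have := congrArg (fun t => t - s) h
      simpa using this.symm
    exact one_ne_zero this
  have : (Finset.univ.filter (fun z : ZMod L => z - s = 0 ∨ z - s = 1)) = {s, s + 1} := by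
    ext z
    simp only [Finset.mem_filter, Finset.mem_univ, true_and, Finset.mem_insert,
      Finset.mem_singleton]
    constructor
    · rintro (h | h)
      · exact Or.inl (sub_eq_zero.mp h)
      · right
        rw [← h]; ring
    · rintro (h | h)
      · left; rw [h]; ring
      · right; rw [h]; ring
  rw [this, Finset.card_pair h01]

theorem comb_card_compl {L : ℕ} [NeZero L] (h5 : 5 ≤ L) (s : ZMod L) :
    (Finset.univ.filter (fun z : ZMod L => ¬ (z - s = 0 ∨ z - s = 1))).card = L - 2 := by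
  have h := Finset.card_filter_add_card_filter_not (s := (Finset.univ : Finset (ZMod L)))
    (fun z : ZMod L => z - s = 0 ∨ z - s = 1)
  rw [comb_card_two h5 s, Finset.card_univ, ZMod.card] at h
  omega

theorem comb_count {G : Type} [AddCommGroup G] {L : ℕ} [NeZero L] (hL : Odd L) (h5 : 5 ≤ L)
    {F0 F1 : Set G} (hF0 : F0.Finite) (hF1 : F1.Finite) {A : Set (G × ZMod L)}
    (hA : Tl A (combTile L F0 F1)) (y : G) :
    (∃! p : G × ZMod L, p.1 ∈ F0 ∧ (y - p.1, p.2) ∈ A) ∧
      (∃! p : G × ZMod L, p.1 ∈ F1 ∧ (y - p.1, p.2) ∈ A) := by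
  classical
  have fin0 : {p : G × ZMod L | p.1 ∈ F0 ∧ (y - p.1, p.2) ∈ A}.Finite := by
    apply Set.Finite.subset (hF0.prod (Set.finite_univ : (Set.univ : Set (ZMod L)).Finite))
    rintro ⟨a, z⟩ ⟨h, _⟩
    exact ⟨h, Set.mem_univ _⟩
  have fin1 : {p : G × ZMod L | p.1 ∈ F1 ∧ (y - p.1, p.2) ∈ A}.Finite := by
    apply Set.Finite.subset (hF1.prod (Set.finite_univ : (Set.univ : Set (ZMod L)).Finite))
    rintro ⟨a, z⟩ ⟨h, _⟩
    exact ⟨h, Set.mem_univ _⟩
  obtain ⟨S0, hS0⟩ := fin0.exists_finset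
  obtain ⟨S1, hS1⟩ := fin1.exists_finset
  -- every point of the fibre is covered exactly once
  have cover : ∀ z : ZMod L,
      (S0.filter (fun p => ¬ (z - p.2 = 0 ∨ z - p.2 = 1))).card +
        (S1.filter (fun p => z - p.2 = 0 ∨ z - p.2 = 1)).card = 1 := by
    intro z
    obtain ⟨⟨f, w⟩, ⟨hf, hfA⟩, huniq⟩ := hA (y, z)
    have hfA' : (y - f, z - w) ∈ A := hfA
    have key0 : ∀ p ∈ S0, ¬ (z - p.2 = 0 ∨ z - p.2 = 1) → (p.1, z - p.2) = (f, w) := by
      rintro ⟨a, s⟩ hp hz
      have hp' := (hS0 _).mp hp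
      refine huniq (a, z - s) ⟨Or.inr ⟨hz, hp'.1⟩, ?_⟩
      have h2 : ((y, z) : G × ZMod L) - (a, z - s) = (y - a, s) := by
        ext
        · rfl
        · simp
      rw [h2]
      exact hp'.2
    have key1 : ∀ p ∈ S1, (z - p.2 = 0 ∨ z - p.2 = 1) → (p.1, z - p.2) = (f, w) := by
      rintro ⟨a, s⟩ hp hz
      have hp' := (hS1 _).mp hp
      refine huniq (a, z - s) ⟨Or.inl ⟨hz, hp'.1⟩, ?_⟩
      have h2 : ((y, z) : G × ZMod L) - (a, z - s) = (y - a, s) := by
        ext
        · rfl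
        · simp
      rw [h2]
      exact hp'.2
    have inv0 : ∀ p : G × ZMod L, (p.1, z - p.2) = (f, w) → p = (f, z - w) := by
      rintro ⟨a, s⟩ h
      have h1 : a = f := congrArg Prod.fst h
      have h2 : z - s = w := congrArg Prod.snd h
      rw [h1, ← h2]
      simp
    have hzz : z - (z - w) = w := by simp
    rcases hf with ⟨hw, hf⟩ | ⟨hw, hf⟩
    · have e0 : S0.filter (fun p => ¬ (z - p.2 = 0 ∨ z - p.2 = 1)) = ∅ := by
        apply Finset.filter_eq_empty_iff.mpr
        intro p hp hz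
        have h2 : z - p.2 = w := congrArg Prod.snd (key0 p hp hz)
        rw [h2] at hz
        exact hz hw
      have e1 : S1.filter (fun p => z - p.2 = 0 ∨ z - p.2 = 1) = {(f, z - w)} := by
        ext p
        rw [Finset.mem_filter, Finset.mem_singleton]
        constructor
        · rintro ⟨hp, hz⟩
          exact inv0 p (key1 p hp hz)
        · rintro rfl
          refine ⟨(hS1 _).mpr ⟨hf, hfA'⟩, ?_⟩
          rw [hzz]
          exact hw
      rw [e0, e1, Finset.card_empty, Finset.card_singleton]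
    · have e1 : S1.filter (fun p => z - p.2 = 0 ∨ z - p.2 = 1) = ∅ := by
        apply Finset.filter_eq_empty_iff.mpr
        intro p hp hz
        have h2 : z - p.2 = w := congrArg Prod.snd (key1 p hp hz)
        rw [h2] at hz
        exact hw hz
      have e0 : S0.filter (fun p => ¬ (z - p.2 = 0 ∨ z - p.2 = 1)) = {(f, z - w)} := by
        ext p
        rw [Finset.mem_filter, Finset.mem_singleton]
        constructor
        · rintro ⟨hp, hz⟩
          exact inv0 p (key0 p hp hz)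
        · rintro rfl
          refine ⟨(hS0 _).mpr ⟨hf, hfA'⟩, ?_⟩
          rw [hzz]
          exact hw
      rw [e0, e1, Finset.card_empty, Finset.card_singleton]
  -- count
  have hsum : S0.card * (L - 2) + S1.card * 2 = L := by
    have h1 : ∑ z : ZMod L, ((S0.filter (fun p => ¬ (z - p.2 = 0 ∨ z - p.2 = 1))).card +
        (S1.filter (fun p => z - p.2 = 0 ∨ z - p.2 = 1)).card) = L := by
      rw [Finset.sum_congr rfl (fun z _ => cover z), Finset.sum_const, Finset.card_univ, ZMod.card]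
      simp
    rw [Finset.sum_add_distrib] at h1
    have h2 : ∑ z : ZMod L, (S0.filter (fun p => ¬ (z - p.2 = 0 ∨ z - p.2 = 1))).card
        = S0.card * (L - 2) := by
      simp only [Finset.card_filter]
      rw [Finset.sum_comm]
      have : ∀ p ∈ S0, (∑ z : ZMod L, if ¬ (z - p.2 = 0 ∨ z - p.2 = 1) then 1 else 0) = L - 2 := by
        intro p _
        rw [← Finset.card_filter]
        exact comb_card_compl h5 p.2
      rw [Finset.sum_congr rfl this, Finset.sum_const, smul_eq_mul]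
    have h3 : ∑ z : ZMod L, (S1.filter (fun p => (z - p.2 = 0 ∨ z - p.2 = 1))).card
        = S1.card * 2 := by
      simp only [Finset.card_filter]
      rw [Finset.sum_comm]
      have : ∀ p ∈ S1, (∑ z : ZMod L, if (z - p.2 = 0 ∨ z - p.2 = 1) then 1 else 0) = 2 := by
        intro p _
        rw [← Finset.card_filter]
        exact comb_card_two h5 p.2
      rw [Finset.sum_congr rfl this, Finset.sum_const, smul_eq_mul]
    rw [h2, h3] at h1
    exact h1
  have hk : S0.card = 1 := by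
    obtain ⟨l, rfl⟩ := hL
    rcases Nat.lt_or_ge S0.card 2 with h | h
    · interval_cases hc : S0.card
      · omega
      · rfl
    · exfalso
      have : 2 * (2 * l + 1 - 2) ≤ S0.card * (2 * l + 1 - 2) := Nat.mul_le_mul_right _ h
      omega
  have hj : S1.card = 1 := by
    rw [hk] at hsum
    omega
  constructor
  · obtain ⟨p, hp⟩ := Finset.card_eq_one.mp hk
    refine ⟨p, (hS0 p).mp (by rw [hp]; exact Finset.mem_singleton_self p), ?_⟩
    intro q hq
    have : q ∈ S0 := (hS0 q).mpr hq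
    rw [hp] at this
    exact Finset.mem_singleton.mp this
  · obtain ⟨p, hp⟩ := Finset.card_eq_one.mp hj
    refine ⟨p, (hS1 p).mp (by rw [hp]; exact Finset.mem_singleton_self p), ?_⟩
    intro q hq
    have : q ∈ S1 := (hS1 q).mpr hq
    rw [hp] at this
    exact Finset.mem_singleton.mp this

/-- uniqueness of the pair gives a tiling of the projection -/
theorem comb_proj {G : Type} [AddCommGroup G] {L : ℕ} {F0 : Set G} {A : Set (G × ZMod L)}
    (h : ∀ y : G, ∃! p : G × ZMod L, p.1 ∈ F0 ∧ (y - p.1, p.2) ∈ A) :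
    Tl {a : G | ∃ s : ZMod L, (a, s) ∈ A} F0 := by
  intro y
  obtain ⟨p, ⟨hp, hpA⟩, huniq⟩ := h y
  refine ⟨p.1, ⟨hp, p.2, hpA⟩, ?_⟩
  rintro f ⟨hf, s, hs⟩
  exact congrArg Prod.fst (huniq (f, s) ⟨hf, hs⟩)

/-- parity trick: merge one tile into all the others, `ℤ/L` with `L` odd, `L ≥ 5`. -/
theorem combine {G : Type} [AddCommGroup G] (L : ℕ) (hL : Odd L) (h5 : 5 ≤ L) {n : ℕ}
    (h : BadFam G (n + 1)) : BadFam (G × ZMod L) n := by
  have : NeZero L := ⟨by omega⟩
  obtain ⟨F, hfin, ⟨A, hA⟩, hno⟩ := h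
  refine ⟨fun i => combTile L (F 0) (F i.succ), ?_, ?_, ?_⟩
  · intro i
    exact combTile_finite L (hfin 0) (hfin _)
  · exact ⟨{p : G × ZMod L | p.1 ∈ A ∧ p.2 = 0}, fun i => combTile_tl L (hA 0) (hA _)⟩
  · intro A' hA' hper
    have hc : ∀ i : Fin (n + 1), _ := fun i => comb_count hL h5 (hfin 0) (hfin i.succ) (hA' i)
    refine hno {a : G | ∃ s : ZMod L, (a, s) ∈ A'} ?_ ?_
    · intro i
      refine Fin.cases ?_ ?_ i
      · exact comb_proj (fun y => (hc 0 y).1)
      · intro j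
        exact comb_proj (fun y => (hc j y).2)
    · obtain ⟨m, hm, hmA⟩ := hper
      refine ⟨m, hm, ?_⟩
      rintro g x ⟨s, hs⟩
      refine ⟨s, ?_⟩
      have h1 := hmA (g, 0) (x, s) hs
      have h2 : ((x, s) : G × ZMod L) + m • (g, 0) = (x + m • g, s) := by
        ext
        · simp
        · simp
      rw [h2] at h1
      exact h1

theorem combine_all {G : Type} [AddCommGroup G] {b : ℕ} (hb : 0 < b) {n : ℕ}
    (h : BadFam (G × ZMod b) n) : ∃ b', 0 < b' ∧ BadFam (G × ZMod b') 0 := by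
  induction n generalizing b with
  | zero => exact ⟨b, hb, h⟩
  | succ n ih =>
    obtain ⟨p, hp, hprime⟩ := Nat.exists_infinite_primes (b + 6)
    have hodd : Odd p := hprime.odd_of_ne_two (by omega)
    have hcop : Nat.Coprime b p := by
      apply Nat.Coprime.symm
      apply (Nat.Prime.coprime_iff_not_dvd hprime).mpr
      intro hd
      have := Nat.le_of_dvd hb hd
      omega
    have h1 : BadFam ((G × ZMod b) × ZMod p) n := combine p hodd (by omega) h
    have e : ((G × ZMod b) × ZMod p) ≃+ (G × ZMod (b * p)) :=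
      AddEquiv.prodAssoc.trans
        ((AddEquiv.refl G).prodCongr (ZMod.chineseRemainder hcop).symm.toAddEquiv)
    exact ih (Nat.mul_pos hb hprime.pos) (h1.congr e)

end P043
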