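import Mathlib

/-!
Definitions for P043 (periodic tiling conjecture, counterexamples in all dimensions `≥ 4`).
-/

namespace P043

/-- `A ⊕ F = G`: every `g` has exactly one `f ∈ F` with `g - f ∈ A`. -/
def Tl {G : Type} [AddCommGroup G] (A F : Set G) : Prop :=
  ∀ g : G, ∃! f : G, f ∈ F ∧ g - f ∈ A

/-- `A` is invariant under `m • G` for some `m > 0`. -/
def MPer {G : Type} [AddCommGroup G] (A : Set G) : Prop :=
  ∃ m : ℕ, 0 < m ∧ ∀ g x : G, x ∈ A → x + m • g ∈ A

/-- `n + 1` finite sets having a common tiling complement, but no `MPer` common one. -/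
def BadFam (G : Type) [AddCommGroup G] (n : ℕ) : Prop :=
  ∃ F : Fin (n + 1) → Set G, (∀ i, (F i).Finite) ∧ (∃ A, ∀ i, Tl A (F i)) ∧
    ∀ A, (∀ i, Tl A (F i)) → ¬ MPer A

/-- graph of a function -/
def graph {G0 H : Type} (f : G0 → H) : Set (G0 × H) := {p | p.2 = f p.1}

/-- A solution `(a, W)` of the core system over `ℤ²`: `V` is a finite set of variables,
`W x v ∈ ℤ/q` is the value of the variable `v` at the point `x`; it is invariant under `h v`;
for `v ∈ K` it is the increment of `a` along `h v`; and all value vectors are valid. -/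
structure CoreSol {V : Type} (q : ℕ) (h : V → ℤ × ℤ) (K : Set V)
    (Valid : (V → ZMod q) → Prop) (a : ℤ × ℤ → ZMod q) (W : ℤ × ℤ → V → ZMod q) : Prop where
  inv : ∀ v x, W (x + h v) v = W x v
  step : ∀ v ∈ K, ∀ x, a (x + h v) = a x + W x v
  valid : ∀ x, Valid (W x)

/-- The relation `V` modulo 64 (`k = 2^i`, `1 ≤ i ≤ 6`) on integers. -/
def VZ (c r d e : ℤ) : Prop :=
  ∃ k : ℤ, (k = 2 ∨ k = 4 ∨ k = 8 ∨ k = 16 ∨ k = 32 ∨ k = 64) ∧
    ((64 ∣ d - r - k * c ∧ 64 ∣ e + r - k * c) ∨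
     (64 ∣ d - c - k * r ∧ 64 ∣ e - c + k * r) ∨
     (64 ∣ c - d - k * e ∧ 64 ∣ r - d + k * e) ∨
     (64 ∣ c - e - k * d ∧ 64 ∣ r + e - k * d))

/-- the seven variables -/
inductive Vr
  | X | Y | U | C | R | D | E
  deriving DecidableEq

instance : Fintype Vr where
  elems := {.X, .Y, .U, .C, .R, .D, .E}
  complete := by intro v; cases v <;> simp

/-- direction of invariance of each variable -/
def hdir : Vr → ℤ × ℤ
  | .X => (0, 1)
  | .Y => (1, 0)
  | .U => (32, 1)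
  | .C => (0, 1)
  | .R => (1, 0)
  | .D => (1, -1)
  | .E => (1, 1)

/-- the variables that are increments of `a` -/
def KK : Set Vr := {v | v = .X ∨ v = .Y ∨ v = .U}

/-- the value constraint at each point: the values of the variables are represented by the
integers `x y u c r d e` modulo 64. -/
def Valid (w : Vr → ZMod 64) : Prop :=
  ∃ x y u c r d e : ℤ,
    w .X = x ∧ w .Y = y ∧ w .U = u ∧ w .C = c ∧ w .R = r ∧ w .D = d ∧ w .E = e ∧
    64 ∣ u - x - 32 * y - 32 ∧
    c % 2 = 1 ∧ r % 2 = 1 ∧ d % 2 = 1 ∧ e % 2 = 1 ∧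
    VZ c r d e ∧
    (x % 2 = 1 → 64 ∣ c - x) ∧
    (y % 2 = 1 → 64 ∣ r - y) ∧
    ((x + y) % 2 = 1 → 64 ∣ d - (x + y)) ∧
    ((x + y) % 2 = 1 → 64 ∣ e - (x - y))

end P043
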