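import Vale.Agent.P043.Defs

/-!
Euclidean version: definitions.
-/

namespace P043

open MeasureTheory

/-- the translates `Ω + a`, `a ∈ A`, cover `ℝ^d` up to a null set and pairwise intersect in null
sets -/
def TilesAE {d : ℕ} (A Ω : Set (Fin d → ℝ)) : Prop :=
  (∀ᵐ x : Fin d → ℝ, ∃ a ∈ A, x - a ∈ Ω) ∧
    ∀ a ∈ A, ∀ b ∈ A, a ≠ b → volume {x : Fin d → ℝ | x - a ∈ Ω ∧ x - b ∈ Ω} = 0

/-- integer vectors as real vectors -/
def zv {d : ℕ} (n : Fin d → ℤ) : Fin d → ℝ := fun i => (n i : ℝ)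

end P043
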