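import Vale.Agent.P043.ERigid

namespace P043

open MeasureTheory

theorem emain_zv_add {d : ℕ} (m n : Fin d → ℤ) : zv (m + n) = zv m + zv n := by
  ext i
  simp [zv]

theorem emain_zv_sub {d : ℕ} (m n : Fin d → ℤ) : zv (m - n) = zv m - zv n := by
  ext i
  simp [zv]

theorem emain_zv_inj {d : ℕ} {m n : Fin d → ℤ} (h : zv m = zv n) : m = n := by
  ext i
  have := congrFun h i
  simpa [zv] using this

/-- integer vectors `v i` which are a real basis generate a subgroup containing `m • ℤ^d`. -/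
theorem emain_index {d : ℕ} (b : Module.Basis (Fin d) ℝ (Fin d → ℝ)) (v : Fin d → Fin d → ℤ)
    (hv : ∀ i, b i = zv (v i)) :
    ∃ m : ℕ, 0 < m ∧ ∀ g : Fin d → ℤ, ∃ c : Fin d → ℤ, m • g = ∑ i, c i • v i := by
  have hli : LinearIndependent ℝ (fun i => b i) := b.linearIndependent
  let M : Matrix (Fin d) (Fin d) ℤ := Matrix.of v
  have hM : IsUnit (M.map (Int.cast : ℤ → ℝ)) := by
    rw [← Matrix.linearIndependent_rows_iff_isUnit]
    have : (M.map (Int.cast : ℤ → ℝ)).row = fun i => b i := by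
      ext i j
      rw [hv]
      rfl
    rw [this]
    exact hli
  have hdet : M.det ≠ 0 := by
    intro h0
    rw [Matrix.isUnit_iff_isUnit_det] at hM
    have h1 : (M.map (Int.cast : ℤ → ℝ)).det = ((M.det : ℤ) : ℝ) :=
      ((Int.castRingHom ℝ).map_det M).symm
    rw [h1, h0] at hM
    simp at hM
  refine ⟨M.det.natAbs, Int.natAbs_pos.2 hdet, fun g => ?_⟩
  have key : ∀ g : Fin d → ℤ, ∃ c : Fin d → ℤ, M.det • g = ∑ i, c i • v i := by
    intro g
    refine ⟨Matrix.vecMul g M.adjugate, ?_⟩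
    have h1 : Matrix.vecMul (Matrix.vecMul g M.adjugate) M = M.det • g := by
      rw [Matrix.vecMul_vecMul, Matrix.adjugate_mul, Matrix.vecMul_smul, Matrix.vecMul_one]
    rw [← h1]
    ext j
    simp [Matrix.vecMul, dotProduct, M]
  obtain ⟨c, hc⟩ := key g
  rcases Int.natAbs_eq M.det with h | h
  · refine ⟨c, ?_⟩
    rw [← hc]
    conv_rhs => rw [h]
    simp
  · refine ⟨-c, ?_⟩
    have h2 : ∑ i, (-c) i • v i = -(M.det • g) := by
      rw [hc]
      simp
    rw [h2]
    conv_rhs => rw [h]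
    simp

/-- from the discrete to the Euclidean statement -/
theorem euclid_of_badFam {d : ℕ} (h : BadFam (Fin d → ℤ) 0) :
    ∃ Ω : Set (Fin d → ℝ), Bornology.IsBounded Ω ∧ MeasurableSet Ω ∧ 0 < volume Ω ∧
      (∃ A, TilesAE A Ω) ∧
      ∀ A, TilesAE A Ω →
        ¬ ∃ b : Module.Basis (Fin d) ℝ (Fin d → ℝ), ∀ i, ∀ x, x ∈ A ↔ x + b i ∈ A := by
  obtain ⟨F, hfin, ⟨A0, hA0⟩, hno⟩ := h
  obtain ⟨R, hRb, hRm, hRf, hRr⟩ := exists_rigid d
  have hF : (F 0).Finite := hfin 0
  have hT0 : Tl A0 (F 0) := hA0 0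
  have hno' : ∀ A, Tl A (F 0) → ¬ MPer A := by
    intro A hA
    refine hno A fun i => ?_
    have hi : i = 0 := Fin.fin_one_eq_zero i
    rw [hi]
    exact hA
  obtain ⟨f0, hf0, -⟩ := (hT0 0).exists
  -- translates of `R`
  have hvol : ∀ t : Fin d → ℝ, volume {x : Fin d → ℝ | x - t ∈ R} = volume R := by
    intro t
    have : {x : Fin d → ℝ | x - t ∈ R} = (fun x => x + (-t)) ⁻¹' R := by
      ext x
      simp [sub_eq_add_neg]
    rw [this, measure_preimage_add_right]
  have hmeas : ∀ t : Fin d → ℝ, MeasurableSet {x : Fin d → ℝ | x - t ∈ R} := fun t =>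
    (measurable_id.sub_const t) hRm
  have hRpos : 0 < volume R := by
    rw [pos_iff_ne_zero]
    intro h0
    have h1 : (Set.univ : Set (Fin d → ℝ)) = ⋃ n : Fin d → ℤ, {x | x - zv n ∈ R} := by
      ext x
      simp only [Set.mem_univ, Set.mem_iUnion, Set.mem_ofPred_eq, true_iff]
      exact (hRf x).exists
    have h2 : volume (Set.univ : Set (Fin d → ℝ)) = 0 := by
      rw [h1, measure_iUnion_null_iff]
      intro n
      rw [hvol, h0]
    exact (NeZero.ne (volume : Measure (Fin d → ℝ))) (Measure.measure_univ_eq_zero.1 h2)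
  let Ω : Set (Fin d → ℝ) := {x | ∃ f ∈ F 0, x - zv f ∈ R}
  have hΩ : Ω = ⋃ f ∈ F 0, {x | x - zv f ∈ R} := by
    ext x
    simp [Ω]
  have hsub : {x : Fin d → ℝ | x - zv f0 ∈ R} ⊆ Ω := fun x hx => ⟨f0, hf0, hx⟩
  refine ⟨Ω, ?_, ?_, ?_, ?_, ?_⟩
  · rw [hΩ, Bornology.isBounded_biUnion hF]
    intro f _
    have : {x : Fin d → ℝ | x - zv f ∈ R} = (fun x => x + zv f) '' R := by
      ext x
      simp only [Set.mem_ofPred_eq, Set.mem_image]
      constructor
      · intro hx
        exact ⟨_, hx, by simp⟩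
      · rintro ⟨y, hy, rfl⟩
        simpa using hy
    rw [this]
    exact (LipschitzWith.of_dist_le_mul (K := 1) (fun x y => by simp)).isBounded_image hRb
  · rw [hΩ]
    exact hF.measurableSet_biUnion fun f _ => hmeas _
  · exact lt_of_lt_of_le (by rw [hvol]; exact hRpos) (measure_mono hsub)
  · refine ⟨{x | ∃ n ∈ A0, x = zv n}, ?_, ?_⟩
    · refine Filter.Eventually.of_forall fun x => ?_
      obtain ⟨m, hm, -⟩ := hRf x
      obtain ⟨f, ⟨hf, hfA⟩, -⟩ := hT0 m
      refine ⟨zv (m - f), ⟨m - f, hfA, rfl⟩, f, hf, ?_⟩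
      rw [emain_zv_sub, sub_sub, sub_add_cancel]
      exact hm
    · rintro _ ⟨a, ha, rfl⟩ _ ⟨b, hb, rfl⟩ hab
      have : {x : Fin d → ℝ | x - zv a ∈ Ω ∧ x - zv b ∈ Ω} = ∅ := by
        ext x
        simp only [Set.mem_ofPred_eq, Set.mem_empty_iff_false, iff_false]
        rintro ⟨⟨f, hf, hx⟩, ⟨f', hf', hx'⟩⟩
        rw [sub_sub, ← emain_zv_add] at hx hx'
        have h1 : a + f = b + f' := (hRf x).unique hx hx'
        have h2 : f = f' := (hT0 (a + f)).unique ⟨hf, by simpa using ha⟩
          ⟨hf', by rw [h1]; simpa using hb⟩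
        apply hab
        rw [h2] at h1
        rw [add_right_cancel h1]
      rw [this, measure_empty]
  · rintro A ⟨hcov, hdisj⟩ ⟨b, hb⟩
    -- the tiling by `R`
    let T : Set (Fin d → ℝ) := {x | ∃ a ∈ A, ∃ f ∈ F 0, x = a + zv f}
    have hT : TilesAE T R := by
      refine ⟨?_, ?_⟩
      · filter_upwards [hcov] with x hx
        obtain ⟨a, ha, f, hf, hx⟩ := hx
        refine ⟨a + zv f, ⟨a, ha, f, hf, rfl⟩, ?_⟩
        rwa [← sub_sub]
      · rintro _ ⟨a, ha, f, hf, rfl⟩ _ ⟨a', ha', f', hf', rfl⟩ hne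
        by_cases haa : a = a'
        · subst haa
          have : {x : Fin d → ℝ | x - (a + zv f) ∈ R ∧ x - (a + zv f') ∈ R} = ∅ := by
            ext x
            simp only [Set.mem_ofPred_eq, Set.mem_empty_iff_false, iff_false]
            rintro ⟨hx, hx'⟩
            rw [← sub_sub] at hx hx'
            apply hne
            rw [(hRf (x - a)).unique hx hx']
          rw [this, measure_empty]
        · refine measure_mono_null ?_ (hdisj a ha a' ha' haa)
          rintro x ⟨hx, hx'⟩
          rw [← sub_sub] at hx hx'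
          exact ⟨⟨f, hf, hx⟩, ⟨f', hf', hx'⟩⟩
    obtain ⟨t, ht⟩ := hRr T hT
    have hAt : ∀ a ∈ A, ∃ n : Fin d → ℤ, a = t + zv n := by
      intro a ha
      have h1 : a + zv f0 ∈ T := ⟨a, ha, f0, hf0, rfl⟩
      rw [ht] at h1
      obtain ⟨n, hn⟩ := h1
      refine ⟨n - f0, ?_⟩
      rw [emain_zv_sub, ← add_sub_assoc, ← hn, add_sub_cancel_right]
    let A' : Set (Fin d → ℤ) := {n | t + zv n ∈ A}
    have hTl : Tl A' (F 0) := by
      intro g
      have h1 : t + zv g ∈ T := by
        rw [ht]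
        exact ⟨g, rfl⟩
      obtain ⟨a, ha, f, hf, hx⟩ := h1
      refine ⟨f, ⟨hf, ?_⟩, ?_⟩
      · change t + zv (g - f) ∈ A
        rw [emain_zv_sub, ← add_sub_assoc, hx, add_sub_cancel_right]
        exact ha
      · rintro f' ⟨hf', hA'⟩
        have hA'' : t + zv (g - f') ∈ A := hA'
        by_contra hne
        have hane : t + zv (g - f') ≠ a := by
          intro h2
          apply hne
          apply emain_zv_inj
          rw [← h2, emain_zv_sub] at hx
          linear_combination hx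
        have h0 := hdisj _ hA'' _ ha hane
        have h5 : volume {x : Fin d → ℝ | x - (t + zv g) ∈ R} = 0 := by
          refine measure_mono_null ?_ h0
          intro x hx'
          refine ⟨⟨f', hf', ?_⟩, ⟨f, hf, ?_⟩⟩
          · have : x - (t + zv (g - f')) - zv f' = x - (t + zv g) := by
              rw [emain_zv_sub]
              abel
            rw [this]
            exact hx'
          · have : x - a - zv f = x - (t + zv g) := by
              rw [hx]
              abel
            rw [this]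
            exact hx'
        rw [hvol] at h5
        exact hRpos.ne' h5
    -- periodicity
    obtain ⟨w0, -, hg0⟩ := (hTl 0).exists
    have hbz : ∀ i, ∃ v : Fin d → ℤ, b i = zv v := by
      intro i
      have h1 := (hb i _).1 hg0
      obtain ⟨n, hn⟩ := hAt _ h1
      refine ⟨n - (0 - w0), ?_⟩
      rw [emain_zv_sub]
      rw [add_assoc] at hn
      have h2 := add_left_cancel hn
      rw [← h2]
      abel
    choose v hv using hbz
    obtain ⟨m, hm, hc⟩ := emain_index b v hv
    let K : AddSubgroup (Fin d → ℤ) :=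
      { carrier := {w | ∀ n, n ∈ A' ↔ n + w ∈ A'}
        zero_mem' := fun n => by rw [add_zero]
        add_mem' := fun {w w'} hw hw' n => by
          rw [hw n, hw' (n + w), add_assoc]
        neg_mem' := fun {w} hw n => by
          rw [hw (n + -w), neg_add_cancel_right] }
    have hvK : ∀ i, v i ∈ K := by
      intro i n
      change t + zv n ∈ A ↔ t + zv (n + v i) ∈ A
      rw [emain_zv_add, ← hv, ← add_assoc]
      exact hb i _
    refine hno' A' hTl ⟨m, hm, fun g x hx => ?_⟩
    obtain ⟨c, hc⟩ := hc g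
    have h1 : m • g ∈ K := by
      rw [hc]
      exact K.sum_mem fun i _ => K.zsmul_mem (hvK i) _
    exact (h1 x).1 hx

end P043
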