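import Vale.Agent.P043.EDefs

namespace P043

open MeasureTheory

namespace ER

open Filter Topology

variable {d : ℕ}

/-- min corner of the `i`-th hole -/
noncomputable def pc (i : Fin d) : Fin d → ℝ := fun l => 1 / 2 - (if l = i then 1 / 50 else 0)

/-- half-open box -/
def Bx (p : Fin d → ℝ) (s : ℝ) : Set (Fin d → ℝ) := {x | ∀ l, p l ≤ x l ∧ x l < p l + s}

/-- the cube minus its holes -/
def Core : Set (Fin d → ℝ) := {x | x ∈ Bx 0 1 ∧ ∀ i : Fin d, x ∉ Bx (pc i) (1 / 100)}

/-- the rigid domain -/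
def RR : Set (Fin d → ℝ) := {x | x ∈ Core ∨ ∃ i : Fin d, x - Pi.single i 1 ∈ Bx (pc i) (1 / 100)}

theorem pc_self (i : Fin d) : pc i i = 1 / 2 - 1 / 50 := by simp [pc]

theorem pc_ne {i l : Fin d} (h : l ≠ i) : pc i l = 1 / 2 := by simp [pc, h]

theorem pc_bd (i l : Fin d) : 1 / 2 - 1 / 50 ≤ pc i l ∧ pc i l ≤ 1 / 2 := by
  unfold pc
  split_ifs <;> constructor <;> norm_num

theorem mem_unit {x : Fin d → ℝ} : x ∈ Bx 0 1 ↔ ∀ l, 0 ≤ x l ∧ x l < 1 := by
  simp [Bx]

theorem hole_bd {i : Fin d} {x : Fin d → ℝ} (h : x ∈ Bx (pc i) (1 / 100)) (l : Fin d) :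
    9 / 20 < x l ∧ x l < 11 / 20 := by
  have h1 := h l
  have h2 := pc_bd i l
  constructor <;> linarith [h1.1, h1.2, h2.1, h2.2]

theorem hole_unit {i : Fin d} {x : Fin d → ℝ} (h : x ∈ Bx (pc i) (1 / 100)) : x ∈ Bx 0 1 := by
  rw [mem_unit]
  intro l
  have := hole_bd h l
  constructor <;> linarith [this.1, this.2]

theorem hole_inj {i j : Fin d} {x : Fin d → ℝ} (h : x ∈ Bx (pc i) (1 / 100))
    (h' : x ∈ Bx (pc j) (1 / 100)) : i = j := by
  by_contra hne
  have h1 := (h i).2
  have h2 := (h' i).1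
  rw [pc_self] at h1
  rw [pc_ne hne] at h2
  linarith

theorem core_sub {x : Fin d → ℝ} (h : x ∈ Core) : x ∈ (RR : Set (Fin d → ℝ)) := Or.inl h

/-- a point of the cube with one coordinate far from `1/2` is in the core -/
theorem core_of {x : Fin d → ℝ} (h : x ∈ Bx 0 1) (l : Fin d) (hl : x l ≤ 9 / 20 ∨ 11 / 20 ≤ x l) :
    x ∈ Core := by
  refine ⟨h, fun i hi => ?_⟩
  have := hole_bd hi l
  rcases hl with hl | hl <;> linarith [this.1, this.2]

/-- `R` is a fundamental domain -/
theorem part (x : Fin d → ℝ) : ∃! n : Fin d → ℤ, x - zv n ∈ (RR : Set (Fin d → ℝ)) := by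
  have hfl : ∀ n : Fin d → ℤ, x - zv n ∈ Bx 0 1 → n = fun l => ⌊x l⌋ := by
    intro n hn
    rw [mem_unit] at hn
    funext l
    have := hn l
    simp only [zv, Pi.sub_apply] at this
    symm
    rw [Int.floor_eq_iff]
    constructor <;> linarith [this.1, this.2]
  have hy : x - zv (fun l => ⌊x l⌋) ∈ Bx 0 1 := by
    rw [mem_unit]
    intro l
    simp only [zv, Pi.sub_apply]
    have h1 := Int.floor_le (x l)
    have h2 := Int.lt_floor_add_one (x l)
    constructor <;> linarith
  have hsh : ∀ (n : Fin d → ℤ) (i : Fin d),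
      x - zv n - Pi.single i 1 = x - zv (n + Pi.single i 1) := by
    intro n i
    funext l
    simp only [zv, Pi.sub_apply, Pi.add_apply]
    by_cases h : l = i
    · subst h; simp; ring
    · simp [h]
  by_cases hh : ∃ i : Fin d, x - zv (fun l => ⌊x l⌋) ∈ Bx (pc i) (1 / 100)
  · obtain ⟨i, hi⟩ := hh
    refine ⟨(fun l => ⌊x l⌋) - Pi.single i 1, Or.inr ⟨i, ?_⟩, ?_⟩
    · rw [hsh, sub_add_cancel]; exact hi
    · rintro n (hn | ⟨j, hj⟩)
      · exfalso
        have := hfl n hn.1
        apply hn.2 i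
        rw [this]; exact hi
      · rw [hsh] at hj
        have h1 := hfl _ (hole_unit hj)
        rw [h1] at hj
        have hij := hole_inj hi hj
        subst hij
        rw [← h1, add_sub_cancel_right]
  · push Not at hh
    refine ⟨fun l => ⌊x l⌋, Or.inl ⟨hy, hh⟩, ?_⟩
    rintro n (hn | ⟨j, hj⟩)
    · exact hfl n hn.1
    · exfalso
      rw [hsh] at hj
      have h1 := hfl _ (hole_unit hj)
      rw [h1] at hj
      exact hh j hj

/-- two close translates of the core overlap -/
theorem overlap (i0 : Fin d) (δ : Fin d → ℝ) (hδ : ∀ l, |δ l| ≤ 5 / 8) :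
    ∃ q : Fin d → ℝ, q ∈ Core ∧ q - δ ∈ Core := by
  have h0 := abs_le.1 (hδ i0)
  obtain ⟨c, hc0, hc1, hc2, hc3, hc4, hc5⟩ : ∃ c : ℝ, 0 ≤ c ∧ c < 1 ∧ 0 ≤ c - δ i0 ∧ c - δ i0 < 1 ∧
      (c ≤ 9 / 20 ∨ 11 / 20 ≤ c) ∧ (c - δ i0 ≤ 9 / 20 ∨ 11 / 20 ≤ c - δ i0) := by
    by_cases hs : 0 ≤ δ i0
    · by_cases h1 : δ i0 ≤ 9 / 20
      · exact ⟨δ i0, hs, by linarith, by linarith, by linarith, Or.inl h1, Or.inl (by linarith)⟩
      · by_cases h2 : 11 / 20 ≤ δ i0
        · exact ⟨δ i0, hs, by linarith [h0.2], by linarith, by linarith, Or.inr h2,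
            Or.inl (by linarith)⟩
        · push Not at h1 h2
          exact ⟨7 / 8, by norm_num, by norm_num, by linarith, by linarith, Or.inr (by norm_num),
            Or.inl (by linarith)⟩
    · push Not at hs
      by_cases h1 : -δ i0 ≤ 9 / 20
      · exact ⟨0, le_rfl, by norm_num, by linarith, by linarith, Or.inl (by norm_num),
          Or.inl (by linarith)⟩
      · by_cases h2 : 11 / 20 ≤ -δ i0
        · exact ⟨0, le_rfl, by norm_num, by linarith, by linarith [h0.1], Or.inl (by norm_num),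
            Or.inr (by linarith)⟩
        · push Not at h1 h2
          exact ⟨7 / 8 + δ i0, by linarith, by linarith, by linarith, by linarith,
            Or.inl (by linarith), Or.inr (by linarith)⟩
  refine ⟨fun l => if l = i0 then c else max 0 (δ l), ?_, ?_⟩
  · refine core_of ?_ i0 (by simpa using hc4)
    rw [mem_unit]
    intro l
    by_cases h : l = i0
    · subst h; simp only [if_true]; exact ⟨hc0, hc1⟩
    · simp only [if_neg h]
      have := abs_le.1 (hδ l)
      exact ⟨le_max_left _ _, max_lt (by norm_num) (by linarith [this.2])⟩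
  · refine core_of ?_ i0 (by simpa using hc5)
    rw [mem_unit]
    intro l
    simp only [Pi.sub_apply]
    by_cases h : l = i0
    · subst h; simp only [if_true]; exact ⟨hc2, hc3⟩
    · simp only [if_neg h]
      have := abs_le.1 (hδ l)
      constructor
      · linarith [le_max_right 0 (δ l)]
      · have : max 0 (δ l) < 1 + δ l := max_lt (by linarith [this.1]) (by linarith)
        linarith

/-- exact tilings: close points coincide -/
theorem close (i0 : Fin d) {T : Set (Fin d → ℝ)}
    (hd : ∀ t ∈ T, ∀ t' ∈ T, ∀ x, x - t ∈ RR → x - t' ∈ RR → t = t')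
    {t t' : Fin d → ℝ} (ht : t ∈ T) (ht' : t' ∈ T) (h : ∀ l, |t l - t' l| ≤ 5 / 8) : t = t' := by
  obtain ⟨q, hq1, hq2⟩ := overlap i0 (t - t') h
  refine hd t ht t' ht' (t' + q) ?_ ?_
  · have : t' + q - t = q - (t - t') := by abel
    rw [this]; exact core_sub hq2
  · rw [add_sub_cancel_left]; exact core_sub hq1

/-- filling the holes -/
theorem fill {T : Set (Fin d → ℝ)}
    (hd : ∀ t ∈ T, ∀ t' ∈ T, ∀ x, x - t ∈ RR → x - t' ∈ RR → t = t')
    (hc : ∀ x, ∃ t ∈ T, x - t ∈ (RR : Set (Fin d → ℝ))) (i : Fin d)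
    {t : Fin d → ℝ} (ht : t ∈ T) : t - Pi.single i 1 ∈ T := by
  obtain ⟨t', ht', hx⟩ := hc (t + pc i)
  have hself : pc i ∈ Bx (pc i) (1 / 100) := fun l => ⟨le_rfl, by linarith⟩
  rcases hx with hx | ⟨j, hx⟩
  · exfalso
    have heq : t = t' := by
      apply close i hd ht ht'
      intro l
      have h1 := (mem_unit.1 hx.1) l
      simp only [Pi.sub_apply, Pi.add_apply] at h1
      have h2 := pc_bd i l
      rw [abs_le]
      constructor <;> linarith [h1.1, h1.2, h2.1, h2.2]
    rw [← heq, add_sub_cancel_left] at hx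
    exact hx.2 i hself
  · have hcl : ∀ l, (t' l + (Pi.single j 1 : Fin d → ℝ) l + pc j l ≤ t l + pc i l) ∧
        t l + pc i l < t' l + (Pi.single j 1 : Fin d → ℝ) l + pc j l + 1 / 100 := by
      intro l
      have := hx l
      simp only [Pi.sub_apply, Pi.add_apply] at this
      constructor <;> linarith [this.1, this.2]
    have hne : t ≠ t' := by
      rintro rfl
      have := hcl j
      have h1 := pc_bd i j
      have h2 := pc_bd j j
      simp only [Pi.single_eq_same] at this
      linarith [this.1, h1.2, h2.1]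
    have hcorner : ∀ l, t' l + (Pi.single j 1 : Fin d → ℝ) l + pc j l = t l + pc i l := by
      intro l
      by_contra hlt
      have hlt : t' l + (Pi.single j 1 : Fin d → ℝ) l + pc j l < t l + pc i l :=
        lt_of_le_of_ne (hcl l).1 hlt
      apply hne
      set y : Fin d → ℝ := Function.update (t + pc i) l
        (t' l + (Pi.single j 1 : Fin d → ℝ) l + pc j l) with hy
      have hyl : y l = t' l + (Pi.single j 1 : Fin d → ℝ) l + pc j l := by
        rw [hy, Function.update_self]
      have hyn : ∀ m, m ≠ l → y m = t m + pc i m := by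
        intro m hm
        rw [hy, Function.update_of_ne hm]; rfl
      refine hd t ht t' ht' y (core_sub ?_) (Or.inr ⟨j, ?_⟩)
      · have hb : ∀ m, pc i m - 1 / 100 < y m - t m ∧ y m - t m ≤ pc i m := by
          intro m
          by_cases hm : m = l
          · subst hm
            rw [hyl]
            have := hcl m
            constructor <;> linarith [this.1, this.2]
          · rw [hyn m hm]
            constructor <;> linarith
        refine ⟨?_, ?_⟩
        · rw [mem_unit]
          intro m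
          have h1 := hb m
          have h2 := pc_bd i m
          simp only [Pi.sub_apply]
          constructor <;> linarith [h1.1, h1.2, h2.1, h2.2]
        · intro k hk
          by_cases hki : k = i
          · subst hki
            have h1 := (hk l).1
            simp only [Pi.sub_apply] at h1
            rw [hyl] at h1
            linarith
          · have h1 := (hk k).2
            simp only [Pi.sub_apply] at h1
            rw [pc_self] at h1
            have h2 := (hb k).1
            rw [pc_ne hki] at h2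
            linarith
      · intro m
        simp only [Pi.sub_apply]
        by_cases hm : m = l
        · subst hm
          rw [hyl]
          constructor <;> linarith
        · rw [hyn m hm]
          have := hcl m
          constructor <;> linarith [this.1, this.2]
    by_cases hji : j = i
    · subst hji
      have : t - Pi.single j 1 = t' := by
        funext l
        have := hcorner l
        simp only [Pi.sub_apply]
        linarith
      rw [this]; exact ht'
    · exfalso
      apply hne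
      refine hd t ht t' ht' t (core_sub ?_) (core_sub ?_)
      · rw [sub_self]
        refine core_of ?_ i (Or.inl (by norm_num [Pi.zero_apply]))
        rw [mem_unit]
        intro l
        simp
      · have hval : ∀ l, t l - t' l = (Pi.single j 1 : Fin d → ℝ) l + pc j l - pc i l := by
          intro l
          linarith [hcorner l]
        refine core_of ?_ j (Or.inr ?_)
        · rw [mem_unit]
          intro l
          simp only [Pi.sub_apply]
          rw [hval]
          by_cases hl : l = j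
          · subst hl
            rw [pc_self, pc_ne hji, Pi.single_eq_same]
            norm_num
          · rw [Pi.single_eq_of_ne hl, pc_ne hl]
            have := pc_bd i l
            constructor <;> linarith [this.1, this.2]
        · simp only [Pi.sub_apply]
          rw [hval, pc_self, pc_ne hji, Pi.single_eq_same]
          norm_num

theorem fill_nat {T : Set (Fin d → ℝ)} (h : ∀ i : Fin d, ∀ t ∈ T, t - Pi.single i 1 ∈ T) :
    ∀ (N : ℕ) (n : Fin d → ℕ), ∑ l, n l = N → ∀ t ∈ T, t - (fun l => (n l : ℝ)) ∈ T := by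
  intro N
  induction N with
  | zero =>
    intro n hn t ht
    have : n = 0 := by
      funext l
      have := Finset.sum_eq_zero_iff.1 hn l (Finset.mem_univ l)
      simpa using this
    subst this
    have e : t - (fun l => (((0 : Fin d → ℕ) l : ℕ) : ℝ)) = t := by
      funext l; simp
    rw [e]; exact ht
  | succ N ih =>
    intro n hn t ht
    obtain ⟨i, hi⟩ : ∃ i, n i ≠ 0 := by
      by_contra hcon
      push Not at hcon
      simp [hcon] at hn
    have hsum : ∑ l, (Function.update n i (n i - 1)) l = N := by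
      have h1 := Finset.sum_update_of_mem (Finset.mem_univ i) n (n i - 1)
      have h2 := Finset.add_sum_erase Finset.univ n (Finset.mem_univ i)
      rw [h1]
      rw [Finset.sdiff_singleton_eq_erase]
      omega
    have := h i _ (ih _ hsum t ht)
    have e : t - (fun l => (n l : ℝ))
        = t - (fun l => ((Function.update n i (n i - 1) l : ℕ) : ℝ)) - Pi.single i 1 := by
      funext l
      simp only [Pi.sub_apply]
      by_cases hl : l = i
      · subst hl
        rw [Function.update_self, Pi.single_eq_same, Nat.cast_sub (by omega)]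
        push_cast; ring
      · rw [Function.update_of_ne hl, Pi.single_eq_of_ne hl]
        ring
    rw [e]; exact this

/-- exact rigidity -/
theorem exact_rigid (i0 : Fin d) {T : Set (Fin d → ℝ)}
    (hd : ∀ t ∈ T, ∀ t' ∈ T, ∀ x, x - t ∈ RR → x - t' ∈ RR → t = t')
    (hc : ∀ x, ∃ t ∈ T, x - t ∈ (RR : Set (Fin d → ℝ))) :
    ∃ t : Fin d → ℝ, T = {x | ∃ n : Fin d → ℤ, x = t + zv n} := by
  obtain ⟨t0, ht0, -⟩ := hc 0
  have hf := fun (n : Fin d → ℕ) => fill_nat (T := T) (fun i t ht => fill hd hc i ht) _ n rfl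
  have hsub : ∀ t ∈ T, ∃ n : Fin d → ℤ, t = t0 + zv n := by
    intro t ht
    refine ⟨fun l => round (t l - t0 l), ?_⟩
    have h1 := hf (fun l => (round (t l - t0 l)).toNat) t ht
    have h2 := hf (fun l => (-round (t l - t0 l)).toNat) t0 ht0
    have h3 := close i0 hd h1 h2 (by
      intro l
      simp only [Pi.sub_apply]
      have e : ((round (t l - t0 l)).toNat : ℝ) - ((-round (t l - t0 l)).toNat : ℝ)
          = (round (t l - t0 l) : ℝ) := by
        have : ((round (t l - t0 l)).toNat : ℤ) - ((-round (t l - t0 l)).toNat : ℤ)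
          = round (t l - t0 l) := by omega
        exact_mod_cast this
      have e2 : t l - ((round (t l - t0 l)).toNat : ℝ) - (t0 l - ((-round (t l - t0 l)).toNat : ℝ))
          = (t l - t0 l) - (round (t l - t0 l) : ℝ) := by
        rw [← e]; ring
      rw [e2]
      exact (abs_sub_round _).trans (by norm_num))
    funext l
    have h4 := congrFun h3 l
    simp only [Pi.sub_apply] at h4
    simp only [Pi.add_apply, zv]
    have e : ((round (t l - t0 l)).toNat : ℝ) - ((-round (t l - t0 l)).toNat : ℝ)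
        = (round (t l - t0 l) : ℝ) := by
      have : ((round (t l - t0 l)).toNat : ℤ) - ((-round (t l - t0 l)).toNat : ℤ)
        = round (t l - t0 l) := by omega
      exact_mod_cast this
    rw [← e]
    linarith
  refine ⟨t0, Set.eq_of_subset_of_subset hsub ?_⟩
  rintro x ⟨n, rfl⟩
  obtain ⟨t, ht, hR⟩ := hc (t0 + zv n)
  obtain ⟨m, rfl⟩ := hsub t ht
  have e : t0 + zv n - (t0 + zv m) = zv n - zv m := by abel
  rw [e] at hR
  have h0 : zv n - zv n ∈ (RR : Set (Fin d → ℝ)) := by
    rw [sub_self]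
    refine core_sub (core_of ?_ i0 (Or.inl (by norm_num [Pi.zero_apply])))
    rw [mem_unit]
    intro l
    simp
  have := (part (zv n)).unique hR h0
  rw [← this]
  exact ht

/-! ### from almost everywhere to exact -/

theorem ev_coord (a : ℝ) (l : Fin d) (x : Fin d → ℝ) :
    ∀ᶠ y in 𝓝[≥] x, (a ≤ y l ↔ a ≤ x l) := by
  by_cases h : a ≤ x l
  · filter_upwards [self_mem_nhdsWithin] with y hy
    exact ⟨fun _ => h, fun _ => h.trans (hy l)⟩
  · have h1 : ∀ᶠ y in 𝓝 x, y l < a :=
      ((continuous_apply l).tendsto x).eventually_lt_const (not_le.1 h)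
    filter_upwards [mem_nhdsWithin_of_mem_nhds h1] with y hy
    exact ⟨fun h' => absurd h' (not_le.2 hy), fun h' => absurd h' h⟩

theorem ev_box (p : Fin d → ℝ) (s : ℝ) (x : Fin d → ℝ) :
    ∀ᶠ y in 𝓝[≥] x, (y ∈ Bx p s ↔ x ∈ Bx p s) := by
  have h1 : ∀ᶠ y in 𝓝[≥] x, ∀ l, (p l ≤ y l ↔ p l ≤ x l) :=
    eventually_all.2 fun l => ev_coord _ _ _
  have h2 : ∀ᶠ y in 𝓝[≥] x, ∀ l, (p l + s ≤ y l ↔ p l + s ≤ x l) :=
    eventually_all.2 fun l => ev_coord _ _ _
  filter_upwards [h1, h2] with y hy1 hy2
  refine forall_congr' fun l => ?_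
  rw [hy1 l, ← not_le, hy2 l, not_le]

theorem box_shift (p v : Fin d → ℝ) (s : ℝ) (x : Fin d → ℝ) :
    x - v ∈ Bx p s ↔ x ∈ Bx (p + v) s := by
  refine forall_congr' fun l => ?_
  simp only [Pi.sub_apply, Pi.add_apply]
  constructor <;> rintro ⟨h1, h2⟩ <;> constructor <;> linarith

theorem ev_box' (p v : Fin d → ℝ) (s : ℝ) (x : Fin d → ℝ) :
    ∀ᶠ y in 𝓝[≥] x, (y - v ∈ Bx p s ↔ x - v ∈ Bx p s) := by
  filter_upwards [ev_box (p + v) s x] with y hy
  rw [box_shift, box_shift]; exact hy

theorem ev_RR (t x : Fin d → ℝ) :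
    ∀ᶠ y in 𝓝[≥] x, (y - t ∈ RR ↔ x - t ∈ RR) := by
  have h1 := ev_box' 0 t 1 x
  have h2 : ∀ᶠ y in 𝓝[≥] x, ∀ i : Fin d, (y - t ∈ Bx (pc i) (1 / 100) ↔
      x - t ∈ Bx (pc i) (1 / 100)) := eventually_all.2 fun i => ev_box' _ _ _ _
  have h3 : ∀ᶠ y in 𝓝[≥] x, ∀ i : Fin d, (y - t - Pi.single i 1 ∈ Bx (pc i) (1 / 100) ↔
      x - t - Pi.single i 1 ∈ Bx (pc i) (1 / 100)) := eventually_all.2 fun i => by
    simp only [sub_sub]
    exact ev_box' _ _ _ _
  filter_upwards [h1, h2, h3] with y hy1 hy2 hy3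
  refine or_congr (and_congr hy1 (forall_congr' fun i => not_congr (hy2 i)))
    (exists_congr fun i => hy3 i)

theorem vol_pos {x : Fin d → ℝ} {P : (Fin d → ℝ) → Prop} (h : ∀ᶠ y in 𝓝[≥] x, P y) :
    volume {y | P y} ≠ 0 := by
  obtain ⟨U, hU, hxU, hUP⟩ := mem_nhdsWithin.1 h
  obtain ⟨ε, hε, hball⟩ := Metric.isOpen_iff.1 hU x hxU
  have hW : IsOpen (U ∩ {y : Fin d → ℝ | ∀ l, x l < y l}) := by
    refine hU.inter ?_
    have : {y : Fin d → ℝ | ∀ l, x l < y l} = ⋂ l, {y | x l < y l} := by
      ext y; simp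
    rw [this]
    exact isOpen_iInter_of_finite fun l => isOpen_lt continuous_const (continuous_apply l)
  have hne : (U ∩ {y : Fin d → ℝ | ∀ l, x l < y l}).Nonempty := by
    refine ⟨fun l => x l + ε / 2, hball ?_, fun l => by linarith⟩
    rw [Metric.mem_ball, dist_pi_lt_iff hε]
    intro l
    rw [Real.dist_eq]
    have : x l + ε / 2 - x l = ε / 2 := by ring
    rw [this, abs_of_pos (by linarith)]
    linarith
  have hpos := hW.measure_pos volume hne
  intro h0
  have hle : volume (U ∩ {y : Fin d → ℝ | ∀ l, x l < y l}) ≤ volume {y | P y} := by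
    apply measure_mono
    rintro y ⟨hy1, hy2⟩
    exact hUP ⟨hy1, fun l => (hy2 l).le⟩
  rw [h0] at hle
  exact absurd hpos (not_lt.2 hle)

theorem RR_bd {x : Fin d → ℝ} (h : x ∈ (RR : Set (Fin d → ℝ))) (l : Fin d) : |x l| ≤ 2 := by
  rcases h with h | ⟨i, h⟩
  · have := (mem_unit.1 h.1) l
    rw [abs_le]; constructor <;> linarith [this.1, this.2]
  · have h1 := hole_bd h l
    simp only [Pi.sub_apply] at h1
    by_cases hl : l = i
    · subst hl
      rw [Pi.single_eq_same] at h1
      rw [abs_le]; constructor <;> linarith [h1.1, h1.2]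
    · rw [Pi.single_eq_of_ne hl] at h1
      rw [abs_le]; constructor <;> linarith [h1.1, h1.2]

theorem disj_exact {T : Set (Fin d → ℝ)} (h : TilesAE T RR) :
    ∀ t ∈ T, ∀ t' ∈ T, ∀ x, x - t ∈ RR → x - t' ∈ RR → t = t' := by
  intro t ht t' ht' x hx hx'
  by_contra hne
  refine vol_pos (x := x) ?_ (h.2 t ht t' ht' hne)
  filter_upwards [ev_RR t x, ev_RR t' x] with y hy hy'
  exact ⟨hy.2 hx, hy'.2 hx'⟩

theorem cover_exact (i0 : Fin d) {T : Set (Fin d → ℝ)} (h : TilesAE T RR) :
    ∀ x, ∃ t ∈ T, x - t ∈ (RR : Set (Fin d → ℝ)) := by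
  have hd := disj_exact h
  intro x
  by_contra hcon
  push Not at hcon
  -- the translates near `x` are finitely many
  have hfin : (T ∩ {t | ∀ l, |t l - x l| ≤ 3}).Finite := by
    have hinj : Set.InjOn (fun (t : Fin d → ℝ) (l : Fin d) => ⌊2 * t l⌋)
        (T ∩ {t | ∀ l, |t l - x l| ≤ 3}) := by
      intro t ht t' ht' he
      apply close i0 hd ht.1 ht'.1
      intro l
      have h1 : ⌊2 * t l⌋ = ⌊2 * t' l⌋ := congrFun he l
      have h2 := Int.floor_le (2 * t l)
      have h3 := Int.lt_floor_add_one (2 * t l)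
      have h4 := Int.floor_le (2 * t' l)
      have h5 := Int.lt_floor_add_one (2 * t' l)
      rw [h1] at h2 h3
      rw [abs_le]
      constructor <;> linarith
    refine Set.Finite.of_finite_image ?_ hinj
    refine (Set.finite_Icc (fun l => ⌊2 * (x l - 3)⌋) (fun l => ⌊2 * (x l + 3)⌋)).subset ?_
    rintro - ⟨t, ⟨-, ht⟩, rfl⟩
    constructor
    · intro l
      apply Int.floor_le_floor
      have := abs_le.1 (ht l)
      linarith [this.1]
    · intro l
      apply Int.floor_le_floor
      have := abs_le.1 (ht l)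
      linarith [this.2]
  have hev1 : ∀ᶠ y in 𝓝[≥] x, ∀ t ∈ T ∩ {t | ∀ l, |t l - x l| ≤ 3}, y - t ∉ RR := by
    rw [eventually_all_finite hfin]
    intro t ht
    filter_upwards [ev_RR t x] with y hy
    rw [hy]
    exact hcon t ht.1
  have hev2 : ∀ᶠ y in 𝓝[≥] x, ∀ l, |y l - x l| < 1 := by
    apply eventually_all.2
    intro l
    apply mem_nhdsWithin_of_mem_nhds
    have h1 : Tendsto (fun y : Fin d → ℝ => |y l - x l|) (𝓝 x) (𝓝 |x l - x l|) :=
      (((continuous_apply l).sub continuous_const).abs).tendsto x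
    rw [sub_self, abs_zero] at h1
    exact h1.eventually_lt_const one_pos
  have hev : ∀ᶠ y in 𝓝[≥] x, ¬ ∃ t ∈ T, y - t ∈ (RR : Set (Fin d → ℝ)) := by
    filter_upwards [hev1, hev2] with y hy1 hy2
    rintro ⟨t, ht, hyt⟩
    refine hy1 t ⟨ht, fun l => ?_⟩ hyt
    have h1 := abs_le.1 (RR_bd hyt l)
    have h2 := abs_lt.1 (hy2 l)
    simp only [Pi.sub_apply] at h1
    rw [abs_le]
    constructor <;> linarith [h1.1, h1.2, h2.1, h2.2]
  exact vol_pos hev (ae_iff.1 h.1)

theorem RR_bounded : Bornology.IsBounded (RR : Set (Fin d → ℝ)) := by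
  rw [isBounded_iff_forall_norm_le]
  refine ⟨2, fun x hx => ?_⟩
  rw [pi_norm_le_iff_of_nonneg (by norm_num)]
  intro l
  rw [Real.norm_eq_abs]
  exact RR_bd hx l

theorem Bx_meas (p : Fin d → ℝ) (s : ℝ) : MeasurableSet (Bx p s) := by
  have : Bx p s = ⋂ l, {x : Fin d → ℝ | p l ≤ x l ∧ x l < p l + s} := by
    ext x; simp [Bx]
  rw [this]
  refine MeasurableSet.iInter fun l => ?_
  exact (measurableSet_le measurable_const (measurable_pi_apply l)).inter
    (measurableSet_lt (measurable_pi_apply l) measurable_const)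

theorem RR_meas : MeasurableSet (RR : Set (Fin d → ℝ)) := by
  have : (RR : Set (Fin d → ℝ)) = (Bx 0 1 ∩ ⋂ i : Fin d, (Bx (pc i) (1 / 100))ᶜ) ∪
      ⋃ i : Fin d, Bx (pc i + Pi.single i 1) (1 / 100) := by
    ext x
    simp only [RR, Core, Set.mem_ofPred_eq, Set.mem_union, Set.mem_inter_iff, Set.mem_iInter,
      Set.mem_compl_iff, Set.mem_iUnion, box_shift]
  rw [this]
  exact ((Bx_meas _ _).inter (MeasurableSet.iInter fun i => (Bx_meas _ _).compl)).union
    (MeasurableSet.iUnion fun i => Bx_meas _ _)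

end ER

/-- there is a rigid fundamental domain of `ℤ^d`: its only tilings (up to null sets) are the
cosets of `ℤ^d`. -/
theorem exists_rigid (d : ℕ) : ∃ R : Set (Fin d → ℝ), Bornology.IsBounded R ∧ MeasurableSet R ∧
    (∀ x : Fin d → ℝ, ∃! n : Fin d → ℤ, x - zv n ∈ R) ∧
    ∀ T : Set (Fin d → ℝ), TilesAE T R → ∃ t : Fin d → ℝ, T = {x | ∃ n : Fin d → ℤ, x = t + zv n} := by
  rcases Nat.eq_zero_or_pos d with rfl | hd
  · refine ⟨Set.univ, ?_, MeasurableSet.univ, ?_, ?_⟩
    · exact (Set.toFinite _).isBounded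
    · intro x
      refine ⟨0, Set.mem_univ _, fun n _ => Subsingleton.elim _ _⟩
    · intro T hT
      have hne : ∃ t, t ∈ T := by
        by_contra hcon
        push Not at hcon
        have h1 : ∀ᵐ x : Fin 0 → ℝ, False := by
          filter_upwards [hT.1] with x hx
          obtain ⟨a, ha, -⟩ := hx
          exact hcon a ha
        rw [Filter.eventually_false_iff_eq_bot, ae_eq_bot] at h1
        have := isOpen_univ.measure_pos (volume : Measure (Fin 0 → ℝ)) ⟨0, Set.mem_univ _⟩
        rw [h1] at this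
        simp at this
      obtain ⟨t, ht⟩ := hne
      refine ⟨t, ?_⟩
      ext x
      have : x = t := Subsingleton.elim _ _
      constructor
      · intro _
        exact ⟨0, Subsingleton.elim _ _⟩
      · intro _
        rw [this]; exact ht
  · exact ⟨ER.RR, ER.RR_bounded, ER.RR_meas, ER.part, fun T hT =>
      ER.exact_rigid ⟨0, hd⟩ (ER.disj_exact hT) (ER.cover_exact ⟨0, hd⟩ hT)⟩

end P043
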