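import Vale.Agent.P043.System
import Vale.Agent.P043.Basic

namespace P043
namespace Enc

open Function

/-- an OR clause -/
structure Clause (G0 J : Type) [AddCommGroup G0] where
  I : Type
  fin : Fintype I
  ne : Nonempty I
  dec : DecidableEq I
  idx : I → J
  d : I → G0
  κ : I → ℤ
  hidx : Function.Injective idx
  hd : Function.Injective (fun s : Finset I => ∑ i ∈ s, d i)

/-- detector criterion for injectivity of subset sums -/
theorem subset_sum_inj {G0 I : Type} [AddCommGroup G0] (d : I → G0) (φ : I → G0 → Prop)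
    (hφ : ∀ i (s : Finset I), φ i (∑ k ∈ s, d k) ↔ i ∈ s) :
    Function.Injective (fun s : Finset I => ∑ i ∈ s, d i) := by
  intro s t hst
  ext i
  rw [← hφ i s, ← hφ i t]
  simp only at hst
  rw [hst]

section
variable {V : Type} (q : ℕ) (n : (V × ZMod q) × Bool → ℕ)

/-- the moduli of the fibre -/
def nn : Option ((V × ZMod q) × Bool) → ℕ
  | none => q
  | some j => n j

/-- the finite part of the base group -/
abbrev Gm : Type := ∀ j : (V × ZMod q) × Bool, ZMod (n j)

/-- the base group -/
abbrev Bs : Type := (ℤ × ℤ) × Gm q n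

variable [DecidableEq V]

/-- the direction `g_l` -/
def sg (l : (V × ZMod q) × Bool) : Gm q n := Pi.single l 1

theorem sg_same (l : (V × ZMod q) × Bool) : sg q n l l = 1 := by
  simp [sg]

theorem sg_ne {l j : (V × ZMod q) × Bool} (h : j ≠ l) : sg q n l j = 0 := by
  simp [sg, h]

/-- the direction `g_l` in the base group -/
def gv (l : (V × ZMod q) × Bool) : Bs q n := (0, sg q n l)

variable (hn : ∀ j, 2 ≤ n j)
include hn

omit [DecidableEq V] in
theorem one_ne (j : (V × ZMod q) × Bool) : (1 : ZMod (n j)) ≠ 0 := by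
  have : Fact (1 < n j) := ⟨hn j⟩
  exact one_ne_zero

omit hn in
theorem gv_sum_apply {I : Type} (e : I → (V × ZMod q) × Bool) (he : Injective e)
    (s : Finset I) (i : I) [Decidable (i ∈ s)] :
    (∑ k ∈ s, gv q n (e k)).2 (e i) = if i ∈ s then 1 else 0 := by
  classical
  rw [Prod.snd_sum, Finset.sum_apply]
  split_ifs with h
  · rw [Finset.sum_eq_single i]
    · exact sg_same q n (e i)
    · intro b _ hb
      exact sg_ne q n (fun h' => hb (he h').symm)
    · intro h'; exact absurd h h'
  · apply Finset.sum_eq_zero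
    intro b hb
    exact sg_ne q n (fun h' => h ((he h') ▸ hb))

theorem gv_inj {I : Type} (e : I → (V × ZMod q) × Bool) (he : Injective e) :
    Function.Injective (fun s : Finset I => ∑ i ∈ s, gv q n (e i)) := by
  classical
  apply subset_sum_inj _ (fun i g => g.2 (e i) = 1)
  intro i s
  simp only [gv_sum_apply q n e he s i]
  split_ifs with h
  · simp [h]
  · simp only [h, iff_false]
    exact fun h' => one_ne q n hn _ h'.symm

/-- link clause -/
def linkC (β : V × ZMod q) (τ : Bool) : Clause (Bs q n) (Option ((V × ZMod q) × Bool)) where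
  I := Bool
  fin := inferInstance
  ne := inferInstance
  dec := inferInstance
  idx := fun s => some (β, s)
  d := fun s => gv q n (β, s)
  κ := fun _ => if τ then 1 else 0
  hidx := by
    intro s t h
    simpa using h
  hd := gv_inj q n hn (fun s => (β, s)) (by intro s t h; simpa using h)

/-- value clause -/
def valC [Fintype V] [NeZero q] [Nonempty V] (w : V × ZMod q → Bool) :
    Clause (Bs q n) (Option ((V × ZMod q) × Bool)) where
  I := V × ZMod q
  fin := inferInstance
  ne := inferInstance
  dec := inferInstance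
  idx := fun β => some (β, true)
  d := fun β => gv q n (β, true)
  κ := fun β => if w β then 1 else 0
  hidx := by
    intro s t h
    simpa using h
  hd := gv_inj q n hn (fun β => (β, true)) (by intro s t h; simpa using h)

/-- `K` clause -/
def kC (h : V → ℤ × ℤ) (hh : ∀ v, h v ≠ 0) (v : V) (τ : ZMod q) :
    Clause (Bs q n) (Option ((V × ZMod q) × Bool)) where
  I := Bool
  fin := inferInstance
  ne := inferInstance
  dec := inferInstance
  idx := fun s => if s then some ((v, τ), true) else none
  d := fun s => if s then gv q n ((v, τ), true) else (h v, 0)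
  κ := fun s => if s then 1 else (τ.val : ℤ)
  hidx := by
    intro s t h
    cases s <;> cases t <;> simp_all
  hd := by
    apply subset_sum_inj _ (fun i g => if i then g.2 ((v, τ), true) = 1 else g.1 = h v)
    intro i s
    have h1 : (∑ k ∈ s, if k then gv q n ((v, τ), true) else ((h v, 0) : Bs q n))
        = (if true ∈ s then gv q n ((v, τ), true) else 0)
          + (if false ∈ s then ((h v, 0) : Bs q n) else 0) := by
      have := Finset.sum_ite_mem Finset.univ s
        (fun k : Bool => if k then gv q n ((v, τ), true) else ((h v, 0) : Bs q n))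
      rw [Finset.univ_inter] at this
      rw [← this, Fintype.sum_bool]
      simp
    rw [h1]
    have h0 : (0 : ZMod (n ((v, τ), true))) ≠ 1 := fun h' => one_ne q n hn _ h'.symm
    have hv : ¬ (0 : ℤ × ℤ) = h v := fun h' => hh v h'.symm
    cases i
    · by_cases ht : true ∈ s <;> by_cases hf : false ∈ s <;> simp [ht, hf, gv, hv]
    · by_cases ht : true ∈ s <;> by_cases hf : false ∈ s <;> simp [ht, hf, gv, h0, sg_same]

end

section decode
variable {V : Type} (q : ℕ) (n : (V × ZMod q) × Bool → ℕ) [DecidableEq V]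

/-- the functions we consider -/
abbrev Fn : Type := Bs q n → ∀ o, ZMod (nn q n o)

/-- `f` satisfies the clause `c` -/
def Sat (c : Clause (Bs q n) (Option ((V × ZMod q) × Bool))) (f : Fn q n) : Prop :=
  ∀ y, ∃ i, f (y + c.d i) (c.idx i) = f y (c.idx i) + ((c.κ i : ℤ) : ZMod (nn q n (c.idx i)))

/-- the invariances -/
structure InvOK (h : V → ℤ × ℤ) (f : Fn q n) : Prop where
  i1 : ∀ j l, j ≠ l → ∀ y, f (y + gv q n l) (some j) = f y (some j)
  i2 : ∀ l y, f (y + gv q n l) none = f y none
  i3 : ∀ j : (V × ZMod q) × Bool, ∀ y, f (y + (h j.1.1, 0)) (some j) = f y (some j)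

/-- one-hot encodings of valid vectors -/
def Good (Val : (V → ZMod q) → Prop) (w : V × ZMod q → Bool) : Prop :=
  ∃ v : V → ZMod q, Val v ∧ ∀ β, w β = true ↔ v β.1 = β.2

variable {q n} {h : V → ℤ × ℤ} {f : Fn q n}

omit [DecidableEq V] in
theorem nsmul_inv {o : Option ((V × ZMod q) × Bool)} {g : Bs q n}
    (H : ∀ y, f (y + g) o = f y o) (k : ℕ) (y : Bs q n) : f (y + k • g) o = f y o := by
  induction k generalizing y with
  | zero => simp
  | succ k ih => rw [succ_nsmul, ← add_assoc, H, ih]

theorem single_inv (hn : ∀ j, 2 ≤ n j) {o : Option ((V × ZMod q) × Bool)}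
    {l : (V × ZMod q) × Bool}
    (H : ∀ y, f (y + gv q n l) o = f y o) (c : ZMod (n l)) (y : Bs q n) :
    f (y + (0, Pi.single l c)) o = f y o := by
  have : NeZero (n l) := ⟨by have := hn l; omega⟩
  have h1 : ((0, Pi.single l c) : Bs q n) = c.val • gv q n l := by
    rw [gv, Prod.smul_mk, smul_zero, sg, ← Pi.single_smul]
    simp
  rw [h1]
  exact nsmul_inv H _ _

/-- general: `f _ o` depends only on the coordinates `j` with `o = some j` -/
theorem dep_only [Fintype V] [NeZero q] (hn : ∀ j, 2 ≤ n j) (hf : InvOK q n h f)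
    (o : Option ((V × ZMod q) × Bool))
    (x : ℤ × ℤ) (γ c : Gm q n) (hc : ∀ j, o = some j → c j = 0) :
    f (x, γ + c) o = f (x, γ) o := by
  classical
  have key : ∀ S : Finset ((V × ZMod q) × Bool),
      f (x, γ + ∑ l ∈ S, Pi.single l (c l)) o = f (x, γ) o := by
    intro S
    induction S using Finset.induction_on with
    | empty => simp
    | insert l S hl ih =>
      rw [Finset.sum_insert hl]
      by_cases ho : o = some l
      · rw [hc l ho, Pi.single_zero, zero_add, ih]
      · have H : ∀ y, f (y + gv q n l) o = f y o := by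
          intro y
          cases o with
          | none => exact hf.i2 l y
          | some j => exact hf.i1 j l (fun h' => ho (by rw [h'])) y
        have := single_inv hn H (c l) (x, γ + ∑ l ∈ S, Pi.single l (c l))
        rw [ih, Prod.mk_add_mk, add_zero, add_assoc,
          add_comm (∑ l ∈ S, Pi.single l (c l)) (Pi.single l (c l))] at this
        exact this
  have := key Finset.univ
  rwa [Finset.univ_sum_single] at this

theorem dep_some [Fintype V] [NeZero q] (hn : ∀ j, 2 ≤ n j) (hf : InvOK q n h f)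
    (j : (V × ZMod q) × Bool)
    (x : ℤ × ℤ) (γ γ' : Gm q n) (hc : γ j = γ' j) :
    f (x, γ) (some j) = f (x, γ') (some j) := by
  have := dep_only hn hf (some j) x γ (γ' - γ) (by
    intro j' hj'
    obtain rfl : j = j' := by simpa using hj'
    simp [hc])
  rw [add_sub_cancel] at this
  exact this.symm

theorem dep_none [Fintype V] [NeZero q] (hn : ∀ j, 2 ≤ n j) (hf : InvOK q n h f)
    (x : ℤ × ℤ) (γ γ' : Gm q n) :
    f (x, γ) none = f (x, γ') none := by
  have := dep_only hn hf none x γ (γ' - γ) (by simp)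
  rw [add_sub_cancel] at this
  exact this.symm

/-- independence of the coordinates -/
theorem indep {J : Type} {Z : J → Type} [∀ j, Zero (Z j)] {I : Type} (e : I → J)
    (he : Injective e) (A : I → (∀ j, Z j) → Prop)
    (hA : ∀ i γ γ', γ (e i) = γ' (e i) → A i γ → A i γ')
    (hex : ∀ γ, ∃ i, A i γ) : ∃ i, ∀ γ, A i γ := by
  classical
  by_contra hcon
  push Not at hcon
  choose g hg using hcon
  let γ : ∀ j, Z j := fun j => if hj : ∃ i, e i = j then g hj.choose j else 0
  obtain ⟨i, hi⟩ := hex γ
  apply hg i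
  apply hA i γ _ _ hi
  have hj : ∃ i', e i' = e i := ⟨i, rfl⟩
  have h1 : hj.choose = i := he hj.choose_spec
  simp only [γ, dif_pos hj]
  rw [h1]

/-- type 0 -/
def T0 (f : Fn q n) (j : (V × ZMod q) × Bool) (x : ℤ × ℤ) : Prop :=
  ∀ γ, f ((x, γ) + gv q n j) (some j) = f (x, γ) (some j)

/-- type 1 -/
def T1 (f : Fn q n) (j : (V × ZMod q) × Bool) (x : ℤ × ℤ) : Prop :=
  ∀ γ, f ((x, γ) + gv q n j) (some j) = f (x, γ) (some j) + 1

omit [DecidableEq V] in
theorem one_ne' (hn : ∀ j, 2 ≤ n j) (j : (V × ZMod q) × Bool) :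
    (1 : ZMod (nn q n (some j))) ≠ 0 := one_ne q n hn j

theorem T01 (hn : ∀ j, 2 ≤ n j) {j : (V × ZMod q) × Bool} {x : ℤ × ℤ} (h0 : T0 f j x)
    (h1 : T1 f j x) : False := by
  have a := h0 0
  have b := h1 0
  rw [a] at b
  exact one_ne' hn j (left_eq_add.mp b)

theorem atom_dep [Fintype V] [NeZero q] (hn : ∀ j, 2 ≤ n j) (hf : InvOK q n h f)
    (j : (V × ZMod q) × Bool) (κ : ZMod (nn q n (some j)))
    (x : ℤ × ℤ) (γ γ' : Gm q n) (hc : γ j = γ' j)
    (hA : f ((x, γ) + gv q n j) (some j) = f (x, γ) (some j) + κ) :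
    f ((x, γ') + gv q n j) (some j) = f (x, γ') (some j) + κ := by
  rw [← dep_some hn hf j x γ γ' hc]
  rw [← hA]
  simp only [gv, Prod.mk_add_mk]
  exact (dep_some hn hf j _ _ _ (by simp [hc])).symm

theorem link_all [Fintype V] [NeZero q] (hn : ∀ j, 2 ≤ n j) (hf : InvOK q n h f)
    (β : V × ZMod q) (κ : ℤ)
    (hl : ∀ y, ∃ s : Bool, f (y + gv q n (β, s)) (some (β, s)) = f y (some (β, s)) +
      (κ : ZMod (nn q n (some (β, s))))) (x : ℤ × ℤ) :
    ∃ s : Bool, ∀ γ, f ((x, γ) + gv q n (β, s)) (some (β, s)) = f (x, γ) (some (β, s)) +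
      (κ : ZMod (nn q n (some (β, s)))) := by
  apply indep (Z := fun j => ZMod (n j)) (fun s : Bool => (β, s))
    (by intro s t h; simpa using h)
    (fun s γ => f ((x, γ) + gv q n (β, s)) (some (β, s)) = f (x, γ) (some (β, s)) +
      (κ : ZMod (nn q n (some (β, s)))))
  · intro i γ γ' hc hA
    exact atom_dep hn hf (β, i) _ x γ γ' hc hA
  · intro γ
    exact hl (x, γ)

theorem decode [Fintype V] [NeZero q] [Nonempty V] (hn : ∀ j, 2 ≤ n j) (hh : ∀ v, h v ≠ 0)
    (K : Set V) (Val : (V → ZMod q) → Prop)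
    (hf : InvOK q n h f) (hlink : ∀ β τ, Sat q n (linkC q n hn β τ) f)
    (hK : ∀ v ∈ K, ∀ τ, Sat q n (kC q n hn h hh v τ) f)
    (hval : ∀ w, ¬ Good q Val w → Sat q n (valC q n hn w) f) :
    ∃ a W, CoreSol q h K Val a W ∧
      ∀ m : ℕ, (∀ g y, f (y + m • g) = f y) → ∀ p x : ℤ × ℤ, W (x + m • p) = W x := by
  classical
  -- link
  have l0 : ∀ β x, ∃ s, T0 f (β, s) x := by
    intro β x
    have := link_all hn hf β 0 (by
      intro y
      obtain ⟨s, hs⟩ := hlink β false y
      exact ⟨s, hs⟩) x
    obtain ⟨s, hs⟩ := this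
    exact ⟨s, fun γ => by simpa using hs γ⟩
  have l1 : ∀ β x, ∃ s, T1 f (β, s) x := by
    intro β x
    have := link_all hn hf β 1 (by
      intro y
      obtain ⟨s, hs⟩ := hlink β true y
      exact ⟨s, hs⟩) x
    obtain ⟨s, hs⟩ := this
    exact ⟨s, fun γ => by simpa using hs γ⟩
  have t01 : ∀ β x, ¬ T0 f (β, true) x → T1 f (β, true) x := by
    intro β x h0
    obtain ⟨s, hs⟩ := l0 β x
    obtain ⟨t, ht⟩ := l1 β x
    cases s with
    | true => exact absurd hs h0
    | false =>
      cases t with
      | true => exact ht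
      | false => exact (T01 hn hs ht).elim
  -- goodness
  have good : ∀ x, Good q Val (fun β => decide (T0 f (β, true) x)) := by
    intro x
    by_contra hng
    have hs := hval _ hng
    obtain ⟨β, hβ⟩ := indep (Z := fun j => ZMod (n j)) (fun β : V × ZMod q => (β, true))
      (by intro s t h; simpa using h)
      (fun β γ => f ((x, γ) + gv q n (β, true)) (some (β, true)) =
        f (x, γ) (some (β, true)) +
          (((if decide (T0 f (β, true) x) then 1 else 0 : ℤ)) : ZMod (nn q n (some (β, true)))))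
      (fun i γ γ' hc hA => atom_dep hn hf (i, true) _ x γ γ' hc hA)
      (fun γ => hs (x, γ))
    by_cases hT : T0 f (β, true) x
    · have h1 : T1 f (β, true) x := by
        intro γ
        simpa [hT] using hβ γ
      exact T01 hn hT h1
    · apply hT
      intro γ
      simpa [hT] using hβ γ
  choose W hWval hW using good
  have hW' : ∀ x β, T0 f (β, true) x ↔ W x β.1 = β.2 := by
    intro x β
    rw [← hW x β]
    simp
  refine ⟨fun x => f (x, 0) none, W, ⟨?_, ?_, hWval⟩, ?_⟩
  · intro v x
    have h1 : T0 f ((v, W x v), true) x := (hW' x (v, W x v)).mpr rfl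
    have h2 : T0 f ((v, W x v), true) (x + h v) := by
      intro γ
      have e1 : ((x + h v, γ) : Bs q n) = (x, γ) + (h v, 0) := by simp
      rw [e1, hf.i3 ((v, W x v), true)]
      rw [add_right_comm, hf.i3 ((v, W x v), true)]
      exact h1 γ
    exact (hW' _ _).mp h2
  · intro v hv x
    have h1 : T0 f ((v, W x v), true) x := (hW' x (v, W x v)).mpr rfl
    obtain ⟨s, hs⟩ := hK v hv (W x v) (x, 0)
    cases s with
    | true =>
      exfalso
      have h2 := h1 0
      have hs' : f ((x, 0) + gv q n ((v, W x v), true)) (some ((v, W x v), true)) =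
          f (x, 0) (some ((v, W x v), true)) +
            ((1 : ℤ) : ZMod (nn q n (some ((v, W x v), true)))) := hs
      rw [h2, Int.cast_one] at hs'
      exact one_ne' hn _ (left_eq_add.mp hs')
    | false =>
      have hs' : f (((x, 0) : Bs q n) + (h v, 0)) none =
          f (x, 0) none + (((W x v).val : ℤ) : ZMod (nn q n none)) := hs
      have e1 : ((x, 0) : Bs q n) + (h v, 0) = (x + h v, 0) := by simp
      have e2 : (((W x v).val : ℤ) : ZMod (nn q n none)) = W x v := by
        change (((W x v).val : ℤ) : ZMod q) = W x v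
        simp
      rw [e1, e2] at hs'
      exact hs'
  · intro m hm p x
    have hT : ∀ j, T0 f j (x + m • p) ↔ T0 f j x := by
      intro j
      have e1 : ∀ γ : Gm q n, ((x + m • p, γ) : Bs q n) = (x, γ) + m • (p, 0) := by
        intro γ; simp
      constructor
      · intro H γ
        have := H γ
        rw [e1, hm, add_right_comm, hm] at this
        exact this
      · intro H γ
        rw [e1, hm, add_right_comm, hm]
        exact H γ
    funext v
    have h1 : T0 f ((v, W x v), true) x := (hW' x (v, W x v)).mpr rfl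
    exact (hW' _ _).mp ((hT _).mpr h1)

end decode

section encode
variable {V : Type} (q : ℕ) (n : (V × ZMod q) × Bool → ℕ) [DecidableEq V]

/-- the intended function attached to a core solution -/
def encF (a : ℤ × ℤ → ZMod q) (W : ℤ × ℤ → V → ZMod q) : Fn q n := fun y o =>
  match o with
  | none => a y.1
  | some j => if (decide (W y.1 j.1.1 = j.1.2)) = j.2 then (0 : ZMod (n j)) else y.2 j

variable {q n} {a : ℤ × ℤ → ZMod q} {W : ℤ × ℤ → V → ZMod q}

omit [DecidableEq V] in
theorem encF_none (y : Bs q n) : encF q n a W y none = a y.1 := rfl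

omit [DecidableEq V] in
theorem encF_pos {y : Bs q n} {j : (V × ZMod q) × Bool}
    (h : (decide (W y.1 j.1.1 = j.1.2)) = j.2) : encF q n a W y (some j) = 0 := by
  change (if (decide (W y.1 j.1.1 = j.1.2)) = j.2 then (0 : ZMod (n j)) else y.2 j) = 0
  rw [if_pos h]

omit [DecidableEq V] in
theorem encF_neg {y : Bs q n} {j : (V × ZMod q) × Bool}
    (h : ¬ (decide (W y.1 j.1.1 = j.1.2)) = j.2) : encF q n a W y (some j) = y.2 j := by
  change (if (decide (W y.1 j.1.1 = j.1.2)) = j.2 then (0 : ZMod (n j)) else y.2 j) = y.2 j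
  rw [if_neg h]

theorem encF_T1 {y : Bs q n} {j : (V × ZMod q) × Bool}
    (h : ¬ (decide (W y.1 j.1.1 = j.1.2)) = j.2) :
    encF q n a W (y + gv q n j) (some j) = encF q n a W y (some j) + 1 := by
  have e : (y + gv q n j).1 = y.1 := by simp [gv]
  rw [encF_neg h, encF_neg (by rw [e]; exact h)]
  change y.2 j + sg q n j j = y.2 j + 1
  rw [sg_same]

theorem encF_T0 {y : Bs q n} {j : (V × ZMod q) × Bool}
    (h : (decide (W y.1 j.1.1 = j.1.2)) = j.2) :
    encF q n a W (y + gv q n j) (some j) = encF q n a W y (some j) := by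
  have e : (y + gv q n j).1 = y.1 := by simp [gv]
  rw [encF_pos h, encF_pos (by rw [e]; exact h)]

variable {h : V → ℤ × ℤ} {K : Set V} {Val : (V → ZMod q) → Prop}

theorem enc_inv (hs : CoreSol q h K Val a W) : InvOK q n h (encF q n a W) where
  i1 := by
    intro j l hjl y
    have e : (y + gv q n l).1 = y.1 := by simp [gv]
    by_cases hj : (decide (W y.1 j.1.1 = j.1.2)) = j.2
    · rw [encF_pos hj, encF_pos (by rw [e]; exact hj)]
    · rw [encF_neg hj, encF_neg (by rw [e]; exact hj)]
      change y.2 j + sg q n l j = y.2 j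
      rw [sg_ne q n hjl, add_zero]
  i2 := by
    intro l y
    have e : (y + gv q n l).1 = y.1 := by simp [gv]
    rw [encF_none, encF_none, e]
  i3 := by
    intro j y
    have e : W (y + (h j.1.1, 0)).1 j.1.1 = W y.1 j.1.1 := by
      rw [Prod.fst_add]
      exact hs.inv _ _
    by_cases hj : (decide (W y.1 j.1.1 = j.1.2)) = j.2
    · rw [encF_pos hj, encF_pos (by rw [e]; exact hj)]
    · have e2 : (y + ((h j.1.1, 0) : Bs q n)).2 = y.2 := by simp
      rw [encF_neg hj, encF_neg (by rw [e]; exact hj), e2]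

theorem enc_link (hn : ∀ j, 2 ≤ n j) (β : V × ZMod q) (τ : Bool) :
    Sat q n (linkC q n hn β τ) (encF q n a W) := by
  intro y
  cases τ with
  | false =>
    refine ⟨decide (W y.1 β.1 = β.2), ?_⟩
    have := encF_T0 (q := q) (n := n) (a := a) (W := W) (y := y)
      (j := (β, decide (W y.1 β.1 = β.2))) rfl
    change encF q n a W (y + gv q n (β, decide (W y.1 β.1 = β.2)))
        (some (β, decide (W y.1 β.1 = β.2))) =
      encF q n a W y (some (β, decide (W y.1 β.1 = β.2))) +
        ((0 : ℤ) : ZMod (nn q n (some (β, decide (W y.1 β.1 = β.2)))))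
    rw [Int.cast_zero, add_zero]
    exact this
  | true =>
    refine ⟨!decide (W y.1 β.1 = β.2), ?_⟩
    have := encF_T1 (q := q) (n := n) (a := a) (W := W) (y := y)
      (j := (β, !decide (W y.1 β.1 = β.2))) (by simp)
    change encF q n a W (y + gv q n (β, !decide (W y.1 β.1 = β.2)))
        (some (β, !decide (W y.1 β.1 = β.2))) =
      encF q n a W y (some (β, !decide (W y.1 β.1 = β.2))) +
        ((1 : ℤ) : ZMod (nn q n (some (β, !decide (W y.1 β.1 = β.2)))))
    rw [Int.cast_one]
    exact this

theorem enc_K (hn : ∀ j, 2 ≤ n j) [NeZero q] (hh : ∀ v, h v ≠ 0)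
    (hs : CoreSol q h K Val a W) (v : V) (hv : v ∈ K) (τ : ZMod q) :
    Sat q n (kC q n hn h hh v τ) (encF q n a W) := by
  intro y
  by_cases hW : W y.1 v = τ
  · refine ⟨false, ?_⟩
    change encF q n a W (y + (h v, 0)) none =
      encF q n a W y none + ((τ.val : ℤ) : ZMod (nn q n none))
    have e2 : ((τ.val : ℤ) : ZMod (nn q n none)) = τ := by
      change ((τ.val : ℤ) : ZMod q) = τ
      simp
    rw [encF_none, encF_none, Prod.fst_add, e2]
    have := hs.step v hv y.1
    rw [hW] at this
    exact this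
  · refine ⟨true, ?_⟩
    change encF q n a W (y + gv q n ((v, τ), true)) (some ((v, τ), true)) =
      encF q n a W y (some ((v, τ), true)) +
        ((1 : ℤ) : ZMod (nn q n (some ((v, τ), true))))
    rw [Int.cast_one]
    exact encF_T1 (by simpa using hW)

theorem enc_val [Fintype V] [NeZero q] [Nonempty V] (hn : ∀ j, 2 ≤ n j)
    (hs : CoreSol q h K Val a W) (w : V × ZMod q → Bool) (hw : ¬ Good q Val w) :
    Sat q n (valC q n hn w) (encF q n a W) := by
  intro y
  have : ∃ β : V × ZMod q, ¬ (w β = true ↔ W y.1 β.1 = β.2) := by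
    by_contra hcon
    push Not at hcon
    exact hw ⟨W y.1, hs.valid _, hcon⟩
  obtain ⟨β, hβ⟩ := this
  refine ⟨β, ?_⟩
  change encF q n a W (y + gv q n (β, true)) (some (β, true)) =
    encF q n a W y (some (β, true)) +
      ((if w β then 1 else 0 : ℤ) : ZMod (nn q n (some (β, true))))
  cases hwb : w β with
  | true =>
    have h1 : ¬ W y.1 β.1 = β.2 := by
      intro h'; exact hβ (by simp [hwb, h'])
    simp only [if_true, Int.cast_one]
    exact encF_T1 (by simpa using h1)
  | false =>
    have h1 : W y.1 β.1 = β.2 := by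
      by_contra h'; exact hβ (by simp [hwb, h'])
    simp only [Bool.false_eq_true, if_false, Int.cast_zero, add_zero]
    exact encF_T0 (by simpa using h1)

end encode

section main
variable {V : Type} [Fintype V] [DecidableEq V] (q : ℕ)

/-- distinct primes larger than `q` -/
theorem exists_moduli (J : Type) [Fintype J] (q : ℕ) :
    ∃ n : J → ℕ, (∀ j, (n j).Prime) ∧ (∀ j, q < n j) ∧ Function.Injective n := by
  classical
  let e := Fintype.equivFin J
  refine ⟨fun j => Nat.nth Nat.Prime ((e j : ℕ) + q), ?_, ?_, ?_⟩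
  · intro j; exact Nat.prime_nth_prime _
  · intro j
    have h1 : ∀ k, k < Nat.nth Nat.Prime k := by
      intro k
      induction k with
      | zero => exact (Nat.prime_nth_prime 0).pos
      | succ k ih =>
        have : Nat.nth Nat.Prime k < Nat.nth Nat.Prime (k + 1) :=
          Nat.nth_strictMono Nat.infinite_setOfPred_prime (Nat.lt_succ_self k)
        omega
    have := h1 ((e j : ℕ) + q)
    simp only
    omega
  · intro i j hij
    have := (Nat.nth_strictMono Nat.infinite_setOfPred_prime).injective hij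
    apply e.injective
    ext
    omega

end main

end Enc

open Enc in
/-- the core system with a solution but no periodic solution gives a bad family -/
theorem encode {V : Type} [Fintype V] [DecidableEq V] (q : ℕ) (hq : 2 ≤ q) (h : V → ℤ × ℤ)
    (hh : ∀ v, h v ≠ 0) (K : Set V) (Val : (V → ZMod q) → Prop)
    (hex : ∃ a W, CoreSol q h K Val a W)
    (hper : ∀ a W, CoreSol q h K Val a W →
      ¬ ∃ m : ℕ, 0 < m ∧ ∀ p x : ℤ × ℤ, W (x + m • p) = W x) :
    ∃ a b N : ℕ, 0 < a ∧ 0 < b ∧ BadFam (((ℤ × ℤ) × ZMod a) × ZMod b) N := by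
  classical
  have : NeZero q := ⟨by omega⟩
  -- `V` is nonempty, otherwise everything is periodic
  have hV : Nonempty V := by
    by_contra hV
    rw [not_nonempty_iff] at hV
    obtain ⟨a, W, hs⟩ := hex
    exact hper a W hs ⟨1, one_pos, fun p x => funext fun v => (hV.false v).elim⟩
  obtain ⟨n, hprime, hlt, hinj⟩ := exists_moduli ((V × ZMod q) × Bool) q
  have hn : ∀ j, 2 ≤ n j := fun j => (hprime j).two_le
  have hnz : ∀ o, NeZero (nn q n o) := by
    intro o
    cases o with
    | none => exact ⟨by change q ≠ 0; omega⟩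
    | some j => exact ⟨(hprime j).ne_zero⟩
  -- the clauses
  let C : Type := ((V × ZMod q) × Bool) ⊕ ((K × ZMod q) ⊕ {w : V × ZMod q → Bool // ¬ Good q Val w})
  let cl : C → Clause (Bs q n) (Option ((V × ZMod q) × Bool)) :=
    Sum.elim (fun c => linkC q n hn c.1 c.2)
      (Sum.elim (fun c => kC q n hn h hh c.1.1 c.2) (fun w => valC q n hn w.1))
  let P : Type := {p : ((V × ZMod q) × Bool) × ((V × ZMod q) × Bool) // p.1 ≠ p.2} ⊕
    (((V × ZMod q) × Bool) ⊕ ((V × ZMod q) × Bool))
  let pj : P → Option ((V × ZMod q) × Bool) :=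
    Sum.elim (fun p => some p.1.1) (Sum.elim (fun _ => none) (fun j => some j))
  let pd : P → Bs q n :=
    Sum.elim (fun p => gv q n p.1.2) (Sum.elim (fun l => gv q n l) (fun j => (h j.1.1, 0)))
  have hgv : ∀ l, gv q n l ≠ 0 := by
    intro l hl
    have := congrArg (fun g => g.2 l) hl
    simp only [gv, sg_same, Prod.snd_zero, Pi.zero_apply] at this
    exact one_ne q n hn l this
  have hinvOK : ∀ f : Fn q n, (∀ p y, f (y + pd p) (pj p) = f y (pj p)) ↔ InvOK q n h f := by
    intro f
    constructor
    · intro H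
      exact ⟨fun j l hjl y => H (Sum.inl ⟨(j, l), hjl⟩) y, fun l y => H (Sum.inr (Sum.inl l)) y,
        fun j y => H (Sum.inr (Sum.inr j)) y⟩
    · intro H p y
      rcases p with ⟨⟨j, l⟩, hjl⟩ | l | j
      · exact H.i1 j l hjl y
      · exact H.i2 l y
      · exact H.i3 j y
  have hcl : ∀ f : Fn q n, (∀ c, Sat q n (cl c) f) ↔
      ((∀ β τ, Sat q n (linkC q n hn β τ) f) ∧ (∀ v ∈ K, ∀ τ, Sat q n (kC q n hn h hh v τ) f) ∧
        (∀ w, ¬ Good q Val w → Sat q n (valC q n hn w) f)) := by
    intro f
    constructor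
    · intro H
      exact ⟨fun β τ => H (Sum.inl (β, τ)), fun v hv τ => H (Sum.inr (Sum.inl (⟨v, hv⟩, τ))),
        fun w hw => H (Sum.inr (Sum.inr ⟨w, hw⟩))⟩
    · rintro ⟨H1, H2, H3⟩ c
      rcases c with ⟨β, τ⟩ | ⟨⟨v, hv⟩, τ⟩ | ⟨w, hw⟩
      · exact H1 β τ
      · exact H2 v hv τ
      · exact H3 w hw
  let i1 : ∀ c, Fintype ((fun c => (cl c).I) c) := fun c => (cl c).fin
  have i2 : ∀ c, Nonempty ((fun c => (cl c).I) c) := fun c => (cl c).ne
  let i3 : ∀ c, DecidableEq ((fun c => (cl c).I) c) := fun c => (cl c).dec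
  obtain ⟨N, hN⟩ := system (nn q n) (C := C) (fun c => (cl c).I) (fun c => (cl c).idx)
    (fun c => (cl c).d) (fun c => (cl c).κ) (fun c => (cl c).hidx) (fun c => (cl c).hd)
    pj pd (by
      intro p
      rcases p with ⟨⟨j, l⟩, hjl⟩ | l | j
      · exact hgv l
      · exact hgv l
      · intro h0
        exact hh j.1.1 (congrArg Prod.fst h0))
    (by
      intro c i l hil
      rcases c with ⟨β, τ⟩ | ⟨⟨v, hv⟩, τ⟩ | ⟨w, hw⟩
      · exact ⟨Sum.inl ⟨((β, i), (β, l)), fun h' => hil (congrArg Prod.snd h')⟩, rfl, rfl⟩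
      · cases i with
        | true =>
          cases l with
          | true => exact absurd rfl hil
          | false => exact ⟨Sum.inr (Sum.inr ((v, τ), true)), rfl, rfl⟩
        | false =>
          cases l with
          | true => exact ⟨Sum.inr (Sum.inl ((v, τ), true)), rfl, rfl⟩
          | false => exact absurd rfl hil
      · exact ⟨Sum.inl ⟨((i, true), (l, true)), fun h' => hil (congrArg Prod.fst h')⟩,
          rfl, rfl⟩)
    (by
      obtain ⟨a, W, hs⟩ := hex
      refine ⟨encF q n a W, (hinvOK _).mpr (enc_inv hs), (hcl _).mpr ⟨?_, ?_, ?_⟩⟩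
      · intro β τ; exact enc_link hn β τ
      · intro v hv τ; exact enc_K hn hh hs v hv τ
      · intro w hw; exact enc_val hn hs w hw)
    (by
      rintro f hf1 hf2 ⟨m, hm, hmf⟩
      obtain ⟨H1, H2, H3⟩ := (hcl f).mp hf2
      obtain ⟨a, W, hs, hW⟩ := decode hn hh K Val ((hinvOK f).mp hf1) H1 H2 H3
      exact hper a W hs ⟨m, hm, hW m hmf⟩)
  -- transport
  have hc1 : Pairwise (Function.onFun Nat.Coprime n) := by
    intro i j hij
    exact (Nat.coprime_primes (hprime i) (hprime j)).mpr (fun h' => hij (hinj h'))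
  have hc2 : Pairwise (Function.onFun Nat.Coprime (nn q n)) := by
    intro i j hij
    cases i with
    | none =>
      cases j with
      | none => exact absurd rfl hij
      | some j =>
        change Nat.Coprime q (n j)
        exact (Nat.coprime_of_lt_prime (by omega) (hlt j) (hprime j)).symm
    | some i =>
      cases j with
      | none =>
        change Nat.Coprime (n i) q
        exact Nat.coprime_of_lt_prime (by omega) (hlt i) (hprime i)
      | some j => exact hc1 (fun h' => hij (by rw [h']))
  refine ⟨∏ j, n j, ∏ o, nn q n o, N, ?_, ?_, ?_⟩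
  · exact Finset.prod_pos (fun j _ => (hprime j).pos)
  · exact Finset.prod_pos (fun o _ => Nat.pos_of_ne_zero (hnz o).out)
  · refine BadFam.congr ?_ hN
    exact (((AddEquiv.refl (ℤ × ℤ)).prodCongr (ZMod.prodEquivPi n hc1).toAddEquiv).prodCongr
      (ZMod.prodEquivPi (nn q n) hc2).toAddEquiv).symm

end P043
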