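import Vale.Agent.P043.Defs

namespace P043

namespace Gad

/-- cyclic system with a constant entry at `0` has exactly one solution -/
theorem cyc_zero (r : ℕ) (a : Fin (r + 1) → Bool → Bool) (h0 : a 0 true = a 0 false) :
    ∃! v : Fin (r + 1) → Bool, ∀ j, v (j - 1) = a j (v j) := by
  let u : ℕ → Bool := fun k => Nat.rec (a 0 true) (fun k b => a (Fin.ofNat (r + 1) (r - k)) b) k
  have u0 : u 0 = a 0 true := rfl
  have us : ∀ k, u (k + 1) = a (Fin.ofNat (r + 1) (r - k)) (u k) := fun k => rfl
  have hconst : ∀ b, a 0 b = a 0 true := by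
    intro b; cases b
    · exact h0.symm
    · rfl
  refine ⟨fun j => u (r - j.val), ?_, ?_⟩
  · intro j
    simp only
    by_cases hj : j = 0
    · subst hj
      have : ((0 : Fin (r + 1)) - 1).val = r := by
        rw [zero_sub, Fin.coe_neg_one]
      rw [this, Nat.sub_self, u0, hconst (u _)]
    · have h1 : (j - 1).val = j.val - 1 := Fin.val_sub_one_of_ne_zero hj
      have h2 : 0 < j.val := Fin.pos_of_ne_zero hj
      have h3 : j.val ≤ r := Nat.lt_succ_iff.mp j.isLt
      have h4 : r - (j - 1).val = (r - j.val) + 1 := by rw [h1]; omega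
      rw [h4, us]
      congr 1
      ext
      simp only [Fin.val_ofNat]
      rw [Nat.mod_eq_of_lt (by omega)]
      omega
  · intro v hv
    have key : ∀ k, k ≤ r → v (Fin.ofNat (r + 1) (r - k)) = u k := by
      intro k
      induction k with
      | zero =>
        intro _
        have h := hv 0
        have h1 : (0 : Fin (r + 1)) - 1 = Fin.ofNat (r + 1) (r - 0) := by
          ext
          rw [zero_sub, Fin.coe_neg_one, Fin.val_ofNat]
          rw [Nat.mod_eq_of_lt (by omega)]
          omega
        rw [← h1, h, u0, hconst]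
      | succ k ih =>
        intro hk
        have ih' := ih (by omega)
        rw [us, ← ih', ← hv]
        congr 1
        ext
        have hne : Fin.ofNat (r + 1) (r - k) ≠ 0 := by
          intro h'
          have := congrArg Fin.val h'
          rw [Fin.val_ofNat, Nat.mod_eq_of_lt (by omega)] at this
          simp at this
          omega
        rw [Fin.val_sub_one_of_ne_zero hne]
        simp only [Fin.val_ofNat]
        rw [Nat.mod_eq_of_lt (by omega), Nat.mod_eq_of_lt (by omega)]
        omega
    funext j
    have h3 : j.val ≤ r := Nat.lt_succ_iff.mp j.isLt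
    rw [← key (r - j.val) (by omega)]
    congr 1
    ext
    rw [Fin.val_ofNat, Nat.mod_eq_of_lt (by omega)]
    omega

theorem cyc_any (r : ℕ) (a : Fin (r + 1) → Bool → Bool) (i : Fin (r + 1))
    (h0 : a i true = a i false) :
    ∃! v : Fin (r + 1) → Bool, ∀ j, v (j - 1) = a j (v j) := by
  obtain ⟨v, hv, huniq⟩ := cyc_zero r (fun j => a (j + i)) (by simpa using h0)
  refine ⟨fun j => v (j - i), ?_, ?_⟩
  · intro j
    have := hv (j - i)
    simp only [sub_add_cancel] at this
    simp only
    rw [← this]
    congr 1
    abel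
  · intro w hw
    have := huniq (fun j => w (j + i)) (by
      intro j
      have := hw (j + i)
      simp only
      rw [← this]
      congr 1
      abel)
    funext j
    have h := congrFun this (j - i)
    simpa using h

end Gad

/-- The OR gadget: a finite set `F` such that, for every `f` satisfying the cross invariances,
`graph f ⊕ F = G0 × H` iff at every point one of the atoms `f_{j_i}(y + d_i) = f_{j_i}(y) + κ_i`
holds. -/
theorem gadget {G0 J I : Type} [AddCommGroup G0] [Fintype J] [DecidableEq J] (n : J → ℕ)
    [∀ j, NeZero (n j)] [Fintype I] [Nonempty I] [DecidableEq I]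
    (idx : I → J) (hidx : Function.Injective idx) (d : I → G0) (κ : I → ℤ)
    (hd : Function.Injective (fun s : Finset I => ∑ i ∈ s, d i)) :
    ∃ F : Set (G0 × (∀ j, ZMod (n j))), F.Finite ∧
      ∀ f : G0 → ∀ j, ZMod (n j),
        (∀ y i l, i ≠ l → f (y + d l) (idx i) = f y (idx i)) →
        (Tl (graph f) F ↔
          ∀ y, ∃ i, f (y + d i) (idx i) = f y (idx i) + ((κ i : ℤ) : ZMod (n (idx i)))) := by
  classical
  obtain ⟨r, hr⟩ : ∃ r, Fintype.card I = r + 1 :=
    ⟨Fintype.card I - 1, by have := Fintype.card_pos (α := I); omega⟩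
  let e : I ≃ Fin (r + 1) := Fintype.equivFinOfCardEq hr
  let pr : I → I := fun i => e.symm (e i - 1)
  let S : (I → Bool) → Finset I := fun ι => Finset.univ.filter (fun i => ι i = true)
  let s : (I → Bool) → G0 := fun ι => ∑ i ∈ S ι, d i
  have hs : Function.Injective s := by
    intro ι ι' h
    have h1 : S ι = S ι' := hd h
    funext i
    have h2 : i ∈ S ι ↔ i ∈ S ι' := by rw [h1]
    simp only [S, Finset.mem_filter, Finset.mem_univ, true_and] at h2
    exact Bool.eq_iff_iff.mpr h2
  let Q : (I → Bool) → (∀ j, ZMod (n j)) → Prop := fun ι k =>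
    ∀ i, (k (idx i) + (if ι i then ((κ i : ℤ) : ZMod (n (idx i))) else 0) = 0) ↔ ι (pr i) = true
  let F : Set (G0 × (∀ j, ZMod (n j))) := {p | ∃ ι, p.1 = -(s ι) ∧ Q ι p.2}
  refine ⟨F, ?_, ?_⟩
  · apply Set.Finite.subset (Set.finite_range
      (fun q : (I → Bool) × (∀ j, ZMod (n j)) => ((-(s q.1), q.2) : G0 × (∀ j, ZMod (n j)))))
    rintro ⟨p1, p2⟩ ⟨ι, h1, -⟩
    exact ⟨(ι, p2), by simp only at h1; simp [h1]⟩
  intro f hf
  -- value of `f` at the shifted point
  have hval : ∀ y ι i, f (y + s ι) (idx i) = if ι i then f (y + d i) (idx i) else f y (idx i) := by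
    intro y ι i
    have key : ∀ T : Finset I, i ∉ T → ∀ y, f (y + ∑ l ∈ T, d l) (idx i) = f y (idx i) := by
      intro T
      induction T using Finset.induction_on with
      | empty => intro _ y; simp
      | insert l T hl ih =>
        intro hi y
        rw [Finset.sum_insert hl, ← add_assoc]
        rw [ih (fun h => hi (Finset.mem_insert_of_mem h))]
        exact hf y i l (fun h => hi (h ▸ Finset.mem_insert_self _ _))
    by_cases hi : ι i = true
    · have hmem : i ∈ S ι := by simp [S, hi]
      simp only [hi, if_true, s]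
      rw [← Finset.insert_erase hmem, Finset.sum_insert (Finset.notMem_erase _ _), ← add_assoc]
      exact key _ (Finset.notMem_erase _ _) _
    · have hmem : i ∉ S ι := by simp [S, hi]
      simp only [hi, s]
      exact key _ hmem _
  -- the boolean system
  let a : G0 → (∀ j, ZMod (n j)) → I → Bool → Bool := fun y z i b =>
    decide (z (idx i) - (if b then f (y + d i) (idx i) else f y (idx i)) +
      (if b then ((κ i : ℤ) : ZMod (n (idx i))) else 0) = 0)
  have hQ : ∀ y z ι, Q ι (z - f (y + s ι)) ↔ ∀ i, ι (pr i) = a y z i (ι i) := by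
    intro y z ι
    apply forall_congr'
    intro i
    simp only [a, Pi.sub_apply, hval]
    constructor
    · intro h
      apply Bool.eq_iff_iff.mpr
      exact h.symm.trans (decide_eq_true_iff).symm
    · intro h
      exact (decide_eq_true_iff).symm.trans (Bool.eq_iff_iff.mp h.symm)
  have hcov : ∀ y z, (∃! p, p ∈ F ∧ (y, z) - p ∈ graph f) ↔
      ∃! ι : I → Bool, ∀ i, ι (pr i) = a y z i (ι i) := by
    intro y z
    constructor
    · rintro ⟨⟨p1, p2⟩, ⟨⟨ι, h1, h2⟩, h3⟩, hu⟩
      simp only at h1 h2
      have h4 : z - p2 = f (y - p1) := h3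
      have h5 : p2 = z - f (y + s ι) := by
        rw [h1, sub_neg_eq_add] at h4
        rw [← h4]; abel
      refine ⟨ι, ?_, ?_⟩
      · rw [h5] at h2
        exact (hQ y z ι).mp h2
      · intro ι' hι'
        have := hu (-(s ι'), z - f (y + s ι')) ⟨⟨ι', rfl, (hQ y z ι').mpr hι'⟩, by
          change z - (z - f (y + s ι')) = f (y - -(s ι'))
          rw [sub_neg_eq_add]; abel⟩
        have h6 := congrArg Prod.fst this
        simp only [h1] at h6
        exact hs (neg_injective h6)
    · rintro ⟨ι, hι, hu⟩
      refine ⟨(-(s ι), z - f (y + s ι)), ⟨⟨ι, rfl, (hQ y z ι).mpr hι⟩, ?_⟩, ?_⟩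
      · change z - (z - f (y + s ι)) = f (y - -(s ι))
        rw [sub_neg_eq_add]; abel
      · rintro ⟨p1, p2⟩ ⟨⟨ι', h1, h2⟩, h3⟩
        simp only at h1 h2
        have h4 : z - p2 = f (y - p1) := h3
        have h5 : p2 = z - f (y + s ι') := by
          rw [h1, sub_neg_eq_add] at h4
          rw [← h4]; abel
        rw [h5] at h2
        have h6 := hu ι' ((hQ y z ι').mp h2)
        rw [h5, h1, h6]
  constructor
  · intro hT y
    by_contra hcon
    push Not at hcon
    have h1 := (hcov y (f y)).mp (hT (y, f y))
    have ha : ∀ i b, a y (f y) i b = !b := by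
      intro i b
      cases b with
      | false => simp [a]
      | true =>
        simp only [a, if_true, Bool.not_true, decide_eq_false_iff_not]
        intro h
        apply hcon i
        have : f (y + d i) (idx i) = f y (idx i) + ((κ i : ℤ) : ZMod (n (idx i))) -
            (f y (idx i) - f (y + d i) (idx i) + ((κ i : ℤ) : ZMod (n (idx i)))) := by abel
        rw [this, h, sub_zero]
    obtain ⟨ι, hι, hu⟩ := h1
    have h2 := hu (fun i => !(ι i)) (by
      intro i
      have := hι i
      rw [ha] at this ⊢
      simp only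
      rw [this])
    obtain ⟨i⟩ := (inferInstance : Nonempty I)
    have h3 := congrFun h2 i
    simp at h3
  · intro hcl
    rintro ⟨y, z⟩
    rw [hcov]
    obtain ⟨i, hi⟩ := hcl y
    have ha : a y z i true = a y z i false := by
      simp only [a, if_true, Bool.false_eq_true, if_false, add_zero]
      rw [hi]
      congr 1
      apply propext
      constructor
      · intro h; rw [← h]; abel
      · intro h; rw [← h]; abel
    obtain ⟨v, hv, hu⟩ := Gad.cyc_any r (fun j => a y z (e.symm j)) (e i) (by simpa using ha)
    refine ⟨fun i => v (e i), ?_, ?_⟩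
    · intro j
      have := hv (e j)
      simp only [Equiv.symm_apply_apply] at this
      simp only [pr, Equiv.apply_symm_apply]
      exact this
    · intro w hw
      have := hu (fun j => w (e.symm j)) (by
        intro j
        have := hw (e.symm j)
        simp only [pr, Equiv.apply_symm_apply] at this
        exact this)
      funext j
      have h := congrFun this (e j)
      simpa using h

end P043
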