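import Vale.Agent.P043.Defs

namespace P043

/-- the odd part, with value `1` at `0` -/
def intendedSg (t : ℤ) : ℤ :=
  if t = 0 then 1 else if t % 2 = 1 then t else intendedSg (t / 2)
termination_by t.natAbs
decreasing_by omega

theorem intendedSg_zero : intendedSg 0 = 1 := by
  rw [intendedSg]
  simp

theorem intendedSg_odd {t : ℤ} (h : t % 2 = 1) : intendedSg t = t := by
  rw [intendedSg, if_neg (by rintro rfl; simp at h), if_pos h]

theorem intendedSg_even (t : ℤ) : intendedSg (2 * t) = intendedSg t := by
  by_cases h0 : t = 0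
  · subst h0
    rfl
  · rw [intendedSg, if_neg (by omega), if_neg (by omega)]
    congr 1
    omega

theorem intendedSg_mod (t : ℤ) : intendedSg t % 2 = 1 := by
  induction hn : t.natAbs using Nat.strong_induction_on generalizing t with
  | _ n ih =>
    by_cases h0 : t = 0
    · subst h0
      rw [intendedSg_zero]
      rfl
    · rcases Int.emod_two_eq_zero_or_one t with h | h
      · obtain ⟨s, rfl⟩ : ∃ s, t = 2 * s := ⟨t / 2, by omega⟩
        rw [intendedSg_even]
        exact ih s.natAbs (by omega) s rfl
      · rw [intendedSg_odd h]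
        exact h

theorem intendedSg_dvd (t : ℤ) (ht : t % 2 = 0) :
    ∃ k : ℤ, (k = 2 ∨ k = 4 ∨ k = 8 ∨ k = 16 ∨ k = 32 ∨ k = 64) ∧
      64 ∣ t - k * intendedSg t := by
  induction hn : t.natAbs using Nat.strong_induction_on generalizing t with
  | _ n ih =>
    by_cases h0 : t = 0
    · subst h0
      exact ⟨64, by omega, by omega⟩
    · obtain ⟨s, rfl⟩ : ∃ s, t = 2 * s := ⟨t / 2, by omega⟩
      rw [intendedSg_even]
      rcases Int.emod_two_eq_zero_or_one s with h | h
      · obtain ⟨k, hk, hd⟩ := ih s.natAbs (by omega) s h rfl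
        rcases hk with rfl | rfl | rfl | rfl | rfl | rfl
        · exact ⟨4, by omega, by omega⟩
        · exact ⟨8, by omega, by omega⟩
        · exact ⟨16, by omega, by omega⟩
        · exact ⟨32, by omega, by omega⟩
        · exact ⟨64, by omega, by omega⟩
        · exact ⟨64, by omega, by omega⟩
      · rw [intendedSg_odd h]
        exact ⟨2, by omega, by omega⟩

theorem intended_VZ (x y : ℤ) :
    VZ (intendedSg x) (intendedSg y) (intendedSg (x + y)) (intendedSg (x - y)) := by
  induction hn : x.natAbs + y.natAbs using Nat.strong_induction_on generalizing x y with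
  | _ n ih =>
    by_cases h0 : x = 0 ∧ y = 0
    · obtain ⟨rfl, rfl⟩ := h0
      refine ⟨64, by omega, Or.inr (Or.inl ?_)⟩
      simp only [add_zero, sub_zero, intendedSg_zero]
      omega
    · rcases Int.emod_two_eq_zero_or_one x with hx | hx <;>
        rcases Int.emod_two_eq_zero_or_one y with hy | hy
      · obtain ⟨s, rfl⟩ : ∃ s, x = 2 * s := ⟨x / 2, by omega⟩
        obtain ⟨t, rfl⟩ : ∃ t, y = 2 * t := ⟨y / 2, by omega⟩
        rw [← mul_add, ← mul_sub, intendedSg_even, intendedSg_even, intendedSg_even,
          intendedSg_even]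
        exact ih _ (by omega) s t rfl
      · obtain ⟨k, hk, hd⟩ := intendedSg_dvd x hx
        rw [intendedSg_odd hy, intendedSg_odd (t := x + y) (by omega),
          intendedSg_odd (t := x - y) (by omega)]
        exact ⟨k, hk, Or.inl ⟨by rw [show x + y - y = x by ring]; exact hd,
          by rw [show x - y + y = x by ring]; exact hd⟩⟩
      · obtain ⟨k, hk, hd⟩ := intendedSg_dvd y hy
        rw [intendedSg_odd hx, intendedSg_odd (t := x + y) (by omega),
          intendedSg_odd (t := x - y) (by omega)]
        refine ⟨k, hk, Or.inr (Or.inl ⟨?_, ?_⟩)⟩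
        · rw [show x + y - x - k * intendedSg y = y - k * intendedSg y by ring]
          exact hd
        · rw [show x - y - x + k * intendedSg y = -(y - k * intendedSg y) by ring]
          exact (dvd_neg).2 hd
      · obtain ⟨s, hs⟩ : ∃ s, x + y = 2 * s := ⟨(x + y) / 2, by omega⟩
        obtain ⟨t, ht⟩ : ∃ t, x - y = 2 * t := ⟨(x - y) / 2, by omega⟩
        rw [hs, ht, intendedSg_even, intendedSg_even, intendedSg_odd hx, intendedSg_odd hy]
        have hxs : x = s + t := by omega
        have hys : y = s - t := by omega
        rcases Int.emod_two_eq_zero_or_one t with h | h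
        · obtain ⟨k, hk, hd⟩ := intendedSg_dvd t h
          rw [intendedSg_odd (t := s) (by omega)]
          refine ⟨k, hk, Or.inr (Or.inr (Or.inl ⟨?_, ?_⟩))⟩
          · rw [hxs, show s + t - s - k * intendedSg t = t - k * intendedSg t by ring]
            exact hd
          · rw [hys, show s - t - s + k * intendedSg t = -(t - k * intendedSg t) by ring]
            exact (dvd_neg).2 hd
        · obtain ⟨k, hk, hd⟩ := intendedSg_dvd s (by omega)
          rw [intendedSg_odd (t := t) h]
          refine ⟨k, hk, Or.inr (Or.inr (Or.inr ⟨?_, ?_⟩))⟩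
          · rw [hxs, show s + t - t - k * intendedSg s = s - k * intendedSg s by ring]
            exact hd
          · rw [hys, show s - t + t - k * intendedSg s = s - k * intendedSg s by ring]
            exact hd

/-- the intended solution `a = x y`, `X = x`, `Y = y`, `U = x + 32 y + 32`, `C = σ x`, `R = σ y`,
`D = σ (x+y)`, `E = σ (x-y)` with `σ` the odd part. -/
theorem core_exists : ∃ a W, CoreSol 64 hdir KK Valid a W := by
  have h64 : (64 : ZMod 64) = 0 := by decide
  refine ⟨fun p => ((p.1 * p.2 : ℤ) : ZMod 64), fun p v =>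
    match v with
    | .X => ((p.1 : ℤ) : ZMod 64)
    | .Y => ((p.2 : ℤ) : ZMod 64)
    | .U => ((p.1 + 32 * p.2 + 32 : ℤ) : ZMod 64)
    | .C => ((intendedSg p.1 : ℤ) : ZMod 64)
    | .R => ((intendedSg p.2 : ℤ) : ZMod 64)
    | .D => ((intendedSg (p.1 + p.2) : ℤ) : ZMod 64)
    | .E => ((intendedSg (p.1 - p.2) : ℤ) : ZMod 64), ?_, ?_, ?_⟩
  · rintro v ⟨x, y⟩
    cases v
    · simp [hdir]
    · simp [hdir]
    · simp only [hdir, Prod.mk_add_mk]
      push_cast
      linear_combination h64
    · simp [hdir]
    · simp [hdir]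
    · simp only [hdir, Prod.mk_add_mk]
      congr 2
      ring
    · simp only [hdir, Prod.mk_add_mk]
      congr 2
      ring
  · rintro v hv ⟨x, y⟩
    rcases hv with rfl | rfl | rfl
    · simp only [hdir, Prod.mk_add_mk]
      push_cast
      ring
    · simp only [hdir, Prod.mk_add_mk]
      push_cast
      ring
    · simp only [hdir, Prod.mk_add_mk]
      push_cast
      ring
  · rintro ⟨x, y⟩
    refine ⟨x, y, x + 32 * y + 32, intendedSg x, intendedSg y, intendedSg (x + y),
      intendedSg (x - y), rfl, rfl, rfl, rfl, rfl, rfl, rfl, ⟨0, by ring⟩, intendedSg_mod _,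
      intendedSg_mod _, intendedSg_mod _, intendedSg_mod _, intended_VZ x y, ?_, ?_, ?_, ?_⟩
    · intro h
      rw [intendedSg_odd h, sub_self]
      exact dvd_zero _
    · intro h
      rw [intendedSg_odd h, sub_self]
      exact dvd_zero _
    · intro h
      rw [intendedSg_odd h, sub_self]
      exact dvd_zero _
    · intro h
      rw [intendedSg_odd (by omega), sub_self]
      exact dvd_zero _

end P043
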