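import Vale.Agent.P043.Defs

namespace P043

namespace Lift

/-- integer representative -/
def rp (M : ℕ) (z : ZMod M) : ℤ := (z.val : ℤ)

theorem rp_cast {M : ℕ} [NeZero M] (z : ZMod M) : ((rp M z : ℤ) : ZMod M) = z := by
  unfold rp
  rw [Int.cast_natCast]
  exact ZMod.natCast_zmod_val z

open Classical in
/-- the shift of the middle cell of the block of `f0` -/
noncomputable def ep {G : Type} (M : ℕ) (f0 f : G × ZMod M) (j : ℤ) : ℤ :=
  if f = f0 ∧ j = 2 then 1 else 0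

/-- cells of the lifted tile -/
noncomputable def ph {G : Type} (M : ℕ) (f0 f : G × ZMod M) (j : ℤ) : G × ℤ :=
  (f.1, 5 * rp M f.2 + j + 5 * (ep M f0 f j * (M : ℤ)))

/-- the lifted tile -/
def TT {G : Type} (M : ℕ) (f0 : G × ZMod M) (F : Set (G × ZMod M)) : Set (G × ℤ) :=
  {t | ∃ f ∈ F, ∃ j : ℤ, (0 ≤ j ∧ j < 5) ∧ t = ph M f0 f j}

variable {G : Type} [AddCommGroup G] {M : ℕ}

omit [AddCommGroup G] in
theorem TT_finite (f0 : G × ZMod M) {F : Set (G × ZMod M)} (hF : F.Finite) :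
    (TT M f0 F).Finite := by
  have h : TT M f0 F ⊆ Set.image2 (ph M f0) F (Set.Ico (0 : ℤ) 5) := by
    rintro t ⟨f, hf, j, hj, rfl⟩
    exact ⟨f, hf, j, hj, rfl⟩
  exact (hF.image2 _ (Set.finite_Ico 0 5)).subset h

omit [AddCommGroup G] in
theorem ep_ne {f0 f : G × ZMod M} {j : ℤ} (h : ¬ (f = f0 ∧ j = 2)) : ep M f0 f j = 0 := by
  unfold ep; exact if_neg h

omit [AddCommGroup G] in
theorem ep_eq {f0 f : G × ZMod M} {j : ℤ} (h : f = f0 ∧ j = 2) : ep M f0 f j = 1 := by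
  unfold ep; exact if_pos h

/-- forward: tilings lift -/
theorem up [NeZero M] (f0 : G × ZMod M) {F A : Set (G × ZMod M)} (hA : Tl A F) :
    Tl {p : G × ℤ | ∃ k : ℤ, p.2 = 5 * k ∧ (p.1, (k : ZMod M)) ∈ A} (TT M f0 F) := by
  rintro ⟨x, z⟩
  obtain ⟨f, ⟨hfF, hfA⟩, hun⟩ := hA (x, ((z / 5 : ℤ) : ZMod M))
  have hz0 : 0 ≤ z % 5 := Int.emod_nonneg _ (by norm_num)
  have hz5 : z % 5 < 5 := Int.emod_lt_of_pos _ (by norm_num)
  refine ⟨ph M f0 f (z % 5), ⟨⟨f, hfF, z % 5, ⟨hz0, hz5⟩, rfl⟩, ?_⟩, ?_⟩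
  · refine ⟨z / 5 - rp M f.2 - ep M f0 f (z % 5) * (M : ℤ), ?_, ?_⟩
    · show z - (5 * rp M f.2 + z % 5 + 5 * (ep M f0 f (z % 5) * (M : ℤ))) = _
      have := Int.mul_ediv_add_emod z 5
      linarith
    · have e : ((z / 5 - rp M f.2 - ep M f0 f (z % 5) * (M : ℤ) : ℤ) : ZMod M)
          = ((z / 5 : ℤ) : ZMod M) - f.2 := by
        push_cast
        rw [rp_cast]
        simp
      show (x - f.1, ((z / 5 - rp M f.2 - ep M f0 f (z % 5) * (M : ℤ) : ℤ) : ZMod M)) ∈ A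
      rw [e]
      exact hfA
  · rintro t' ⟨⟨f', hf', j', ⟨hj0, hj5⟩, rfl⟩, k', hk', hkA⟩
    have hk : z - (5 * rp M f'.2 + j' + 5 * (ep M f0 f' j' * (M : ℤ))) = 5 * k' := hk'
    have hj : j' = z % 5 := by omega
    have hk2 : z / 5 = rp M f'.2 + ep M f0 f' j' * (M : ℤ) + k' := by omega
    have hff : f' = f := by
      apply hun
      refine ⟨hf', ?_⟩
      have e : (k' : ZMod M) = ((z / 5 : ℤ) : ZMod M) - f'.2 := by
        rw [hk2]
        push_cast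
        rw [rp_cast]
        simp
      have hkA' : (x - f'.1, (k' : ZMod M)) ∈ A := hkA
      rw [e] at hkA'
      exact hkA'
    rw [hff, hj]

omit [AddCommGroup G] in
/-- middle cell of the block of `f0` is not in the tile -/
theorem hole [NeZero M] (f0 : G × ZMod M) (F : Set (G × ZMod M)) :
    (f0.1, 5 * rp M f0.2 + 2) ∉ TT M f0 F := by
  rintro ⟨f, hf, j, ⟨hj0, hj5⟩, he⟩
  have h1 : f0.1 = f.1 := (Prod.ext_iff.1 he).1
  have h2 : 5 * rp M f0.2 + 2 = 5 * rp M f.2 + j + 5 * (ep M f0 f j * (M : ℤ)) :=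
    (Prod.ext_iff.1 he).2
  have hj : j = 2 := by omega
  have h3 : rp M f0.2 = rp M f.2 + ep M f0 f j * (M : ℤ) := by omega
  have h4 : f0.2 = f.2 := by
    have : ((rp M f0.2 : ℤ) : ZMod M) = ((rp M f.2 + ep M f0 f j * (M : ℤ) : ℤ) : ZMod M) := by
      rw [h3]
    push_cast at this
    rw [rp_cast, rp_cast] at this
    simpa using this
  have h5 : f = f0 := Prod.ext h1.symm h4.symm
  rw [ep_eq ⟨h5, hj⟩, h5] at h3
  have : (M : ℤ) = 0 := by linarith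
  exact NeZero.ne M (by exact_mod_cast this)

/-- an isolated cell of the tile is the extra cell -/
theorem isolated (f0 : G × ZMod M) (F : Set (G × ZMod M)) {t : G × ℤ} (ht : t ∈ TT M f0 F)
    (h1 : t + (0, 1) ∉ TT M f0 F) (h2 : t - (0, 1) ∉ TT M f0 F) : t = ph M f0 f0 2 := by
  obtain ⟨f, hf, j, ⟨hj0, hj5⟩, rfl⟩ := ht
  by_contra hne
  have hnb : ¬ (f = f0 ∧ j = 2) := by
    rintro ⟨rfl, rfl⟩
    exact hne rfl
  -- the direction in which the neighbour is in the tile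
  have hup : ∀ _ : j + 1 < 5, ¬ (f = f0 ∧ j + 1 = 2) → False := by
    intro hj hn
    apply h1
    refine ⟨f, hf, j + 1, ⟨by omega, hj⟩, ?_⟩
    unfold ph
    rw [ep_ne hnb, ep_ne hn]
    refine Prod.ext ?_ ?_
    · simp
    · simp only [Prod.snd_add]; ring
  have hdn : ∀ _ : 0 ≤ j - 1, ¬ (f = f0 ∧ j - 1 = 2) → False := by
    intro hj hn
    apply h2
    refine ⟨f, hf, j - 1, ⟨hj, by omega⟩, ?_⟩
    unfold ph
    rw [ep_ne hnb, ep_ne hn]
    refine Prod.ext ?_ ?_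
    · simp
    · simp only [Prod.snd_sub]; ring
  have hcase : j = 0 ∨ j = 1 ∨ j = 2 ∨ j = 3 ∨ j = 4 := by omega
  rcases hcase with rfl | rfl | rfl | rfl | rfl
  · exact hup (by norm_num) (by rintro ⟨_, h⟩; norm_num at h)
  · exact hdn (by norm_num) (by rintro ⟨_, h⟩; norm_num at h)
  · exact hup (by norm_num) (by rintro ⟨_, h⟩; norm_num at h)
  · exact hup (by norm_num) (by rintro ⟨_, h⟩; norm_num at h)
  · exact hdn (by norm_num) (by rintro ⟨_, h⟩; norm_num at h)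

/-- the tiling is invariant under `-(0, 5M)` -/
theorem down1 [NeZero M] {f0 : G × ZMod M} {F : Set (G × ZMod M)} (hf0 : f0 ∈ F)
    {A : Set (G × ℤ)} (hA : Tl A (TT M f0 F)) {a : G × ℤ} (ha : a ∈ A) :
    a - (0, 5 * (M : ℤ)) ∈ A := by
  obtain ⟨t, ⟨htT, htA⟩, -⟩ := hA (a + (f0.1, 5 * rp M f0.2 + 2))
  have hne : t ≠ (f0.1, 5 * rp M f0.2 + 2) := by
    rintro rfl
    exact hole f0 F htT
  have cell : ∀ j : ℤ, 0 ≤ j → j < 5 → j ≠ 2 → (f0.1, 5 * rp M f0.2 + j) ∈ TT M f0 F := by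
    intro j h0 h5 h2
    refine ⟨f0, hf0, j, ⟨h0, h5⟩, ?_⟩
    unfold ph
    rw [ep_ne (by rintro ⟨_, h⟩; exact h2 h)]
    simp
  have key : ∀ δ : ℤ, (δ = 1 ∨ δ = -1) → t + (0, δ) ∉ TT M f0 F := by
    intro δ hδ hin
    obtain ⟨t', -, hun⟩ := hA (a + (f0.1, 5 * rp M f0.2 + 2 + δ))
    have e1 : t + (0, δ) = t' := by
      apply hun
      refine ⟨hin, ?_⟩
      have : a + (f0.1, 5 * rp M f0.2 + 2 + δ) - (t + (0, δ))
          = a + (f0.1, 5 * rp M f0.2 + 2) - t := by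
        refine Prod.ext ?_ ?_
        · simp
        · simp only [Prod.snd_add, Prod.snd_sub]; ring
      rw [this]
      exact htA
    have e2 : (f0.1, 5 * rp M f0.2 + 2 + δ) = t' := by
      apply hun
      constructor
      · have := cell (2 + δ) (by omega) (by omega) (by omega)
        rw [← add_assoc] at this
        exact this
      · rw [add_sub_cancel_right]
        exact ha
    apply hne
    have e3 : t + (0, δ) = (f0.1, 5 * rp M f0.2 + 2) + (0, δ) := by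
      rw [e1, ← e2]
      refine Prod.ext ?_ ?_
      · simp
      · rfl
    exact add_right_cancel e3
  have ht := isolated f0 F htT (key 1 (Or.inl rfl)) (by
    have := key (-1) (Or.inr rfl)
    have e : t + (0, -1) = t - (0, 1) := by
      refine Prod.ext ?_ ?_
      · simp
      · simp only [Prod.snd_add, Prod.snd_sub]; ring
    rw [e] at this
    exact this)
  rw [ht] at htA
  have e : a + (f0.1, 5 * rp M f0.2 + 2) - ph M f0 f0 2 = a - (0, 5 * (M : ℤ)) := by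
    unfold ph
    rw [ep_eq ⟨rfl, rfl⟩]
    refine Prod.ext ?_ ?_
    · simp
    · simp only [Prod.snd_add, Prod.snd_sub]; ring
  rw [e] at htA
  exact htA

theorem downn {A : Set (G × ℤ)} {s : G × ℤ} (h : ∀ a ∈ A, a - s ∈ A) (n : ℕ) :
    ∀ a ∈ A, a - n • s ∈ A := by
  induction n with
  | zero => intro a ha; simpa using ha
  | succ n ih =>
    intro a ha
    have := h _ (ih a ha)
    rw [succ_nsmul, ← sub_sub]
    exact this

theorem up1 {A : Set (G × ℤ)} {s : G × ℤ} (h : ∀ a ∈ A, a - s ∈ A) (hP : MPer A) :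
    ∀ a ∈ A, a + s ∈ A := by
  obtain ⟨m, hm, hmA⟩ := hP
  intro a ha
  have h1 := hmA s a ha
  have h2 := downn h (m - 1) _ h1
  have e : a + m • s - (m - 1) • s = a + s := by
    obtain ⟨n, rfl⟩ : ∃ n, m = n + 1 := ⟨m - 1, by omega⟩
    rw [Nat.add_sub_cancel, succ_nsmul]
    abel
  rw [e] at h2
  exact h2

theorem allz {A : Set (G × ℤ)} {s : G × ℤ} (h : ∀ a ∈ A, a - s ∈ A) (h' : ∀ a ∈ A, a + s ∈ A)
    (n : ℤ) : ∀ a, a + n • s ∈ A ↔ a ∈ A := by
  have hiff : ∀ a, a + s ∈ A ↔ a ∈ A := by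
    intro a
    refine ⟨fun ha => ?_, h' a⟩
    have := h _ ha
    rwa [add_sub_cancel_right] at this
  induction n using Int.induction_on with
  | zero => intro a; simp
  | succ n ih =>
    intro a
    rw [add_smul, one_smul, ← add_assoc, hiff, ih]
  | pred n ih =>
    intro a
    rw [← ih a, sub_smul, one_smul, ← hiff (a + (-(n : ℤ) • s - s))]
    congr! 1
    abel

/-- the full (non-modified) blocks tile -/
theorem blocks [NeZero M] {f0 : G × ZMod M} {F : Set (G × ZMod M)}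
    {A : Set (G × ℤ)} (hA : Tl A (TT M f0 F))
    (hinv : ∀ (n : ℤ) (a : G × ℤ), a + n • ((0, 5 * (M : ℤ)) : G × ℤ) ∈ A ↔ a ∈ A) (x : G) (z : ℤ) :
    (∃ f ∈ F, ∃ j : ℤ, (0 ≤ j ∧ j < 5) ∧ (x - f.1, z - j - 5 * rp M f.2) ∈ A) ∧
    (∀ f ∈ F, ∀ j : ℤ, (0 ≤ j ∧ j < 5) → ∀ f' ∈ F, ∀ j' : ℤ, (0 ≤ j' ∧ j' < 5) →
      (x - f.1, z - j - 5 * rp M f.2) ∈ A → (x - f'.1, z - j' - 5 * rp M f'.2) ∈ A →
      f = f' ∧ j = j') := by
  have hiff : ∀ f : G × ZMod M, ∀ j : ℤ,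
      ((x, z) - ph M f0 f j ∈ A ↔ (x - f.1, z - j - 5 * rp M f.2) ∈ A) := by
    intro f j
    rw [← hinv (ep M f0 f j) ((x, z) - ph M f0 f j)]
    congr! 1
    unfold ph
    refine Prod.ext ?_ ?_
    · simp
    · simp only [Prod.snd_add, Prod.snd_sub, Prod.smul_mk, smul_eq_mul]; ring
  obtain ⟨t, ⟨⟨f, hf, j, hj, rfl⟩, htA⟩, hun⟩ := hA (x, z)
  constructor
  · exact ⟨f, hf, j, hj, (hiff f j).1 htA⟩
  · intro f1 hf1 j1 hj1 f2 hf2 j2 hj2 h1 h2
    have e1 := hun _ ⟨⟨f1, hf1, j1, hj1, rfl⟩, (hiff f1 j1).2 h1⟩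
    have e2 := hun _ ⟨⟨f2, hf2, j2, hj2, rfl⟩, (hiff f2 j2).2 h2⟩
    have e : ph M f0 f1 j1 = ph M f0 f2 j2 := by
      rw [show ph M f0 f1 j1 = _ from e1, show ph M f0 f2 j2 = _ from e2]
    have a1 : f1.1 = f2.1 := (Prod.ext_iff.1 e).1
    have a2 : 5 * rp M f1.2 + j1 + 5 * (ep M f0 f1 j1 * (M : ℤ))
        = 5 * rp M f2.2 + j2 + 5 * (ep M f0 f2 j2 * (M : ℤ)) := (Prod.ext_iff.1 e).2
    obtain ⟨hj10, hj15⟩ := hj1
    obtain ⟨hj20, hj25⟩ := hj2
    have a3 : j1 = j2 := by omega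
    have a4 : rp M f1.2 + ep M f0 f1 j1 * (M : ℤ) = rp M f2.2 + ep M f0 f2 j2 * (M : ℤ) := by
      omega
    have a5 : f1.2 = f2.2 := by
      have : ((rp M f1.2 + ep M f0 f1 j1 * (M : ℤ) : ℤ) : ZMod M)
          = ((rp M f2.2 + ep M f0 f2 j2 * (M : ℤ) : ℤ) : ZMod M) := by
        rw [a4]
      push_cast at this
      rw [rp_cast, rp_cast] at this
      simpa using this
    exact ⟨Prod.ext a1 a5, a3⟩

theorem down [NeZero M] {f0 : G × ZMod M} {F : Set (G × ZMod M)} (hf0 : f0 ∈ F)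
    {A : Set (G × ℤ)} (hA : Tl A (TT M f0 F)) (hP : MPer A) :
    ∃ A' : Set (G × ZMod M), Tl A' F ∧ MPer A' := by
  have hd : ∀ a ∈ A, a - (0, 5 * (M : ℤ)) ∈ A := fun a ha => down1 hf0 hA ha
  have hu := up1 hd hP
  have hinv := fun n a => allz hd hu n a
  have hB := blocks hA hinv
  -- block starts
  have hst : ∀ x : G, ∀ s : ℤ, (∃ f ∈ F, (x - f.1, s - 5 * rp M f.2) ∈ A) →
      ∃ f ∈ F, (x - f.1, s + 5 - 5 * rp M f.2) ∈ A := by
    rintro x s ⟨f, hf, hfA⟩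
    obtain ⟨f1, hf1, j1, ⟨h10, h15⟩, hA1⟩ := (hB x (s + 5)).1
    by_cases hj : j1 = 0
    · subst hj
      exact ⟨f1, hf1, by simpa using hA1⟩
    · exfalso
      -- the cell `s + 5 - j1` is covered twice
      have hu := (hB x (s + 5 - j1)).2 f hf (5 - j1) ⟨by omega, by omega⟩ f1 hf1 0
        ⟨by omega, by omega⟩ (by
          have e : s + 5 - j1 - (5 - j1) - 5 * rp M f.2 = s - 5 * rp M f.2 := by ring
          rw [e]; exact hfA) (by
          have e : s + 5 - j1 - 0 - 5 * rp M f1.2 = s + 5 - j1 - 5 * rp M f1.2 := by ring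
          rw [e]; exact hA1)
      omega
  have hst' : ∀ x : G, ∀ s : ℤ, (∃ f ∈ F, (x - f.1, s - 5 * rp M f.2) ∈ A) →
      ∃ f ∈ F, (x - f.1, s - 5 - 5 * rp M f.2) ∈ A := by
    rintro x s ⟨f, hf, hfA⟩
    obtain ⟨f1, hf1, j1, ⟨h10, h15⟩, hA1⟩ := (hB x (s - 1)).1
    by_cases hj : j1 = 4
    · subst hj
      refine ⟨f1, hf1, ?_⟩
      have e : s - 5 - 5 * rp M f1.2 = s - 1 - 4 - 5 * rp M f1.2 := by ring
      rw [e]; exact hA1
    · exfalso
      have hu := (hB x s).2 f hf 0 ⟨by omega, by omega⟩ f1 hf1 (j1 + 1)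
        ⟨by omega, by omega⟩ (by
          have e : s - 0 - 5 * rp M f.2 = s - 5 * rp M f.2 := by ring
          rw [e]; exact hfA) (by
          have e : s - (j1 + 1) - 5 * rp M f1.2 = s - 1 - j1 - 5 * rp M f1.2 := by ring
          rw [e]; exact hA1)
      omega
  have hstz : ∀ n : ℤ, ∀ x : G, ∀ s : ℤ, (∃ f ∈ F, (x - f.1, s - 5 * rp M f.2) ∈ A) →
      ∃ f ∈ F, (x - f.1, s + 5 * n - 5 * rp M f.2) ∈ A := by
    intro n
    induction n using Int.induction_on with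
    | zero => intro x s h; simpa using h
    | succ n ih =>
      intro x s h
      have := hst x _ (ih x s h)
      have e : s + 5 * ((n : ℤ) + 1) = s + 5 * (n : ℤ) + 5 := by ring
      rw [e]; exact this
    | pred n ih =>
      intro x s h
      have := hst' x _ (ih x s h)
      have e : s + 5 * (-(n : ℤ) - 1) = s + 5 * (-(n : ℤ)) - 5 := by ring
      rw [e]; exact this
  have hmod : ∀ x : G, ∀ s s' : ℤ, (∃ f ∈ F, (x - f.1, s - 5 * rp M f.2) ∈ A) →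
      (∃ f ∈ F, (x - f.1, s' - 5 * rp M f.2) ∈ A) → s % 5 = s' % 5 := by
    rintro x s s' h ⟨f', hf', h'⟩
    obtain ⟨f1, hf1, h1⟩ := hstz ((s' - s) / 5) x s h
    have hu := (hB x s').2 f' hf' 0 ⟨by omega, by omega⟩ f1 hf1 ((s' - s) % 5)
      ⟨by omega, by omega⟩ (by
        have e : s' - 0 - 5 * rp M f'.2 = s' - 5 * rp M f'.2 := by ring
        rw [e]; exact h') (by
        have e : s' - (s' - s) % 5 = s + 5 * ((s' - s) / 5) := by
          have := Int.mul_ediv_add_emod (s' - s) 5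
          linarith
        rw [e]; exact h1)
    omega
  refine ⟨{p | ∃ k j : ℤ, (0 ≤ j ∧ j < 5) ∧ (p.1, 5 * k + j) ∈ A ∧ (k : ZMod M) = p.2}, ?_, ?_⟩
  · rintro ⟨x, w⟩
    obtain ⟨f, hf, j, ⟨hj0, hj5⟩, hfA⟩ := (hB x (5 * rp M w + 4)).1
    refine ⟨f, ⟨hf, ?_⟩, ?_⟩
    · refine ⟨rp M w - rp M f.2, 4 - j, ⟨by omega, by omega⟩, ?_, ?_⟩
      · have e : 5 * (rp M w - rp M f.2) + (4 - j) = 5 * rp M w + 4 - j - 5 * rp M f.2 := by
          ring
        show (x - f.1, 5 * (rp M w - rp M f.2) + (4 - j)) ∈ A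
        rw [e]; exact hfA
      · push_cast
        rw [rp_cast, rp_cast]
        rfl
    · rintro f' ⟨hf', k, i, ⟨hi0, hi5⟩, hkA, hk⟩
      have hkA1 : (x - f'.1, 5 * k + i) ∈ A := hkA
      have hk1 : (k : ZMod M) = w - f'.2 := hk
      -- block starts `s` (of `f`) and `s'` (of `f'`)
      have hs : (x - f.1, (5 * rp M w + 4 - j) - 5 * rp M f.2) ∈ A := hfA
      have hs' : (x - f'.1, (5 * (k + rp M f'.2) + i) - 5 * rp M f'.2) ∈ A := by
        have e : (5 * (k + rp M f'.2) + i) - 5 * rp M f'.2 = 5 * k + i := by ring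
        rw [e]; exact hkA1
      have hm := hmod x _ _ ⟨f, hf, hs⟩ ⟨f', hf', hs'⟩
      have hji : i = 4 - j := by omega
      have hdvd : (M : ℤ) ∣ (k + rp M f'.2) - rp M w := by
        rw [← ZMod.intCast_zmod_eq_zero_iff_dvd]
        push_cast
        rw [rp_cast, rp_cast, hk1]
        simp
      obtain ⟨n, hn⟩ := hdvd
      have hs2 : (x - f'.1, (5 * rp M w + 4 - j) - 5 * rp M f'.2) ∈ A := by
        rw [← hinv n]
        have e : ((x - f'.1, 5 * rp M w + 4 - j - 5 * rp M f'.2) : G × ℤ)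
            + n • ((0, 5 * (M : ℤ)) : G × ℤ)
            = (x - f'.1, (5 * (k + rp M f'.2) + i) - 5 * rp M f'.2) := by
          refine Prod.ext ?_ ?_
          · simp
          · simp only [Prod.snd_add, Prod.smul_mk, smul_eq_mul]
            rw [hji]
            linear_combination (-5 : ℤ) * hn
        rw [e]; exact hs'
      exact ((hB x (5 * rp M w + 4)).2 f' hf' j ⟨hj0, hj5⟩ f hf j ⟨hj0, hj5⟩ hs2 hs).1
  · obtain ⟨m, hm, hmA⟩ := hP
    refine ⟨m, hm, ?_⟩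
    rintro ⟨u, v⟩ ⟨x, w⟩ ⟨k, j, hj, hkA, hk⟩
    refine ⟨k + m * rp M v, j, hj, ?_, ?_⟩
    · have h1 := hmA (u, 5 * rp M v) _ hkA
      have e : ((x, 5 * k + j) : G × ℤ) + m • ((u, 5 * rp M v) : G × ℤ)
          = (x + m • u, 5 * (k + m * rp M v) + j) := by
        refine Prod.ext ?_ ?_
        · simp
        · simp only [Prod.snd_add, Prod.smul_mk, nsmul_eq_mul]
          ring
      show (x + m • u, 5 * (k + m * rp M v) + j) ∈ A
      rw [← e]
      exact h1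
    · have hk1 : (k : ZMod M) = w := hk
      show ((k + m * rp M v : ℤ) : ZMod M) = w + m • v
      push_cast
      rw [rp_cast, hk1]
      simp

end Lift

/-- from `ℤ/M` to `ℤ` -/
theorem lift {G : Type} [AddCommGroup G] {M : ℕ} (hM : 0 < M)
    (h : BadFam (G × ZMod M) 0) : BadFam (G × ℤ) 0 := by
  have : NeZero M := ⟨hM.ne'⟩
  obtain ⟨F, hF, ⟨A, hA⟩, hno⟩ := h
  obtain ⟨f0, ⟨hf0, -⟩, -⟩ := hA 0 0
  refine ⟨fun _ => Lift.TT M f0 (F 0), fun _ => Lift.TT_finite f0 (hF 0),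
    ⟨_, fun _ => Lift.up f0 (hA 0)⟩, ?_⟩
  intro A' hA' hP
  obtain ⟨A'', hA'', hP''⟩ := Lift.down hf0 (hA' 0) hP
  exact hno A'' (fun i => by
    have hi : i = 0 := Fin.ext (by omega)
    rw [hi]; exact hA'') hP''

end P043
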