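import Vale.Agent.P043.Encode
import Vale.Agent.P043.Combine
import Vale.Agent.P043.Lift
import Vale.Agent.P043.Cocycle
import Vale.Agent.P043.Intended

namespace P043

theorem hdir_ne (v : Vr) : hdir v ≠ 0 := by
  cases v <;> simp [hdir, Prod.ext_iff]

theorem badFam_four : BadFam (((ℤ × ℤ) × ℤ) × ℤ) 0 := by
  obtain ⟨a, b, N, ha, hb, h⟩ := encode 64 (by norm_num) hdir hdir_ne KK Valid core_exists
    core_aperiodic
  obtain ⟨b', hb', h1⟩ := combine_all hb h
  have h2 : BadFam (((ℤ × ℤ) × ZMod a) × ℤ) 0 := lift hb' h1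
  -- swap the factors `ZMod a` and `ℤ`
  let e : (((ℤ × ℤ) × ZMod a) × ℤ) ≃+ (((ℤ × ℤ) × ℤ) × ZMod a) :=
    { toFun := fun p => ((p.1.1, p.2), p.1.2)
      invFun := fun p => ((p.1.1, p.2), p.1.2)
      left_inv := fun _ => rfl
      right_inv := fun _ => rfl
      map_add' := fun _ _ => rfl }
  exact lift ha (h2.congr e)

theorem badFam_all (d : ℕ) (hd : 4 ≤ d) : BadFam (Fin d → ℤ) 0 :=
  badFam_ge_four badFam_four d hd

end P043
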