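import Vale.Agent.P043.Defs

namespace P043

theorem rigid_sc (c t y r d e : ℤ) (hc : c % 2 = 1) (ht : t % 2 = 1) (hy : y % 2 = 1)
    (h1 : ¬ 32 ∣ y - t) (h2 : ¬ 32 ∣ y + t) (hr : 64 ∣ r - y) (hd : 64 ∣ d - (2 * t + y))
    (he : 64 ∣ e - (2 * t - y)) (V : VZ c r d e) : 32 ∣ c - t := by
  obtain ⟨k, hk, hV⟩ := V
  rcases hk with rfl | rfl | rfl | rfl | rfl | rfl <;>
  rcases hV with ⟨ha, hb⟩ | ⟨ha, hb⟩ | ⟨ha, hb⟩ | ⟨ha, hb⟩ <;> omega

theorem rigid_sr (c t x r d e : ℤ) (hr : r % 2 = 1) (ht : t % 2 = 1) (hx : x % 2 = 1)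
    (h1 : ¬ 32 ∣ x - t) (h2 : ¬ 32 ∣ x + t) (hc : 64 ∣ c - x) (hd : 64 ∣ d - (x + 2 * t))
    (he : 64 ∣ e - (x - 2 * t)) (V : VZ c r d e) : 32 ∣ r - t := by
  obtain ⟨k, hk, hV⟩ := V
  rcases hk with rfl | rfl | rfl | rfl | rfl | rfl <;>
  rcases hV with ⟨ha, hb⟩ | ⟨ha, hb⟩ | ⟨ha, hb⟩ | ⟨ha, hb⟩ <;> omega

/-- `V` at `(u, w)` with `C = u`, `R = w`, `w ≡ u ≡ t` modulo 32 -/
theorem rigid_sd1 (c r d e t s : ℤ) (ht : t % 2 = 1) (he : e % 2 = 1) (hs : 32 ∣ s)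
    (hc : 64 ∣ c - (t + s)) (hr : 64 ∣ r - (t + s)) (V : VZ c r d e) :
    32 ∣ d - t ∨ ∃ k : ℤ, (k = 2 ∨ k = 4 ∨ k = 8 ∨ k = 16) ∧ 64 ∣ d - t - s - k * t := by
  obtain ⟨k, hk, hV⟩ := V
  rcases hk with rfl | rfl | rfl | rfl | rfl | rfl
  · rcases hV with ⟨ha, hb⟩ | ⟨ha, hb⟩ | ⟨ha, hb⟩ | ⟨ha, hb⟩
    · exact Or.inr ⟨2, by norm_num, by omega⟩
    · exact Or.inr ⟨2, by norm_num, by omega⟩
    · omega
    · omega
  · rcases hV with ⟨ha, hb⟩ | ⟨ha, hb⟩ | ⟨ha, hb⟩ | ⟨ha, hb⟩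
    · exact Or.inr ⟨4, by norm_num, by omega⟩
    · exact Or.inr ⟨4, by norm_num, by omega⟩
    · omega
    · omega
  · rcases hV with ⟨ha, hb⟩ | ⟨ha, hb⟩ | ⟨ha, hb⟩ | ⟨ha, hb⟩
    · exact Or.inr ⟨8, by norm_num, by omega⟩
    · exact Or.inr ⟨8, by norm_num, by omega⟩
    · omega
    · omega
  · rcases hV with ⟨ha, hb⟩ | ⟨ha, hb⟩ | ⟨ha, hb⟩ | ⟨ha, hb⟩
    · exact Or.inr ⟨16, by norm_num, by omega⟩
    · exact Or.inr ⟨16, by norm_num, by omega⟩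
    · omega
    · omega
  · rcases hV with ⟨ha, hb⟩ | ⟨ha, hb⟩ | ⟨ha, hb⟩ | ⟨ha, hb⟩ <;> (left; omega)
  · rcases hV with ⟨ha, hb⟩ | ⟨ha, hb⟩ | ⟨ha, hb⟩ | ⟨ha, hb⟩ <;> (left; omega)

theorem rigid_sd (c r d e c' r' e' t : ℤ) (ht : t % 2 = 1) (he : e % 2 = 1) (he' : e' % 2 = 1)
    (hc : 64 ∣ c - t) (hr : 64 ∣ r - t) (V : VZ c r d e)
    (hc' : 64 ∣ c' - (t + 32)) (hr' : 64 ∣ r' - (t - 32)) (V' : VZ c' r' d e') : 32 ∣ d - t := by
  rcases rigid_sd1 c r d e t 0 ht he (by norm_num) (by omega) (by omega) V with h | ⟨k, hk, h⟩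
  · exact h
  rcases rigid_sd1 c' r' d e' t 32 ht he' (by norm_num) (by omega) (by omega) V' with
    h' | ⟨k', hk', h'⟩
  · exact h'
  rcases hk with rfl | rfl | rfl | rfl <;> rcases hk' with rfl | rfl | rfl | rfl <;> omega

/-- `V` at `(u, -w)` with `C = u`, `R = -w`, `w ≡ u ≡ t` modulo 32 -/
theorem rigid_se1 (c r d e t s : ℤ) (ht : t % 2 = 1) (hd : d % 2 = 1) (hs : 32 ∣ s)
    (hc : 64 ∣ c - (t + s)) (hr : 64 ∣ r + (t + s)) (V : VZ c r d e) :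
    32 ∣ e - t ∨ ∃ k : ℤ, (k = 2 ∨ k = 4 ∨ k = 8 ∨ k = 16) ∧ 64 ∣ e - t - s - k * t := by
  obtain ⟨k, hk, hV⟩ := V
  rcases hk with rfl | rfl | rfl | rfl | rfl | rfl
  · rcases hV with ⟨ha, hb⟩ | ⟨ha, hb⟩ | ⟨ha, hb⟩ | ⟨ha, hb⟩
    · exact Or.inr ⟨2, by norm_num, by omega⟩
    · exact Or.inr ⟨2, by norm_num, by omega⟩
    · omega
    · omega
  · rcases hV with ⟨ha, hb⟩ | ⟨ha, hb⟩ | ⟨ha, hb⟩ | ⟨ha, hb⟩
    · exact Or.inr ⟨4, by norm_num, by omega⟩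
    · exact Or.inr ⟨4, by norm_num, by omega⟩
    · omega
    · omega
  · rcases hV with ⟨ha, hb⟩ | ⟨ha, hb⟩ | ⟨ha, hb⟩ | ⟨ha, hb⟩
    · exact Or.inr ⟨8, by norm_num, by omega⟩
    · exact Or.inr ⟨8, by norm_num, by omega⟩
    · omega
    · omega
  · rcases hV with ⟨ha, hb⟩ | ⟨ha, hb⟩ | ⟨ha, hb⟩ | ⟨ha, hb⟩
    · exact Or.inr ⟨16, by norm_num, by omega⟩
    · exact Or.inr ⟨16, by norm_num, by omega⟩
    · omega
    · omega
  · rcases hV with ⟨ha, hb⟩ | ⟨ha, hb⟩ | ⟨ha, hb⟩ | ⟨ha, hb⟩ <;> (left; omega)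
  · rcases hV with ⟨ha, hb⟩ | ⟨ha, hb⟩ | ⟨ha, hb⟩ | ⟨ha, hb⟩ <;> (left; omega)

theorem rigid_se (c r d e c' r' d' t : ℤ) (ht : t % 2 = 1) (hd : d % 2 = 1) (hd' : d' % 2 = 1)
    (hc : 64 ∣ c - t) (hr : 64 ∣ r + t) (V : VZ c r d e)
    (hc' : 64 ∣ c' - (t + 32)) (hr' : 64 ∣ r' + (t - 32)) (V' : VZ c' r' d' e) : 32 ∣ e - t := by
  rcases rigid_se1 c r d e t 0 ht hd (by norm_num) (by omega) (by omega) V with h | ⟨k, hk, h⟩
  · exact h
  rcases rigid_se1 c' r' d' e t 32 ht hd' (by norm_num) (by omega) (by omega) V' with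
    h' | ⟨k', hk', h'⟩
  · exact h'
  rcases hk with rfl | rfl | rfl | rfl <;> rcases hk' with rfl | rfl | rfl | rfl <;> omega

/-- `V` at `(2x, 4y)` -/
theorem rigid_F1 (x y r gC gD gE : ℤ) (hx : x % 2 = 1) (hy : y % 2 = 1) (hr : r % 2 = 1)
    (h1 : ¬ 16 ∣ x - y) (h2 : ¬ 16 ∣ x + y)
    (V : VZ (x + 32 * gC) r (x + 2 * y + 32 * gD) (x - 2 * y + 32 * gE)) :
    2 ∣ gD - gE ∧ 32 ∣ r - y - 16 * (gD + gC) := by
  obtain ⟨k, hk, hV⟩ := V
  rcases hk with rfl | rfl | rfl | rfl | rfl | rfl <;>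
  rcases hV with ⟨ha, hb⟩ | ⟨ha, hb⟩ | ⟨ha, hb⟩ | ⟨ha, hb⟩ <;> omega

/-- `V` at `(2x, 8y)` -/
theorem rigid_F2 (x y r gC gD gE : ℤ) (hx : x % 2 = 1) (hy : y % 2 = 1) (hr : r % 2 = 1)
    (h1 : ¬ 8 ∣ x - 3 * y) (h2 : ¬ 8 ∣ x + 3 * y)
    (V : VZ (x + 32 * gC) r (x + 4 * y + 32 * gD) (x - 4 * y + 32 * gE)) :
    2 ∣ gD - gE := by
  obtain ⟨k, hk, hV⟩ := V
  rcases hk with rfl | rfl | rfl | rfl | rfl | rfl <;>
  rcases hV with ⟨ha, hb⟩ | ⟨ha, hb⟩ | ⟨ha, hb⟩ | ⟨ha, hb⟩ <;> omega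

/-- `V` at `(4x, 2y)` -/
theorem rigid_F3 (x y c gR gD gE : ℤ) (hx : x % 2 = 1) (hy : y % 2 = 1) (hc : c % 2 = 1)
    (h1 : ¬ 16 ∣ x - y) (h2 : ¬ 16 ∣ x + y)
    (V : VZ c (y + 32 * gR) (2 * x + y + 32 * gD) (2 * x - y + 32 * gE)) :
    2 ∣ gD - gE ∧ 32 ∣ c - x - 16 * (gD + gR) := by
  obtain ⟨k, hk, hV⟩ := V
  rcases hk with rfl | rfl | rfl | rfl | rfl | rfl <;>
  rcases hV with ⟨ha, hb⟩ | ⟨ha, hb⟩ | ⟨ha, hb⟩ | ⟨ha, hb⟩ <;> omega

/-- a function on the odd integers with all consecutive values congruent mod 2 is constant mod 2 -/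
theorem rigid_const (g : ℤ → ℤ) (h : ∀ s, s % 2 = 1 → 2 ∣ g s - g (s + 2)) :
    ∀ t, t % 2 = 1 → 2 ∣ g t - g 1 := by
  have key : ∀ j : ℤ, 2 ∣ g (2 * j + 1) - g 1 := by
    intro j
    induction j using Int.induction_on with
    | zero => simp
    | succ i ih =>
      have h1 := h (2 * (i : ℤ) + 1) (by omega)
      have e1 : 2 * (i : ℤ) + 1 + 2 = 2 * ((i : ℤ) + 1) + 1 := by ring
      rw [e1] at h1
      omega
    | pred i ih =>
      have h1 := h (2 * (-(i : ℤ) - 1) + 1) (by omega)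
      have e1 : 2 * (-(i : ℤ) - 1) + 1 + 2 = 2 * (-(i : ℤ)) + 1 := by ring
      rw [e1] at h1
      omega
  intro t ht
  have := key (t / 2)
  have e : 2 * (t / 2) + 1 = t := by omega
  rwa [e] at this

/-- normalised step: if `C,R,D,E` are the identity (mod 64) on odd arguments then on `2 * odd` they
are `t + 32 g` with constants `g` -/
theorem norm_step (C R D E : ℤ → ℤ)
    (hC : ∀ t, C t % 2 = 1) (hR : ∀ t, R t % 2 = 1) (hD : ∀ t, D t % 2 = 1)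
    (hE : ∀ t, E t % 2 = 1)
    (hV : ∀ x y, VZ (C x) (R y) (D (x + y)) (E (x - y)))
    (hC1 : ∀ t, t % 2 = 1 → 64 ∣ C t - t) (hR1 : ∀ t, t % 2 = 1 → 64 ∣ R t - t)
    (hD1 : ∀ t, t % 2 = 1 → 64 ∣ D t - t) (hE1 : ∀ t, t % 2 = 1 → 64 ∣ E t - t) :
    ∃ gC gR gD : ℤ, ∀ t, t % 2 = 1 →
      64 ∣ C (2 * t) - t - 32 * gC ∧ 64 ∣ R (2 * t) - t - 32 * gR ∧
      64 ∣ D (2 * t) - t - 32 * gD ∧ 64 ∣ E (2 * t) - t - 32 * gD := by
  -- step 1
  have sC : ∀ t, t % 2 = 1 → 32 ∣ C (2 * t) - t := by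
    intro t ht
    exact rigid_sc (C (2 * t)) t (t + 4) (R (t + 4)) (D (2 * t + (t + 4))) (E (2 * t - (t + 4)))
      (hC _) ht (by omega) (by omega) (by omega) (hR1 _ (by omega)) (hD1 _ (by omega))
      (hE1 _ (by omega)) (hV _ _)
  have sR : ∀ t, t % 2 = 1 → 32 ∣ R (2 * t) - t := by
    intro t ht
    exact rigid_sr (C (t + 4)) t (t + 4) (R (2 * t)) (D (t + 4 + 2 * t)) (E (t + 4 - 2 * t))
      (hR _) ht (by omega) (by omega) (by omega) (hC1 _ (by omega)) (hD1 _ (by omega))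
      (hE1 _ (by omega)) (hV _ _)
  have sD : ∀ t, t % 2 = 1 → 32 ∣ D (2 * t) - t := by
    intro t ht
    have v1 := hV t t
    have v2 := hV (t + 32) (t - 32)
    have e1 : t + t = 2 * t := by ring
    have e2 : t + 32 + (t - 32) = 2 * t := by ring
    rw [e1] at v1
    rw [e2] at v2
    exact rigid_sd (C t) (R t) (D (2 * t)) (E (t - t)) (C (t + 32)) (R (t - 32))
      (E (t + 32 - (t - 32))) t ht (hE _) (hE _) (hC1 _ ht) (hR1 _ ht) v1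
      (hC1 _ (by omega)) (hR1 _ (by omega)) v2
  have sE : ∀ t, t % 2 = 1 → 32 ∣ E (2 * t) - t := by
    intro t ht
    have v1 := hV t (-t)
    have v2 := hV (t + 32) (-t + 32)
    have e1 : t - -t = 2 * t := by ring
    have e2 : t + 32 - (-t + 32) = 2 * t := by ring
    rw [e1] at v1
    rw [e2] at v2
    have a1 := hR1 (-t) (by omega)
    have a2 := hR1 (-t + 32) (by omega)
    exact rigid_se (C t) (R (-t)) (D (t + -t)) (E (2 * t)) (C (t + 32)) (R (-t + 32))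
      (D (t + 32 + (-t + 32))) t ht (hD _) (hD _) (hC1 _ ht) (by omega) v1
      (hC1 _ (by omega)) (by omega) v2
  obtain ⟨gC, hgC⟩ : ∃ g : ℤ → ℤ, ∀ t, t % 2 = 1 → C (2 * t) = t + 32 * g t :=
    ⟨fun t => (C (2 * t) - t) / 32, fun t ht => by have := sC t ht; dsimp only; omega⟩
  obtain ⟨gR, hgR⟩ : ∃ g : ℤ → ℤ, ∀ t, t % 2 = 1 → R (2 * t) = t + 32 * g t :=
    ⟨fun t => (R (2 * t) - t) / 32, fun t ht => by have := sR t ht; dsimp only; omega⟩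
  obtain ⟨gD, hgD⟩ : ∃ g : ℤ → ℤ, ∀ t, t % 2 = 1 → D (2 * t) = t + 32 * g t :=
    ⟨fun t => (D (2 * t) - t) / 32, fun t ht => by have := sD t ht; dsimp only; omega⟩
  obtain ⟨gE, hgE⟩ : ∃ g : ℤ → ℤ, ∀ t, t % 2 = 1 → E (2 * t) = t + 32 * g t :=
    ⟨fun t => (E (2 * t) - t) / 32, fun t ht => by have := sE t ht; dsimp only; omega⟩
  -- the three families of instances
  have F1 : ∀ x y, x % 2 = 1 → y % 2 = 1 → ¬ 16 ∣ x - y → ¬ 16 ∣ x + y →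
      2 ∣ gD (x + 2 * y) - gE (x - 2 * y) ∧
        32 ∣ R (4 * y) - y - 16 * (gD (x + 2 * y) + gC x) := by
    intro x y hx hy h1 h2
    have v := hV (2 * x) (4 * y)
    have e1 : 2 * x + 4 * y = 2 * (x + 2 * y) := by ring
    have e2 : 2 * x - 4 * y = 2 * (x - 2 * y) := by ring
    rw [e1, e2, hgC x hx, hgD _ (by omega), hgE _ (by omega)] at v
    exact rigid_F1 x y _ _ _ _ hx hy (hR _) h1 h2 v
  have F2 : ∀ x y, x % 2 = 1 → y % 2 = 1 → ¬ 8 ∣ x - 3 * y → ¬ 8 ∣ x + 3 * y →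
      2 ∣ gD (x + 4 * y) - gE (x - 4 * y) := by
    intro x y hx hy h1 h2
    have v := hV (2 * x) (8 * y)
    have e1 : 2 * x + 8 * y = 2 * (x + 4 * y) := by ring
    have e2 : 2 * x - 8 * y = 2 * (x - 4 * y) := by ring
    rw [e1, e2, hgC x hx, hgD _ (by omega), hgE _ (by omega)] at v
    exact rigid_F2 x y _ _ _ _ hx hy (hR _) h1 h2 v
  have F3 : ∀ x y, x % 2 = 1 → y % 2 = 1 → ¬ 16 ∣ x - y → ¬ 16 ∣ x + y →
      2 ∣ gD (2 * x + y) - gE (2 * x - y) ∧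
        32 ∣ C (4 * x) - x - 16 * (gD (2 * x + y) + gR y) := by
    intro x y hx hy h1 h2
    have v := hV (4 * x) (2 * y)
    have e1 : 4 * x + 2 * y = 2 * (2 * x + y) := by ring
    have e2 : 4 * x - 2 * y = 2 * (2 * x - y) := by ring
    rw [e1, e2, hgR y hy, hgD _ (by omega), hgE _ (by omega)] at v
    exact rigid_F3 x y _ _ _ _ hx hy (hC _) h1 h2 v
  -- `gD` is constant modulo 2
  have stepA : ∀ s y, s % 4 = 3 → y % 2 = 1 → ¬ 16 ∣ s - 3 * y → ¬ 16 ∣ s - y →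
      ¬ 16 ∣ (s - 1) / 2 - 3 * y → ¬ 16 ∣ (s + 3) / 2 + y → 2 ∣ gD s - gD (s + 2) := by
    intro s y hs hy h1 h2 h3 h4
    have a := (F1 (s - 2 * y) y (by omega) hy (by omega) (by omega)).1
    have b := (F3 ((s + 1) / 2 - y) (1 + 2 * y) (by omega) (by omega) (by omega) (by omega)).1
    have e1 : s - 2 * y + 2 * y = s := by ring
    have e2 : s - 2 * y - 2 * y = s - 4 * y := by ring
    have e3 : 2 * ((s + 1) / 2 - y) + (1 + 2 * y) = s + 2 := by omega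
    have e4 : 2 * ((s + 1) / 2 - y) - (1 + 2 * y) = s - 4 * y := by omega
    rw [e1, e2] at a
    rw [e3, e4] at b
    omega
  have stepB : ∀ s y, s % 4 = 1 → y % 2 = 1 → ¬ 8 ∣ s - 7 * y → ¬ 8 ∣ s - y →
      ¬ 16 ∣ (s - 1) / 2 - 6 * y → ¬ 16 ∣ (s + 3) / 2 + 2 * y → 2 ∣ gD s - gD (s + 2) := by
    intro s y hs hy h1 h2 h3 h4
    have a := F2 (s - 4 * y) y (by omega) hy (by omega) (by omega)
    have b := (F3 ((s + 1) / 2 - 2 * y) (1 + 4 * y) (by omega) (by omega) (by omega)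
      (by omega)).1
    have e1 : s - 4 * y + 4 * y = s := by ring
    have e2 : s - 4 * y - 4 * y = s - 8 * y := by ring
    have e3 : 2 * ((s + 1) / 2 - 2 * y) + (1 + 4 * y) = s + 2 := by omega
    have e4 : 2 * ((s + 1) / 2 - 2 * y) - (1 + 4 * y) = s - 8 * y := by omega
    rw [e1, e2] at a
    rw [e3, e4] at b
    omega
  have cD : ∀ t, t % 2 = 1 → 2 ∣ gD t - gD 1 := by
    apply rigid_const
    intro s hs
    have h4 : s % 4 = 3 ∨ s % 4 = 1 := by omega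
    rcases h4 with h4 | h4
    · by_cases hb : s % 32 = 15 ∨ s % 32 = 27 ∨ s % 32 = 31
      · exact stepA s 3 h4 (by norm_num) (by omega) (by omega) (by omega) (by omega)
      · exact stepA s (-1) h4 (by norm_num) (by omega) (by omega) (by omega) (by omega)
    · by_cases h8 : s % 8 = 1
      · by_cases hb : 16 ∣ (s + 3) / 2 + 2 * 3
        · exact stepB s 5 h4 (by norm_num) (by omega) (by omega) (by omega) (by omega)
        · exact stepB s 3 h4 (by norm_num) (by omega) (by omega) (by omega) (by omega)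
      · by_cases hb : 16 ∣ (s - 1) / 2 - 6 * 1
        · exact stepB s (-1) h4 (by norm_num) (by omega) (by omega) (by omega) (by omega)
        · exact stepB s 1 h4 (by norm_num) (by omega) (by omega) (by omega) (by omega)
  -- `gE = gD` modulo 2
  have cE : ∀ t, t % 2 = 1 → 2 ∣ gE t - gD 1 := by
    intro t ht
    have main : ∀ y, y % 2 = 1 → ¬ 16 ∣ t + y → ¬ 16 ∣ t + 3 * y → 2 ∣ gE t - gD 1 := by
      intro y hy h1 h2
      have a := (F1 (t + 2 * y) y (by omega) hy (by omega) (by omega)).1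
      have e2 : t + 2 * y - 2 * y = t := by ring
      rw [e2] at a
      have b := cD (t + 2 * y + 2 * y) (by omega)
      omega
    by_cases h1 : 16 ∣ t + 1 ∨ 16 ∣ t + 3
    · by_cases h2 : 16 ∣ t + 3
      · exact main 5 (by norm_num) (by omega) (by omega)
      · exact main 3 (by norm_num) (by omega) (by omega)
    · exact main 1 (by norm_num) (by omega) (by omega)
  -- `gC`, `gR` constant
  have cC : ∀ t, t % 2 = 1 → 2 ∣ gC t - gC 1 := by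
    apply rigid_const
    intro s hs
    have main : ∀ y, y % 2 = 1 → ¬ 16 ∣ s - y → ¬ 16 ∣ s + y → ¬ 16 ∣ s + 2 - y →
        ¬ 16 ∣ s + 2 + y → 2 ∣ gC s - gC (s + 2) := by
      intro y hy h1 h2 h3 h4
      have a := (F1 s y hs hy h1 h2).2
      have b := (F1 (s + 2) y (by omega) hy h3 h4).2
      have c1 := cD (s + 2 * y) (by omega)
      have c2 := cD (s + 2 + 2 * y) (by omega)
      omega
    by_cases h8 : s % 8 = 5
    · exact main (s - 2) (by omega) (by omega) (by omega) (by omega) (by omega)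
    · exact main (s + 4) (by omega) (by omega) (by omega) (by omega) (by omega)
  have cR : ∀ t, t % 2 = 1 → 2 ∣ gR t - gR 1 := by
    apply rigid_const
    intro s hs
    have main : ∀ x, x % 2 = 1 → ¬ 16 ∣ s - x → ¬ 16 ∣ s + x → ¬ 16 ∣ s + 2 - x →
        ¬ 16 ∣ s + 2 + x → 2 ∣ gR s - gR (s + 2) := by
      intro x hx h1 h2 h3 h4
      have a := (F3 x s hx hs (by omega) (by omega)).2
      have b := (F3 x (s + 2) hx (by omega) (by omega) (by omega)).2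
      have c1 := cD (2 * x + s) (by omega)
      have c2 := cD (2 * x + (s + 2)) (by omega)
      omega
    by_cases h8 : s % 8 = 5
    · exact main (s - 2) (by omega) (by omega) (by omega) (by omega) (by omega)
    · exact main (s + 4) (by omega) (by omega) (by omega) (by omega) (by omega)
  refine ⟨gC 1, gR 1, gD 1, fun t ht => ?_⟩
  have a1 := hgC t ht
  have a2 := hgR t ht
  have a3 := hgD t ht
  have a4 := hgE t ht
  have b1 := cC t ht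
  have b2 := cR t ht
  have b3 := cD t ht
  have b4 := cE t ht
  refine ⟨?_, ?_, ?_, ?_⟩ <;> omega

end P043
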