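import Vale.Agent.P043.Rigid

namespace P043

/-- the hypotheses of `rigid` -/
structure Lvl (C R D E : ℤ → ℤ) (l α β : ℤ) : Prop where
  hC : ∀ t, C t % 2 = 1
  hR : ∀ t, R t % 2 = 1
  hD : ∀ t, D t % 2 = 1
  hE : ∀ t, E t % 2 = 1
  hV : ∀ x y, VZ (C x) (R y) (D (x + y)) (E (x - y))
  hl : l % 2 = 1
  hC1 : ∀ t, (t + α) % 2 = 1 → 64 ∣ C t - l * (t + α)
  hR1 : ∀ t, (t + β) % 2 = 1 → 64 ∣ R t - l * (t + β)
  hD1 : ∀ t, (t + α + β) % 2 = 1 → 64 ∣ D t - l * (t + α + β)
  hE1 : ∀ t, (t + α - β) % 2 = 1 → 64 ∣ E t - l * (t + α - β)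

theorem VZ.scale {c r d e : ℤ} (m : ℤ) (h : VZ c r d e) :
    VZ (m * c) (m * r) (m * d) (m * e) := by
  obtain ⟨k, hk, h⟩ := h
  refine ⟨k, hk, ?_⟩
  rcases h with ⟨h1, h2⟩ | ⟨h1, h2⟩ | ⟨h1, h2⟩ | ⟨h1, h2⟩
  · left
    exact ⟨by have := h1.mul_left m; ring_nf at this ⊢; exact this,
      by have := h2.mul_left m; ring_nf at this ⊢; exact this⟩
  · right; left
    exact ⟨by have := h1.mul_left m; ring_nf at this ⊢; exact this,
      by have := h2.mul_left m; ring_nf at this ⊢; exact this⟩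
  · right; right; left
    exact ⟨by have := h1.mul_left m; ring_nf at this ⊢; exact this,
      by have := h2.mul_left m; ring_nf at this ⊢; exact this⟩
  · right; right; right
    exact ⟨by have := h1.mul_left m; ring_nf at this ⊢; exact this,
      by have := h2.mul_left m; ring_nf at this ⊢; exact this⟩

theorem exists_inv64 {l : ℤ} (hl : l % 2 = 1) : ∃ m : ℤ, m % 2 = 1 ∧ 64 ∣ m * l - 1 := by
  have hc : IsCoprime l 64 := by
    have h2 : IsCoprime l 2 := by
      refine ⟨1, -(l / 2), ?_⟩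
      omega
    have : (64 : ℤ) = 2 ^ 6 := by norm_num
    rw [this]
    exact h2.pow_right
  obtain ⟨a, b, hab⟩ := hc
  refine ⟨a, ?_, ⟨-b, by linear_combination hab⟩⟩
  by_contra h
  have h1 : a % 2 = 0 := by omega
  have h2 : (a * l) % 2 = 0 := by rw [Int.mul_emod, h1]; simp
  omega

/-- passing from `l t + 32 g` data to clock data -/
theorem clock_aux {l g a : ℤ} (hl : l % 2 = 1) (t gc c : ℤ) (ht : t % 2 = 1)
    (hc : 64 ∣ c - l * t - 32 * gc) (h : 2 ∣ g + a - gc) :
    64 ∣ c - (l + 32 * g) * (t + 32 * a) := by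
  obtain ⟨k, hk⟩ := hc
  obtain ⟨j, hj⟩ := h
  obtain ⟨l1, hl1⟩ : ∃ l1, l = 2 * l1 + 1 := ⟨l / 2, by omega⟩
  obtain ⟨t1, ht1⟩ : ∃ t1, t = 2 * t1 + 1 := ⟨t / 2, by omega⟩
  have hgc : gc = g + a - 2 * j := by omega
  have hc' : c = 64 * k + l * t + 32 * gc := by omega
  refine ⟨k - g * t1 - l1 * a - 16 * g * a - j, ?_⟩
  rw [hc', hgc, hl1, ht1]
  ring

theorem Lvl.step {C R D E : ℤ → ℤ} {l α β : ℤ} (h : Lvl C R D E l α β) :
    ∃ l' α' β', Lvl (fun t => C (2 * t - α)) (fun t => R (2 * t - β))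
      (fun t => D (2 * t - α - β)) (fun t => E (2 * t - α + β)) l' α' β' := by
  obtain ⟨m, hm, hml⟩ := exists_inv64 h.hl
  have odd_mul : ∀ c : ℤ, c % 2 = 1 → (m * c) % 2 = 1 := by
    intro c hc
    rw [Int.mul_emod, hm, hc]; rfl
  have cancel : ∀ c x : ℤ, 64 ∣ c - l * x → 64 ∣ m * c - x := by
    intro c x hc
    obtain ⟨a, ha⟩ := hc
    obtain ⟨b, hb⟩ := hml
    exact ⟨m * a + b * x, by linear_combination m * ha + x * hb⟩
  obtain ⟨gC, gR, gD, hg⟩ := norm_step (fun t => m * C (t - α)) (fun t => m * R (t - β))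
    (fun t => m * D (t - α - β)) (fun t => m * E (t - α + β))
    (fun t => odd_mul _ (h.hC _)) (fun t => odd_mul _ (h.hR _)) (fun t => odd_mul _ (h.hD _))
    (fun t => odd_mul _ (h.hE _))
    (by
      intro x y
      have := (h.hV (x - α) (y - β)).scale m
      have e1 : x - α + (y - β) = x + y - α - β := by ring
      have e2 : x - α - (y - β) = x - y - α + β := by ring
      rw [e1, e2] at this
      exact this)
    (by
      intro t ht
      apply cancel
      have := h.hC1 (t - α) (by rw [sub_add_cancel]; exact ht)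
      rwa [sub_add_cancel] at this)
    (by
      intro t ht
      apply cancel
      have := h.hR1 (t - β) (by rw [sub_add_cancel]; exact ht)
      rwa [sub_add_cancel] at this)
    (by
      intro t ht
      apply cancel
      have e : t - α - β + α + β = t := by ring
      have := h.hD1 (t - α - β) (by rw [e]; exact ht)
      rwa [e] at this)
    (by
      intro t ht
      apply cancel
      have e : t - α + β + α - β = t := by ring
      have := h.hE1 (t - α + β) (by rw [e]; exact ht)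
      rwa [e] at this)
  -- undo the scaling
  have hl2 := h.hl
  have uncancel : ∀ c t gc : ℤ, 64 ∣ m * c - t - 32 * gc → 64 ∣ c - l * t - 32 * gc := by
    intro c t gc hc
    obtain ⟨a, ha⟩ := hc
    obtain ⟨b, hb⟩ := hml
    obtain ⟨l1, hl1⟩ : ∃ l1, l = 2 * l1 + 1 := ⟨l / 2, by omega⟩
    refine ⟨l * a - b * c + l1 * gc, ?_⟩
    have h1 : l * (m * c - t - 32 * gc) = l * (64 * a) := by rw [ha]
    have h2 : (m * l - 1) * c = 64 * b * c := by rw [hb]
    have h3 : l * (32 * gc) = 32 * gc + 64 * (l1 * gc) := by rw [hl1]; ring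
    linear_combination h1 - h2 + h3
  refine ⟨l + 32 * (gC + gR + gD), 32 * (gR + gD), 32 * (gC + gD), ?_⟩
  refine ⟨fun t => h.hC _, fun t => h.hR _, fun t => h.hD _, fun t => h.hE _, ?_, ?_, ?_, ?_, ?_,
    ?_⟩
  · intro x y
    have := h.hV (2 * x - α) (2 * y - β)
    have e1 : 2 * x - α + (2 * y - β) = 2 * (x + y) - α - β := by ring
    have e2 : 2 * x - α - (2 * y - β) = 2 * (x - y) - α + β := by ring
    rw [e1, e2] at this
    exact this
  · have := h.hl
    omega
  · intro t ht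
    have ht' : t % 2 = 1 := by omega
    have h1 := uncancel _ _ _ (hg t ht').1
    exact clock_aux h.hl t gC _ ht' h1 ⟨gR + gD, by ring⟩
  · intro t ht
    have ht' : t % 2 = 1 := by omega
    have h1 := uncancel _ _ _ (hg t ht').2.1
    exact clock_aux h.hl t gR _ ht' h1 ⟨gC + gD, by ring⟩
  · intro t ht
    have ht' : t % 2 = 1 := by omega
    have h1 := uncancel _ _ _ (hg t ht').2.2.1
    have h2 := clock_aux (g := gC + gR + gD) (a := gR + gC + 2 * gD) h.hl t gD _ ht' h1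
      ⟨gC + gR + gD, by ring⟩
    have e : t + 32 * (gR + gC + 2 * gD) = t + 32 * (gR + gD) + 32 * (gC + gD) := by ring
    rw [e] at h2
    exact h2
  · intro t ht
    have ht' : t % 2 = 1 := by omega
    have h1 := uncancel _ _ _ (hg t ht').2.2.2
    have h2 := clock_aux (g := gC + gR + gD) (a := gR - gC) h.hl t gD _ ht' h1
      ⟨gR, by ring⟩
    have e : t + 32 * (gR - gC) = t + 32 * (gR + gD) - 32 * (gC + gD) := by ring
    rw [e] at h2
    exact h2

theorem Lvl.not_periodic (m : ℕ) : 0 < m → ∀ (C R D E : ℤ → ℤ) (l α β : ℤ),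
    Lvl C R D E l α β → ¬ ∀ t, 64 ∣ C (t + m) - C t := by
  induction m using Nat.strong_induction_on with
  | _ m ih =>
    intro hm C R D E l α β h hper
    rcases Nat.even_or_odd' m with ⟨k, hk | hk⟩
    · obtain ⟨l', α', β', h'⟩ := h.step
      refine ih k (by omega) (by omega) _ _ _ _ _ _ _ h' ?_
      intro t
      have := hper (2 * t - α)
      have e : (2 * t - α + (m : ℤ)) = 2 * (t + k) - α := by rw [hk]; push_cast; ring
      rw [e] at this
      exact this
    · have h1 := h.hC1 (1 - α) (by omega)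
      have h2 := h.hC1 (1 - α + m + m) (by omega)
      have h3 := hper (1 - α)
      have h4 := hper (1 - α + m)
      obtain ⟨a1, ha1⟩ := h1
      obtain ⟨a2, ha2⟩ := h2
      obtain ⟨a3, ha3⟩ := h3
      obtain ⟨a4, ha4⟩ := h4
      have h5 : l * (2 * m) = 64 * (a1 - a2 + a3 + a4) := by linear_combination ha1 - ha2 + ha3 + ha4
      have h6 : l * m = 32 * (a1 - a2 + a3 + a4) := by linarith
      have h7 : (l * (m : ℤ)) % 2 = 1 := by
        rw [Int.mul_emod, h.hl]
        have : (m : ℤ) % 2 = 1 := by omega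
        rw [this]; rfl
      omega

/-- rigidity: a 4-tuple of functions with clocks on one parity class is never periodic. -/
theorem rigid (C R D E : ℤ → ℤ)
    (hC : ∀ t, C t % 2 = 1) (hR : ∀ t, R t % 2 = 1) (hD : ∀ t, D t % 2 = 1)
    (hE : ∀ t, E t % 2 = 1)
    (hV : ∀ x y, VZ (C x) (R y) (D (x + y)) (E (x - y)))
    (l α β : ℤ) (hl : l % 2 = 1)
    (hC1 : ∀ t, (t + α) % 2 = 1 → 64 ∣ C t - l * (t + α))
    (hR1 : ∀ t, (t + β) % 2 = 1 → 64 ∣ R t - l * (t + β))
    (hD1 : ∀ t, (t + α + β) % 2 = 1 → 64 ∣ D t - l * (t + α + β))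
    (hE1 : ∀ t, (t + α - β) % 2 = 1 → 64 ∣ E t - l * (t + α - β)) :
    ¬ ∃ m : ℤ, 0 < m ∧ ∀ t, 64 ∣ C (t + m) - C t := by
  rintro ⟨m, hm, hper⟩
  obtain ⟨k, rfl⟩ := Int.eq_ofNat_of_zero_le hm.le
  exact Lvl.not_periodic k (by exact_mod_cast hm) C R D E l α β
    ⟨hC, hR, hD, hE, hV, hl, hC1, hR1, hD1, hE1⟩ hper

end P043
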