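import Vale.Agent.P043.Gadget

namespace P043

/-- A set tiled by the fibre `{0} × H` is the graph of a function. -/
theorem system_graph {G0 H : Type} [AddCommGroup G0] [AddCommGroup H] {A : Set (G0 × H)}
    (hA : Tl A {p | p.1 = 0}) : ∃ f : G0 → H, A = graph f := by
  have key : ∀ y : G0, ∃! w : H, (y, w) ∈ A := by
    intro y
    obtain ⟨f, ⟨hf0, hfA⟩, huniq⟩ := hA (y, 0)
    refine ⟨-f.2, ?_, ?_⟩
    · have h1 : ((y, 0) : G0 × H) - f = (y, -f.2) := by
        ext
        · simpa using hf0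
        · simp
      simpa [h1] using hfA
    · intro w hw
      have h2 := huniq (0, -w) ⟨rfl, by simpa using hw⟩
      rw [← h2]
      simp
  choose f hf hu using key
  refine ⟨f, ?_⟩
  ext ⟨y, w⟩
  constructor
  · intro h
    exact hu y w h
  · intro h
    have h' : w = f y := h
    rw [h']
    exact hf y

theorem system_graph_tl {G0 H : Type} [AddCommGroup G0] [AddCommGroup H] (f : G0 → H) :
    Tl (graph f) {p : G0 × H | p.1 = 0} := by
  rintro ⟨y, z⟩
  refine ⟨(0, z - f y), ⟨rfl, ?_⟩, ?_⟩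
  · change z - (z - f y) = f (y - 0)
    simp
  · rintro ⟨a, k⟩ ⟨ha, hk⟩
    have ha' : a = 0 := ha
    subst ha'
    have hk' : z - k = f (y - 0) := hk
    rw [sub_zero] at hk'
    ext
    · rfl
    · change k = z - f y
      rw [← hk']
      abel

theorem system_mper {G0 H : Type} [AddCommGroup G0] [AddCommGroup H] {f : G0 → H}
    (h : MPer (graph f)) : ∃ m : ℕ, 0 < m ∧ ∀ g y, f (y + m • g) = f y := by
  obtain ⟨m, hm, h⟩ := h
  refine ⟨m, hm, fun g y => ?_⟩
  have h1 := h (g, 0) (y, f y) rfl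
  have h2 : f y + m • (0 : H) = f (y + m • g) := h1
  rw [smul_zero, add_zero] at h2
  exact h2.symm

/-- A system of invariances `f_{pj p}(y + pd p) = f_{pj p}(y)` and OR-clauses, with a solution but
no periodic solution, gives a bad family. -/
theorem system {G0 J : Type} [AddCommGroup G0] [Fintype J] [DecidableEq J] (n : J → ℕ)
    [∀ j, NeZero (n j)]
    {C : Type} [Finite C] (I : C → Type) [∀ c, Fintype (I c)] [∀ c, Nonempty (I c)]
    [∀ c, DecidableEq (I c)]
    (idx : ∀ c, I c → J) (d : ∀ c, I c → G0) (κ : ∀ c, I c → ℤ)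
    (hidx : ∀ c, Function.Injective (idx c))
    (hd : ∀ c, Function.Injective (fun s : Finset (I c) => ∑ i ∈ s, d c i))
    {P : Type} [Finite P] (pj : P → J) (pd : P → G0) (hpd : ∀ p, pd p ≠ 0)
    (hinv : ∀ c i l, i ≠ l → ∃ p, pj p = idx c i ∧ pd p = d c l)
    (hex : ∃ f : G0 → ∀ j, ZMod (n j), (∀ p y, f (y + pd p) (pj p) = f y (pj p)) ∧
      ∀ c y, ∃ i, f (y + d c i) (idx c i) = f y (idx c i) + ((κ c i : ℤ) : ZMod (n (idx c i))))
    (hper : ∀ f : G0 → ∀ j, ZMod (n j), (∀ p y, f (y + pd p) (pj p) = f y (pj p)) →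
      (∀ c y, ∃ i, f (y + d c i) (idx c i) = f y (idx c i) + ((κ c i : ℤ) : ZMod (n (idx c i)))) →
      ¬ ∃ m : ℕ, 0 < m ∧ ∀ g y, f (y + m • g) = f y) :
    ∃ N, BadFam (G0 × (∀ j, ZMod (n j))) N := by
  classical
  -- the one-atom gadgets for the invariances
  have hP : ∀ p : P, ∃ F : Set (G0 × (∀ j, ZMod (n j))), F.Finite ∧
      ∀ f : G0 → ∀ j, ZMod (n j),
        (Tl (graph f) F ↔ ∀ y, f (y + pd p) (pj p) = f y (pj p)) := by
    intro p
    have hinj : Function.Injective (fun s : Finset Unit => ∑ i ∈ s, (fun _ : Unit => pd p) i) := by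
      intro s t hst
      have hs : s = ∅ ∨ s = {()} := by
        rcases s.eq_empty_or_nonempty with h | h
        · exact Or.inl h
        · obtain ⟨x, hx⟩ := h
          right
          ext u
          exact ⟨fun _ => Finset.mem_singleton.2 rfl, fun _ => hx⟩
      have ht : t = ∅ ∨ t = {()} := by
        rcases t.eq_empty_or_nonempty with h | h
        · exact Or.inl h
        · obtain ⟨x, hx⟩ := h
          right
          ext u
          exact ⟨fun _ => Finset.mem_singleton.2 rfl, fun _ => hx⟩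
      rcases hs with rfl | rfl <;> rcases ht with rfl | rfl
      · rfl
      · exact absurd (by simpa using hst.symm) (hpd p)
      · exact absurd (by simpa using hst) (hpd p)
      · rfl
    obtain ⟨F, hF, h⟩ := gadget n (fun _ : Unit => pj p) (fun _ _ _ => rfl) (fun _ => pd p)
      (fun _ => 0) hinj
    refine ⟨F, hF, fun f => ?_⟩
    rw [h f (fun y i l hil => absurd (Subsingleton.elim i l) hil)]
    constructor
    · intro hh y
      obtain ⟨_, hi⟩ := hh y
      simpa using hi
    · intro hh y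
      exact ⟨(), by simpa using hh y⟩
  have hC : ∀ c : C, ∃ F : Set (G0 × (∀ j, ZMod (n j))), F.Finite ∧
      ∀ f : G0 → ∀ j, ZMod (n j), (∀ p y, f (y + pd p) (pj p) = f y (pj p)) →
        (Tl (graph f) F ↔ ∀ y, ∃ i, f (y + d c i) (idx c i) =
          f y (idx c i) + ((κ c i : ℤ) : ZMod (n (idx c i)))) := by
    intro c
    obtain ⟨F, hF, h⟩ := gadget n (idx c) (hidx c) (d c) (κ c) (hd c)
    refine ⟨F, hF, fun f hf => h f ?_⟩
    intro y i l hil
    obtain ⟨p, hp1, hp2⟩ := hinv c i l hil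
    rw [← hp1, ← hp2]
    exact hf p y
  choose FP hFP hFP' using hP
  choose FC hFC hFC' using hC
  -- the index type
  obtain ⟨N, ⟨e⟩⟩ : ∃ N, Nonempty (Fin (N + 1) ≃ Option (P ⊕ C)) := by
    obtain ⟨M, ⟨e⟩⟩ := Finite.exists_equiv_fin (Option (P ⊕ C))
    cases M with
    | zero => exact (Fin.elim0 (e none))
    | succ N => exact ⟨N, ⟨e.symm⟩⟩
  let Ft : Option (P ⊕ C) → Set (G0 × (∀ j, ZMod (n j))) := fun o =>
    match o with
    | none => {p | p.1 = 0}
    | some (Sum.inl p) => FP p
    | some (Sum.inr c) => FC c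
  have hfin : ∀ o, (Ft o).Finite := by
    intro o
    match o with
    | none =>
      have : ({p : G0 × (∀ j, ZMod (n j)) | p.1 = 0}) =
          (fun z : (∀ j, ZMod (n j)) => ((0 : G0), z)) '' Set.univ := by
        ext ⟨a, z⟩
        simp [eq_comm]
      change ({p : G0 × (∀ j, ZMod (n j)) | p.1 = 0}).Finite
      rw [this]
      exact Set.finite_univ.image _
    | some (Sum.inl p) => exact hFP p
    | some (Sum.inr c) => exact hFC c
  refine ⟨N, fun i => Ft (e i), fun i => hfin _, ?_, ?_⟩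
  · obtain ⟨f, hf1, hf2⟩ := hex
    have hall : ∀ o, Tl (graph f) (Ft o) := by
      intro o
      match o with
      | none => exact system_graph_tl f
      | some (Sum.inl p) => exact (hFP' p f).2 (hf1 p)
      | some (Sum.inr c) => exact (hFC' c f hf1).2 (hf2 c)
    exact ⟨graph f, fun i => hall (e i)⟩
  · intro A hA hm
    have hA' : ∀ o, Tl A (Ft o) := by
      intro o
      have := hA (e.symm o)
      simpa using this
    obtain ⟨f, rfl⟩ := system_graph (hA' none)
    have hf1 : ∀ p y, f (y + pd p) (pj p) = f y (pj p) := fun p =>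
      (hFP' p f).1 (hA' (some (Sum.inl p)))
    exact hper f hf1 (fun c => (hFC' c f hf1).1 (hA' (some (Sum.inr c)))) (system_mper hm)

end P043
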